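import Vale.Agent.Lib.P328.Ent.Defs

/-!
# P328, all margins: splitting the weights over the first column
-/

namespace Vale.Agent.Lib.P328.Ent

open Finset MeasureTheory Vale.Agent.Lib.P328 Vale.Agent.Lib.P328.Cap
open scoped ENNReal Nat

variable {m n : ℕ}

theorem w1_nonneg {u : Fin m → ℝ} (hu : ∀ i, 0 < u i) (x : Fin m → ℕ) : 0 ≤ w1 u x := by
  unfold w1
  exact Finset.prod_nonneg fun i _ => div_nonneg (pow_nonneg (hu i).le _) (Nat.cast_nonneg _)

theorem FF_nonneg {t : Fin n → Fin m → ℝ} (ht : ∀ j i, 0 < t j i) (r : Fin m → ℕ) (c : Fin n → ℕ) :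
    0 ≤ Sparse.FF r c t := by
  unfold Sparse.FF
  exact Finset.sum_nonneg fun T _ => (Sparse.wt_pos ht T).le

/-- The weight of a table splits over the first column. -/
theorem wt_cons (u : Fin m → ℝ) (t' : Fin n → Fin m → ℝ) (x : Fin m → ℕ)
    (T' : Fin n → Fin m → ℕ) :
    Sparse.wt (Fin.cons u t' : Fin (n + 1) → Fin m → ℝ) (Fin.cons x T') = w1 u x * Sparse.wt t' T' := by
  unfold Sparse.wt w1
  rw [Fin.prod_univ_succ]
  simp only [Fin.cons_zero, Fin.cons_succ]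

/-- Sums over tables, split over the first column. -/
theorem sum_tabs_cons (R : Fin m → ℕ) (c0 : ℕ) (c' : Fin n → ℕ)
    (f : (Fin m → ℕ) → (Fin n → Fin m → ℕ) → ℝ) :
    ∑ T ∈ tabs R (Fin.cons c0 c'), f (T 0) (Fin.tail T)
      = ∑ x ∈ lev R c0, ∑ T' ∈ tabs (fun i => R i - x i) c', f x T' := by
  have hmaps : ∀ T ∈ tabs R (Fin.cons c0 c'), T 0 ∈ lev R c0 := by
    intro T hT
    obtain ⟨hTc, hTr⟩ := mem_tabs.1 hT
    refine mem_lev.2 ⟨fun i => ?_, by simpa using hTc 0⟩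
    rw [← hTr i, Fin.sum_univ_succ]
    omega
  rw [← Finset.sum_fiberwise_of_maps_to hmaps]
  refine Finset.sum_congr rfl fun x hx => ?_
  obtain ⟨hxR, hxc⟩ := mem_lev.1 hx
  refine Finset.sum_nbij' (fun T l => T l.succ) (fun T' => Fin.cons x T') ?_ ?_ ?_ ?_ ?_
  · intro T hT
    obtain ⟨hTt, hT0⟩ := mem_filter.1 hT
    obtain ⟨hTc, hTr⟩ := mem_tabs.1 hTt
    refine mem_tabs.2 ⟨fun l => ?_, fun i => ?_⟩
    · have := hTc l.succ
      simpa using this
    · have := hTr i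
      rw [Fin.sum_univ_succ, hT0] at this
      omega
  · intro T' hT'
    obtain ⟨hTc, hTr⟩ := mem_tabs.1 hT'
    refine mem_filter.2 ⟨mem_tabs.2 ⟨fun j => ?_, fun i => ?_⟩, rfl⟩
    · refine Fin.cases ?_ (fun l => ?_) j
      · simpa using hxc
      · simpa using hTc l
    · rw [Fin.sum_univ_succ]
      simp only [Fin.cons_zero, Fin.cons_succ]
      rw [hTr i]
      have := hxR i
      omega
  · intro T hT
    obtain ⟨hTt, hT0⟩ := mem_filter.1 hT
    funext j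
    refine Fin.cases ?_ (fun l => ?_) j
    · simp [hT0]
    · simp
  · intro T' _
    funext l
    simp
  · intro T hT
    obtain ⟨_, hT0⟩ := mem_filter.1 hT
    rw [hT0]
    rfl

theorem FF_cons (R : Fin m → ℕ) (c0 : ℕ) (c' : Fin n → ℕ) (u : Fin m → ℝ) (t' : Fin n → Fin m → ℝ) :
    Sparse.FF R (Fin.cons c0 c') (Fin.cons u t') = ZZ R c0 c' u t' := by
  unfold Sparse.FF ZZ amp Sparse.FF
  have h := sum_tabs_cons R c0 c' (fun x T' => w1 u x * Sparse.wt t' T')
  have h2 : ∀ T : Fin (n + 1) → Fin m → ℕ,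
      Sparse.wt (Fin.cons u t' : Fin (n + 1) → Fin m → ℝ) T = w1 u (T 0) * Sparse.wt t' (Fin.tail T) := by
    intro T
    rw [← wt_cons, Fin.cons_self_tail]
  simp only [h2]
  rw [h]
  refine Finset.sum_congr rfl fun x _ => ?_
  rw [Finset.mul_sum]

/-- The posterior mean as a sum over tables. -/
theorem sum_entry_cons (R : Fin m → ℕ) (c0 : ℕ) (c' : Fin n → ℕ) (u : Fin m → ℝ)
    (t' : Fin n → Fin m → ℝ) (i : Fin m) :
    ∑ T ∈ tabs R (Fin.cons c0 c'), (T 0 i : ℝ) * Sparse.wt (Fin.cons u t') T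
      = ∑ x ∈ lev R c0, amp R c' u t' x * (x i : ℝ) := by
  unfold amp Sparse.FF
  have h := sum_tabs_cons R c0 c' (fun x T' => (x i : ℝ) * (w1 u x * Sparse.wt t' T'))
  have h2 : ∀ T : Fin (n + 1) → Fin m → ℕ,
      Sparse.wt (Fin.cons u t' : Fin (n + 1) → Fin m → ℝ) T = w1 u (T 0) * Sparse.wt t' (Fin.tail T) := by
    intro T
    rw [← wt_cons, Fin.cons_self_tail]
  simp only [h2]
  rw [h]
  refine Finset.sum_congr rfl fun x _ => ?_
  rw [Finset.mul_sum, Finset.sum_mul]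
  refine Finset.sum_congr rfl fun T' _ => ?_
  ring

end Vale.Agent.Lib.P328.Ent
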