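import Vale.Agent.Lib.P328.Sparse.Gamma
import Vale.Agent.Lib.P328.Sparse.Flux
import Vale.Agent.Lib.P328.Sparse.Chain

/-!
# P328, all margins: definitions of the entropy chain

Tables are written by columns as in `Vale.Agent.Lib.P328.Cap`: `T j i` is the entry in column `j`
and row `i`. A stage has row sums `R`, a first column of sum `c0`, later columns of sums `c'`, and
coefficients `u` (first column) and `t'` (later columns).
-/

namespace Vale.Agent.Lib.P328.Ent

open Finset MeasureTheory Vale.Agent.Lib.P328 Vale.Agent.Lib.P328.Cap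
open scoped ENNReal Nat

variable {m n : ℕ}

/-- The weight `∏ u ^ x / x !` of one column. -/
noncomputable def w1 (u : Fin m → ℝ) (x : Fin m → ℕ) : ℝ := ∏ i, (u i ^ x i / ((x i)! : ℝ))

/-- The posterior weight of the first column `x`, before normalisation. -/
noncomputable def amp (R : Fin m → ℕ) (c' : Fin n → ℕ) (u : Fin m → ℝ) (t' : Fin n → Fin m → ℝ)
    (x : Fin m → ℕ) : ℝ :=
  w1 u x * Sparse.FF (fun i => R i - x i) c' t'

/-- The normalisation of the posterior of the first column. -/
noncomputable def ZZ (R : Fin m → ℕ) (c0 : ℕ) (c' : Fin n → ℕ) (u : Fin m → ℝ)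
    (t' : Fin n → Fin m → ℝ) : ℝ :=
  ∑ x ∈ lev R c0, amp R c' u t' x

/-- The posterior of the first column. -/
noncomputable def post (R : Fin m → ℕ) (c0 : ℕ) (c' : Fin n → ℕ) (u : Fin m → ℝ)
    (t' : Fin n → Fin m → ℝ) (x : Fin m → ℕ) : ℝ :=
  amp R c' u t' x / ZZ R c0 c' u t'

/-- The posterior mean of an entry of the first column. -/
noncomputable def Ybar (R : Fin m → ℕ) (c0 : ℕ) (c' : Fin n → ℕ) (u : Fin m → ℝ)
    (t' : Fin n → Fin m → ℝ) (i : Fin m) : ℝ :=
  ∑ x ∈ lev R c0, post R c0 c' u t' x * (x i : ℝ)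

/-- The posterior share of a row in the first column. -/
noncomputable def pbar (R : Fin m → ℕ) (c0 : ℕ) (c' : Fin n → ℕ) (u : Fin m → ℝ)
    (t' : Fin n → Fin m → ℝ) (i : Fin m) : ℝ :=
  Ybar R c0 c' u t' i / (R i : ℝ)

/-- The factor lost by one column: the positive part of the logarithm of the ratio of the point
probability of a sum of binomials at its mean to the same point probability with equal shares. -/
noncomputable def lossF (R : Fin m → ℕ) (c0 : ℕ) (c' : Fin n → ℕ) (u : Fin m → ℝ)
    (t' : Fin n → Fin m → ℝ) : ℝ :=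
  max (Real.log (Pk R (pbar R c0 c' u t') c0
    / bw (∑ i, R i) ((c0 : ℝ) / ((∑ i, R i : ℕ) : ℝ)) c0)) 0

/-- The loss of the whole chain of columns, averaged over the posterior path. -/
noncomputable def Bfun {m : ℕ} :
    (n : ℕ) → (Fin m → ℕ) → (Fin (n + 1) → ℕ) → (Fin (n + 1) → Fin m → ℝ) → ℝ
  | 0, _, _, _ => 0
  | n + 1, R, c, t =>
      lossF R (c 0) (Fin.tail c) (t 0) (Fin.tail t)
        + ∑ x ∈ lev R (c 0), post R (c 0) (Fin.tail c) (t 0) (Fin.tail t) x
            * Bfun n (fun i => R i - x i) (Fin.tail c) (Fin.tail t)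

/-- `log (N + 3)`. -/
noncomputable def ell (N : ℕ) : ℝ := Real.log ((N : ℝ) + 3)

theorem ell_ge_one (N : ℕ) : 1 ≤ ell N := by
  unfold ell
  rw [Real.le_log_iff_exp_le (by positivity)]
  have h : Real.exp 1 < 3 := by
    have := Real.exp_one_lt_d9
    norm_num at this ⊢
    linarith
  have hN : (0 : ℝ) ≤ N := Nat.cast_nonneg _
  linarith

theorem ell_mono {N N' : ℕ} (h : N ≤ N') : ell N ≤ ell N' := by
  unfold ell
  refine Real.log_le_log (by positivity) ?_
  have : (N : ℝ) ≤ N' := by exact_mod_cast h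
  linarith

/-- The cross ratio sum of the row `i` and the first column. -/
noncomputable def Di (T : Fin (n + 1) → Fin m → ℕ) (t : Fin (n + 1) → Fin m → ℝ) (i : Fin m) : ℝ :=
  ∑ l : Fin n, ∑ i', (T l.succ i' : ℝ) * (t l.succ i * t 0 i' / (t 0 i * t l.succ i'))

/-- The pointwise bound of the share of row `i`. -/
noncomputable def Gi (c0 : ℕ) (T : Fin (n + 1) → Fin m → ℕ) (t : Fin (n + 1) → Fin m → ℝ)
    (i : Fin m) : ℝ :=
  (1 + Di T t i / (c0 : ℝ))⁻¹

/-- The tokens: cells of later columns with positive entry outside the row `i`. -/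
def Ei (T : Fin (n + 1) → Fin m → ℕ) (i : Fin m) : Finset (Fin n × Fin m) :=
  univ.filter fun e => e.2 ≠ i ∧ 1 ≤ T e.1.succ e.2

/-- The first half of the later columns: those with many columns after them. -/
def Lset (n : ℕ) : Finset (Fin n) := univ.filter fun l => 2 * ((l : ℕ) + 1) ≤ n + 1

/-- The rows that are small against the number of columns `ν`. -/
def rowsD (R : Fin m → ℕ) (ν : ℕ) : Finset (Fin m) := univ.filter fun i => 0 < R i ∧ 8 * R i ≤ ν

/-- The rows that are large against the number of columns `ν`. -/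
def rowsB (R : Fin m → ℕ) (ν : ℕ) : Finset (Fin m) := univ.filter fun i => ν < 8 * R i

end Vale.Agent.Lib.P328.Ent
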