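import Vale.Agent.Lib.P328.Ent.Cons

/-!
# P328, all margins: the pointwise capacity bound
-/

namespace Vale.Agent.Lib.P328.Ent

open Finset MeasureTheory Vale.Agent.Lib.P328 Vale.Agent.Lib.P328.Cap
open scoped ENNReal Nat

variable {m n : ℕ}

/-- The row inequality, at the posterior mean. -/
theorem row_amgm (R : ℕ) (Y a S : ℝ) (hY0 : 0 ≤ Y) (hYR : Y ≤ R) (ha : 0 < a) (hS : 0 < S) :
    Y * Real.log a + ((R : ℝ) - Y) * Real.log S - Y * Real.log (Y / R)
      - ((R : ℝ) - Y) * Real.log (1 - Y / R) ≤ (R : ℝ) * Real.log (a + S) := by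
  rcases Nat.eq_zero_or_pos R with rfl | hR
  · have hY : Y = 0 := le_antisymm (by simpa using hYR) hY0
    simp [hY]
  have hR' : (0 : ℝ) < R := by exact_mod_cast hR
  have hs : 0 < a + S := by positivity
  rcases eq_or_lt_of_le hY0 with h | hY
  · rw [← h]
    simp only [zero_mul, sub_zero, zero_div, Real.log_one, mul_zero, zero_add]
    exact mul_le_mul_of_nonneg_left (Real.log_le_log hS (by linarith)) hR'.le
  rcases eq_or_lt_of_le hYR with h | hYR'
  · rw [h]
    have : (R : ℝ) / R = 1 := div_self hR'.ne'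
    rw [this]
    simp only [sub_self, zero_mul, add_zero, Real.log_one, mul_zero, sub_zero, Real.log_zero]
    exact mul_le_mul_of_nonneg_left (Real.log_le_log ha (by linarith)) hR'.le
  set p := Y / R with hp
  have hp0 : 0 < p := by positivity
  have hp1 : p < 1 := by
    rw [hp, div_lt_one hR']
    exact hYR'
  have hq : 0 < 1 - p := by linarith
  have hY2 : Y = R * p := by
    rw [hp]
    field_simp
  have h1 := Real.log_le_sub_one_of_pos (show 0 < a / (p * (a + S)) by positivity)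
  have h2 := Real.log_le_sub_one_of_pos (show 0 < S / ((1 - p) * (a + S)) by positivity)
  rw [Real.log_div ha.ne' (by positivity), Real.log_mul hp0.ne' hs.ne'] at h1
  rw [Real.log_div hS.ne' (by positivity), Real.log_mul hq.ne' hs.ne'] at h2
  have hYp := mul_le_mul_of_nonneg_left h1 (show 0 ≤ (R : ℝ) * p by positivity)
  have hYq := mul_le_mul_of_nonneg_left h2 (show 0 ≤ (R : ℝ) * (1 - p) by positivity)
  have e1 : (R : ℝ) * p * (a / (p * (a + S)) - 1) = R * (a / (a + S)) - R * p := by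
    field_simp
  have e2 : (R : ℝ) * (1 - p) * (S / ((1 - p) * (a + S)) - 1) = R * (S / (a + S)) - R * (1 - p) := by
    field_simp
  have e3 : (R : ℝ) * (a / (a + S)) + R * (S / (a + S)) = R := by
    field_simp
  rw [e1] at hYp
  rw [e2] at hYq
  rw [hY2]
  have e4 : (R : ℝ) - R * p = R * (1 - p) := by ring
  rw [e4]
  nlinarith

/-- The Gibbs inequality. -/
theorem gibbs_sum {α : Type*} (S : Finset α) (P w : α → ℝ) (hP : ∀ x ∈ S, 0 < P x)
    (hw : ∀ x ∈ S, 0 < w x) (hsum : ∑ x ∈ S, P x = 1) :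
    -Real.log (∑ x ∈ S, w x) ≤ ∑ x ∈ S, P x * (Real.log (P x) - Real.log (w x)) := by
  have hne : S.Nonempty := by
    by_contra h
    rw [Finset.not_nonempty_iff_eq_empty] at h
    rw [h] at hsum
    simp at hsum
  set W := ∑ x ∈ S, w x with hW
  have hW0 : 0 < W := Finset.sum_pos hw hne
  have h1 : ∀ x ∈ S, P x * (Real.log (w x) - Real.log (P x) - Real.log W) ≤ w x / W - P x := by
    intro x hx
    have h2 := Real.log_le_sub_one_of_pos (show 0 < w x / (P x * W) from
      div_pos (hw x hx) (mul_pos (hP x hx) hW0))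
    rw [Real.log_div (hw x hx).ne' (mul_pos (hP x hx) hW0).ne',
      Real.log_mul (hP x hx).ne' hW0.ne'] at h2
    have h3 := mul_le_mul_of_nonneg_left h2 (hP x hx).le
    have e : P x * (w x / (P x * W) - 1) = w x / W - P x := by
      have := (hP x hx).ne'
      field_simp
    rw [e] at h3
    linarith
  have h2 := Finset.sum_le_sum h1
  rw [Finset.sum_sub_distrib, ← Finset.sum_div, hsum, ← hW, div_self hW0.ne'] at h2
  have e : ∑ x ∈ S, P x * (Real.log (w x) - Real.log (P x) - Real.log W)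
      = -(∑ x ∈ S, P x * (Real.log (P x) - Real.log (w x))) - (∑ x ∈ S, P x) * Real.log W := by
    rw [Finset.sum_mul, ← Finset.sum_neg_distrib, ← Finset.sum_sub_distrib]
    refine Finset.sum_congr rfl fun x _ => ?_
    ring
  rw [e, hsum] at h2
  linarith

/-- The logarithm of a binomial weight with nondegenerate exponents. -/
theorem bw_pos_log {R v : ℕ} {p : ℝ} (hv : v ≤ R) (h0 : 0 ≤ p) (h1 : p ≤ 1)
    (hp : 0 < v → 0 < p) (hq : v < R → p < 1) :
    0 < bw R p v ∧ Real.log (bw R p v) = Real.log ((R ! : ℕ) : ℝ) - Real.log ((v ! : ℕ) : ℝ)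
      - Real.log (((R - v)! : ℕ) : ℝ) + (v : ℝ) * Real.log p
      + ((R : ℝ) - v) * Real.log (1 - p) := by
  have hc : (0 : ℝ) < (R.choose v : ℝ) := by exact_mod_cast Nat.choose_pos hv
  have hP : 0 < p ^ v := by
    rcases Nat.eq_zero_or_pos v with rfl | h
    · simp
    · exact pow_pos (hp h) _
  have hQ : 0 < (1 - p) ^ (R - v) := by
    rcases Nat.lt_or_ge v R with h | h
    · exact pow_pos (by linarith [hq h]) _
    · have : R - v = 0 := by omega
      rw [this]
      simp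
  refine ⟨by unfold bw; positivity, ?_⟩
  unfold bw
  rw [Real.log_mul (by positivity) hQ.ne', Real.log_mul hc.ne' hP.ne', Real.log_pow, Real.log_pow]
  have hfac : ((R ! : ℕ) : ℝ) = (R.choose v : ℝ) * ((v ! : ℕ) : ℝ) * (((R - v)! : ℕ) : ℝ) := by
    have := Nat.choose_mul_factorial_mul_factorial hv
    exact_mod_cast this.symm
  have h5 : (0 : ℝ) < ((v ! : ℕ) : ℝ) := by exact_mod_cast Nat.factorial_pos _
  have h6 : (0 : ℝ) < (((R - v)! : ℕ) : ℝ) := by exact_mod_cast Nat.factorial_pos _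
  rw [hfac, Real.log_mul (by positivity) h6.ne', Real.log_mul hc.ne' h5.ne', Nat.cast_sub hv]
  ring

theorem w1_pos {u : Fin m → ℝ} (hu : ∀ i, 0 < u i) (x : Fin m → ℕ) : 0 < w1 u x := by
  unfold w1
  refine Finset.prod_pos fun i _ => ?_
  have := hu i
  have h2 : (0 : ℝ) < ((x i)! : ℝ) := by exact_mod_cast Nat.factorial_pos _
  positivity

theorem log_w1 {u : Fin m → ℝ} (hu : ∀ i, 0 < u i) (x : Fin m → ℕ) :
    Real.log (w1 u x) = ∑ i, (x i : ℝ) * Real.log (u i) - ∑ i, Real.log (((x i)! : ℕ) : ℝ) := by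
  unfold w1
  rw [Real.log_prod (fun i _ => by
    have := hu i
    have h2 : (0 : ℝ) < ((x i)! : ℝ) := by exact_mod_cast Nat.factorial_pos _
    positivity), ← Finset.sum_sub_distrib]
  refine Finset.sum_congr rfl fun i _ => ?_
  have := hu i
  have h2 : (0 : ℝ) < ((x i)! : ℝ) := by exact_mod_cast Nat.factorial_pos _
  rw [Real.log_div (by positivity) h2.ne', Real.log_pow]

/-- The inductive step, in logarithmic form. -/
theorem gibbs_step (R : Fin m → ℕ) (c0 : ℕ) (u S : Fin m → ℝ) (hu : ∀ i, 0 < u i)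
    (hS : ∀ i, 0 < S i) (s : ℝ) (hs : 0 < s) (F' B' : (Fin m → ℕ) → ℝ)
    (hF' : ∀ x ∈ lev R c0, 0 < F' x) (β' Bpp : ℝ) (hβ : 0 < β') (hBpp : 0 < Bpp)
    (hne : (lev R c0).Nonempty)
    (hchild : ∀ x ∈ lev R c0, (∏ i, (((R i - x i)! : ℕ) : ℝ)) * F' x * Real.exp (-B' x) / β'
        ≤ (∏ i, S i ^ (R i - x i)) / Bpp)
    (Z : ℝ) (hZ : Z = ∑ x ∈ lev R c0, w1 u x * F' x)
    (P : (Fin m → ℕ) → ℝ) (hP : ∀ x, P x = w1 u x * F' x / Z)
    (p : Fin m → ℝ) (hp : ∀ i, p i = (∑ x ∈ lev R c0, P x * (x i : ℝ)) / (R i : ℝ)) :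
    0 < Pk R p c0 ∧ Real.log Z + ∑ i, Real.log (((R i)! : ℕ) : ℝ) - Real.log β' - Real.log (Pk R p c0)
        - ∑ x ∈ lev R c0, P x * B' x + (c0 : ℝ) * Real.log s
      ≤ ∑ i, (R i : ℝ) * Real.log (u i * s + S i) - Real.log Bpp := by
  have hw : ∀ x, 0 < w1 u x := w1_pos hu
  have hZ0 : 0 < Z := by
    rw [hZ]
    exact Finset.sum_pos (fun x hx => mul_pos (hw x) (hF' x hx)) hne
  have hPpos : ∀ x ∈ lev R c0, 0 < P x := fun x hx => by
    rw [hP]
    exact div_pos (mul_pos (hw x) (hF' x hx)) hZ0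
  have hPsum : ∑ x ∈ lev R c0, P x = 1 := by
    simp only [hP]
    rw [← Finset.sum_div, ← hZ, div_self hZ0.ne']
  set Y : Fin m → ℝ := fun i => ∑ x ∈ lev R c0, P x * (x i : ℝ) with hY
  have hpY : ∀ i, p i = Y i / (R i : ℝ) := hp
  have hY0 : ∀ i, 0 ≤ Y i := fun i =>
    Finset.sum_nonneg fun x hx => mul_nonneg (hPpos x hx).le (Nat.cast_nonneg _)
  have hRY : ∀ i, (R i : ℝ) - Y i = ∑ x ∈ lev R c0, P x * ((R i : ℝ) - (x i : ℝ)) := by
    intro i
    simp only [hY, mul_sub]
    rw [Finset.sum_sub_distrib, ← Finset.sum_mul, hPsum, one_mul]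
  have hxR : ∀ x ∈ lev R c0, ∀ i, (x i : ℝ) ≤ R i := fun x hx i => by
    exact_mod_cast (mem_lev.1 hx).1 i
  have hYR : ∀ i, Y i ≤ R i := by
    intro i
    have : 0 ≤ (R i : ℝ) - Y i := by
      rw [hRY]
      exact Finset.sum_nonneg fun x hx =>
        mul_nonneg (hPpos x hx).le (sub_nonneg.2 (hxR x hx i))
    linarith
  have hYsum : ∑ i, Y i = c0 := by
    simp only [hY]
    rw [Finset.sum_comm]
    have : ∀ x ∈ lev R c0, ∑ i, P x * (x i : ℝ) = P x * (c0 : ℝ) := by
      intro x hx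
      rw [← Finset.mul_sum, ← (mem_lev.1 hx).2]
      push_cast
      rfl
    rw [Finset.sum_congr rfl this, ← Finset.sum_mul, hPsum, one_mul]
  have hp0 : ∀ i, 0 ≤ p i := fun i => by
    rw [hpY]
    exact div_nonneg (hY0 i) (Nat.cast_nonneg _)
  have hp1 : ∀ i, p i ≤ 1 := fun i => by
    rw [hpY]
    exact div_le_one_of_le₀ (hYR i) (Nat.cast_nonneg _)
  have hposp : ∀ x ∈ lev R c0, ∀ i, 0 < x i → 0 < p i := by
    intro x hx i hi
    have h1 : (0 : ℝ) < x i := by exact_mod_cast hi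
    have h2 : 0 < Y i := by
      refine Finset.sum_pos' (fun z hz => mul_nonneg (hPpos z hz).le (Nat.cast_nonneg _))
        ⟨x, hx, mul_pos (hPpos x hx) h1⟩
    have h3 : (0 : ℝ) < R i := lt_of_lt_of_le h1 (hxR x hx i)
    rw [hpY]
    exact div_pos h2 h3
  have hqp : ∀ x ∈ lev R c0, ∀ i, x i < R i → p i < 1 := by
    intro x hx i hi
    have h1 : (x i : ℝ) < R i := by exact_mod_cast hi
    have h2 : 0 < (R i : ℝ) - Y i := by
      rw [hRY]
      refine Finset.sum_pos' (fun z hz =>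
        mul_nonneg (hPpos z hz).le (sub_nonneg.2 (hxR z hz i))) ⟨x, hx, ?_⟩
      exact mul_pos (hPpos x hx) (by linarith)
    have h3 : (0 : ℝ) < R i := lt_of_le_of_lt (Nat.cast_nonneg _) h1
    rw [hpY, div_lt_one h3]
    linarith
  have hbw : ∀ x ∈ lev R c0, ∀ i, 0 < bw (R i) (p i) (x i) ∧
      Real.log (bw (R i) (p i) (x i)) = Real.log (((R i)! : ℕ) : ℝ) - Real.log (((x i)! : ℕ) : ℝ)
      - Real.log (((R i - x i)! : ℕ) : ℝ) + (x i : ℝ) * Real.log (p i)
      + ((R i : ℝ) - x i) * Real.log (1 - p i) := fun x hx i =>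
    bw_pos_log ((mem_lev.1 hx).1 i) (hp0 i) (hp1 i) (hposp x hx i) (hqp x hx i)
  have hwt : ∀ x ∈ lev R c0, 0 < Cap.wt R p x := fun x hx =>
    Finset.prod_pos fun i _ => (hbw x hx i).1
  refine ⟨Finset.sum_pos hwt hne, ?_⟩
  have hlogwt : ∀ x ∈ lev R c0, Real.log (Cap.wt R p x) = ∑ i, Real.log (((R i)! : ℕ) : ℝ)
      - ∑ i, Real.log (((x i)! : ℕ) : ℝ) - ∑ i, Real.log (((R i - x i)! : ℕ) : ℝ)
      + ∑ i, (x i : ℝ) * Real.log (p i) + ∑ i, ((R i : ℝ) - x i) * Real.log (1 - p i) := by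
    intro x hx
    unfold Cap.wt
    rw [Real.log_prod (fun i _ => (hbw x hx i).1.ne')]
    rw [← Finset.sum_sub_distrib, ← Finset.sum_sub_distrib, ← Finset.sum_add_distrib,
      ← Finset.sum_add_distrib]
    exact Finset.sum_congr rfl fun i _ => (hbw x hx i).2
  have hgibbs := gibbs_sum (lev R c0) P (Cap.wt R p) hPpos hwt hPsum
  have hPk : ∑ x ∈ lev R c0, Cap.wt R p x = Pk R p c0 := rfl
  rw [hPk] at hgibbs
  -- the bound of the child in logarithmic form
  have hSp : ∀ x : Fin m → ℕ, 0 < ∏ i, S i ^ (R i - x i) := fun x =>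
    Finset.prod_pos fun i _ => pow_pos (hS i) _
  have hfacp : ∀ x : Fin m → ℕ, 0 < ∏ i, (((R i - x i)! : ℕ) : ℝ) := fun x =>
    Finset.prod_pos fun i _ => by exact_mod_cast Nat.factorial_pos _
  have hchildlog : ∀ x ∈ lev R c0, ∑ i, Real.log (((R i - x i)! : ℕ) : ℝ) + Real.log (F' x) - B' x
      - Real.log β' ≤ ∑ i, ((R i : ℝ) - x i) * Real.log (S i) - Real.log Bpp := by
    intro x hx
    have h1 := hchild x hx
    have hF := hF' x hx
    have hL : 0 < (∏ i, (((R i - x i)! : ℕ) : ℝ)) * F' x * Real.exp (-B' x) / β' := by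
      have := hfacp x
      have := Real.exp_pos (-B' x)
      positivity
    have h2 := Real.log_le_log hL h1
    rw [Real.log_div (by have := hfacp x; have := Real.exp_pos (-B' x); positivity) hβ.ne',
      Real.log_mul (by have := hfacp x; positivity) (Real.exp_pos _).ne',
      Real.log_mul (hfacp x).ne' hF.ne', Real.log_exp,
      Real.log_prod (fun i _ => by
        have : (0 : ℝ) < (((R i - x i)! : ℕ) : ℝ) := by exact_mod_cast Nat.factorial_pos _
        exact this.ne'),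
      Real.log_div (hSp x).ne' hBpp.ne',
      Real.log_prod (fun i _ => (pow_pos (hS i) _).ne')] at h2
    have e : ∑ i, Real.log (S i ^ (R i - x i)) = ∑ i, ((R i : ℝ) - x i) * Real.log (S i) := by
      refine Finset.sum_congr rfl fun i _ => ?_
      rw [Real.log_pow, Nat.cast_sub ((mem_lev.1 hx).1 i)]
    rw [e] at h2
    linarith
  -- per point inequality
  have hpoint : ∀ x ∈ lev R c0, Real.log (P x) - Real.log (Cap.wt R p x) + Real.log Z
        + ∑ i, Real.log (((R i)! : ℕ) : ℝ) - B' x - Real.log β'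
      ≤ ∑ i, (x i : ℝ) * Real.log (u i) + ∑ i, ((R i : ℝ) - x i) * Real.log (S i)
        - ∑ i, (x i : ℝ) * Real.log (p i) - ∑ i, ((R i : ℝ) - x i) * Real.log (1 - p i)
        - Real.log Bpp := by
    intro x hx
    have h1 := hchildlog x hx
    have h2 := hlogwt x hx
    have h3 : Real.log (P x) + Real.log Z = Real.log (w1 u x) + Real.log (F' x) := by
      rw [← Real.log_mul (hPpos x hx).ne' hZ0.ne', ← Real.log_mul (hw x).ne' (hF' x hx).ne', hP]
      congr 1
      field_simp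
    have h4 := log_w1 hu x
    linarith
  -- average over the posterior
  have havg := Finset.sum_le_sum fun x hx =>
    mul_le_mul_of_nonneg_left (hpoint x hx) (hPpos x hx).le
  have hleft : ∑ x ∈ lev R c0, P x * (Real.log (P x) - Real.log (Cap.wt R p x) + Real.log Z
        + ∑ i, Real.log (((R i)! : ℕ) : ℝ) - B' x - Real.log β')
      = ∑ x ∈ lev R c0, P x * (Real.log (P x) - Real.log (Cap.wt R p x)) + Real.log Z
        + ∑ i, Real.log (((R i)! : ℕ) : ℝ) - ∑ x ∈ lev R c0, P x * B' x - Real.log β' := by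
    have e : ∀ x ∈ lev R c0, P x * (Real.log (P x) - Real.log (Cap.wt R p x) + Real.log Z
        + ∑ i, Real.log (((R i)! : ℕ) : ℝ) - B' x - Real.log β')
        = P x * (Real.log (P x) - Real.log (Cap.wt R p x))
          + P x * (Real.log Z + ∑ i, Real.log (((R i)! : ℕ) : ℝ) - Real.log β') - P x * B' x := by
      intro x _
      ring
    rw [Finset.sum_congr rfl e, Finset.sum_sub_distrib, Finset.sum_add_distrib, ← Finset.sum_mul,
      hPsum]
    ring
  have hsw1 : ∀ f : Fin m → ℝ, ∑ x ∈ lev R c0, P x * ∑ i, (x i : ℝ) * f i = ∑ i, Y i * f i := by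
    intro f
    simp only [Finset.mul_sum, hY, Finset.sum_mul]
    rw [Finset.sum_comm]
    refine Finset.sum_congr rfl fun i _ => Finset.sum_congr rfl fun x _ => ?_
    ring
  have hsw2 : ∀ f : Fin m → ℝ, ∑ x ∈ lev R c0, P x * ∑ i, ((R i : ℝ) - x i) * f i
      = ∑ i, ((R i : ℝ) - Y i) * f i := by
    intro f
    simp only [hRY, Finset.mul_sum, Finset.sum_mul]
    rw [Finset.sum_comm]
    refine Finset.sum_congr rfl fun i _ => Finset.sum_congr rfl fun x _ => ?_
    ring
  have hright : ∑ x ∈ lev R c0, P x * (∑ i, (x i : ℝ) * Real.log (u i)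
        + ∑ i, ((R i : ℝ) - x i) * Real.log (S i)
        - ∑ i, (x i : ℝ) * Real.log (p i) - ∑ i, ((R i : ℝ) - x i) * Real.log (1 - p i)
        - Real.log Bpp)
      = ∑ i, Y i * Real.log (u i) + ∑ i, ((R i : ℝ) - Y i) * Real.log (S i)
        - ∑ i, Y i * Real.log (p i) - ∑ i, ((R i : ℝ) - Y i) * Real.log (1 - p i)
        - Real.log Bpp := by
    simp only [mul_sub, mul_add]
    rw [Finset.sum_sub_distrib, Finset.sum_sub_distrib, Finset.sum_sub_distrib,
      Finset.sum_add_distrib, hsw1, hsw1, hsw2, hsw2, ← Finset.sum_mul, hPsum, one_mul]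
  rw [hleft, hright] at havg
  -- the rows
  have hrow : ∀ i, Y i * Real.log (u i) + Y i * Real.log s + ((R i : ℝ) - Y i) * Real.log (S i)
        - Y i * Real.log (p i) - ((R i : ℝ) - Y i) * Real.log (1 - p i)
      ≤ (R i : ℝ) * Real.log (u i * s + S i) := by
    intro i
    have h1 := row_amgm (R i) (Y i) (u i * s) (S i) (hY0 i) (hYR i) (mul_pos (hu i) hs) (hS i)
    rw [Real.log_mul (hu i).ne' hs.ne', ← hpY i] at h1
    linarith
  have hrows := Finset.sum_le_sum fun i (_ : i ∈ (univ : Finset (Fin m))) => hrow i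
  simp only [Finset.sum_sub_distrib, Finset.sum_add_distrib] at hrows
  rw [← Finset.sum_mul, hYsum] at hrows
  linarith

theorem post_nonneg {R : Fin m → ℕ} {c0 : ℕ} {c' : Fin n → ℕ} {u : Fin m → ℝ}
    {t' : Fin n → Fin m → ℝ} (hu : ∀ i, 0 < u i) (ht : ∀ j i, 0 < t' j i) (x : Fin m → ℕ) :
    0 ≤ post R c0 c' u t' x := by
  unfold post ZZ
  have h : ∀ y : Fin m → ℕ, 0 ≤ amp R c' u t' y := fun y =>
    mul_nonneg (w1_nonneg hu y) (FF_nonneg ht _ _)
  exact div_nonneg (h x) (Finset.sum_nonneg fun y _ => h y)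

theorem Bfun_nonneg : ∀ (n : ℕ) (R : Fin m → ℕ) (c : Fin (n + 1) → ℕ) (t : Fin (n + 1) → Fin m → ℝ),
    (∀ j i, 0 < t j i) → 0 ≤ Bfun n R c t := by
  intro n
  induction n with
  | zero =>
    intro R c t _
    simp [Bfun]
  | succ n ih =>
    intro R c t ht
    rw [Bfun]
    have ht' : ∀ j i, 0 < Fin.tail t j i := fun j i => ht j.succ i
    refine add_nonneg (le_max_right _ _) (Finset.sum_nonneg fun x _ => mul_nonneg ?_ (ih _ _ _ ht'))
    exact post_nonneg (fun i => ht 0 i) ht' x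

/-- One column: the pointwise bound. -/
theorem FF_exp_le_one' (R : Fin m → ℕ) (c : Fin 1 → ℕ) (t : Fin 1 → Fin m → ℝ)
    (ht : ∀ j i, 0 < t j i) (hsum : ∑ i, R i = c 0) (hBeta : betaC c = 1) (b : Fin 1 → ℝ)
    (hb : ∀ j, 0 < b j) :
    (∏ i, (((R i)! : ℕ) : ℝ)) * Sparse.FF R c t * Real.exp (-Bfun 0 R c t) / betaC c
      ≤ (∏ i, (∑ j, t j i * b j) ^ R i) / ∏ j, b j ^ c j := by
  have hBf : Bfun 0 R c t = 0 := by simp [Bfun]
  rw [hBeta, hBf, neg_zero, Real.exp_zero, mul_one, div_one]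
  have hval : ∀ T ∈ tabs R c, Sparse.wt t T = ∏ i, (t 0 i ^ R i / ((R i)! : ℝ)) := by
    intro T hT
    obtain ⟨_, h2⟩ := mem_tabs.1 hT
    unfold Sparse.wt
    rw [Fin.prod_univ_one]
    refine Finset.prod_congr rfl fun i _ => ?_
    have := h2 i
    rw [Fin.sum_univ_one] at this
    rw [this]
  have hw0 : 0 ≤ ∏ i, (t 0 i ^ R i / ((R i)! : ℝ)) :=
    Finset.prod_nonneg fun i _ => by
      have := ht 0 i
      positivity
  have hFF : Sparse.FF R c t ≤ ∏ i, (t 0 i ^ R i / ((R i)! : ℝ)) := by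
    unfold Sparse.FF
    rw [Finset.sum_congr rfl hval, Finset.sum_const, nsmul_eq_mul]
    have h1 : ((tabs R c).card : ℝ) ≤ 1 := by exact_mod_cast card_tabs_one_col R c
    nlinarith
  have hb0 := hb 0
  have hright : (∏ i, (∑ j, t j i * b j) ^ R i) / ∏ j, b j ^ c j = ∏ i, t 0 i ^ R i := by
    simp only [Fin.sum_univ_one, Fin.prod_univ_one, mul_pow]
    rw [Finset.prod_mul_distrib, Finset.prod_pow_eq_pow_sum, hsum, mul_div_assoc,
      div_self (by positivity), mul_one]
  rw [hright]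
  have hfac : (0 : ℝ) ≤ ∏ i, (((R i)! : ℕ) : ℝ) := Finset.prod_nonneg fun i _ => by positivity
  have h3 : (∏ i, (((R i)! : ℕ) : ℝ)) * ∏ i, (t 0 i ^ R i / ((R i)! : ℝ)) = ∏ i, t 0 i ^ R i := by
    rw [← Finset.prod_mul_distrib]
    refine Finset.prod_congr rfl fun i _ => ?_
    have h4 : (0 : ℝ) < ((R i)! : ℝ) := by exact_mod_cast Nat.factorial_pos _
    field_simp
  rw [← h3]
  exact mul_le_mul_of_nonneg_left hFF hfac

/-- One column: the pointwise bound. -/
theorem FF_exp_le_one (R : Fin m → ℕ) (c : Fin 1 → ℕ) (t : Fin 1 → Fin m → ℝ)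
    (ht : ∀ j i, 0 < t j i) (hc : 0 < c 0) (hsum : ∑ i, R i = c 0) (b : Fin 1 → ℝ)
    (hb : ∀ j, 0 < b j) :
    (∏ i, (((R i)! : ℕ) : ℝ)) * Sparse.FF R c t * Real.exp (-Bfun 0 R c t) / betaC c
      ≤ (∏ i, (∑ j, t j i * b j) ^ R i) / ∏ j, b j ^ c j :=
  FF_exp_le_one' R c t ht hsum (betaC_one_col c hc) b hb

/-- The pointwise bound, for every point `b`. -/
theorem FF_exp_le : ∀ (n : ℕ) (R : Fin m → ℕ) (c : Fin (n + 1) → ℕ) (t : Fin (n + 1) → Fin m → ℝ),
    (∀ j i, 0 < t j i) → (∀ j, 0 < c j) → ∀ b : Fin (n + 1) → ℝ, (∀ j, 0 < b j) →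
    (∏ i, (((R i)! : ℕ) : ℝ)) * Sparse.FF R c t * Real.exp (-Bfun n R c t) / betaC c
      ≤ (∏ i, (∑ j, t j i * b j) ^ R i) / ∏ j, b j ^ c j := by
  -- margins with different totals have no table
  have hright : ∀ (n : ℕ) (R : Fin m → ℕ) (c : Fin n → ℕ) (t : Fin n → Fin m → ℝ)
      (_ : ∀ j i, 0 < t j i) (b : Fin n → ℝ) (_ : ∀ j, 0 < b j),
      0 ≤ (∏ i, (∑ j, t j i * b j) ^ R i) / ∏ j, b j ^ c j := by
    intro n R c t ht b hb
    refine div_nonneg (Finset.prod_nonneg fun i _ => pow_nonneg (Finset.sum_nonneg fun j _ =>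
      (mul_pos (ht j i) (hb j)).le) _) (Finset.prod_nonneg fun j _ => pow_nonneg (hb j).le _)
  intro n
  induction n with
  | zero =>
    intro R c t ht hc b hb
    by_cases hsum : ∑ i, R i = c 0
    · exact FF_exp_le_one R c t ht (hc 0) hsum b hb
    · have hFF : Sparse.FF R c t = 0 := by
        unfold Sparse.FF
        refine Finset.sum_eq_zero fun T hT => absurd ?_ hsum
        obtain ⟨h1, h2⟩ := mem_tabs.1 hT
        rw [← h1 0]
        simp only [← h2]
        exact Finset.sum_congr rfl fun i _ => Fin.sum_univ_one _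
      rw [hFF, mul_zero, zero_mul, zero_div]
      exact hright _ R c t ht b hb
  | succ n ih =>
    intro R c t ht hc b hb
    by_cases hsum : ∑ i, R i = ∑ j, c j
    swap
    · have hFF : Sparse.FF R c t = 0 := by
        unfold Sparse.FF
        refine Finset.sum_eq_zero fun T hT => absurd ?_ hsum
        obtain ⟨h1, h2⟩ := mem_tabs.1 hT
        simp only [← h2, ← h1]
        rw [Finset.sum_comm]
      rw [hFF, mul_zero, zero_mul, zero_div]
      exact hright _ R c t ht b hb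
    set c0 := c 0 with hc0
    set c' : Fin (n + 1) → ℕ := Fin.tail c with hc'
    set u : Fin m → ℝ := t 0 with hu
    set t' : Fin (n + 1) → Fin m → ℝ := Fin.tail t with ht'
    set s := b 0 with hs
    set b' : Fin (n + 1) → ℝ := Fin.tail b with hb'
    have hu0 : ∀ i, 0 < u i := fun i => ht 0 i
    have ht'0 : ∀ j i, 0 < t' j i := fun j i => ht j.succ i
    have hc'0 : ∀ j, 0 < c' j := fun j => hc j.succ
    have hb'0 : ∀ j, 0 < b' j := fun j => hb j.succ
    have hs0 : 0 < s := hb 0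
    have hcons : Fin.cons c0 c' = c := Fin.cons_self_tail c
    have htcons : Fin.cons u t' = t := Fin.cons_self_tail t
    have hsplit : ∑ j, c j = c0 + ∑ j, c' j := by
      rw [Fin.sum_univ_succ]
      rfl
    have hD : 0 < ∑ j, c' j := Finset.sum_pos (fun j _ => hc'0 j) ⟨0, mem_univ _⟩
    have hc00 : 0 < c0 := hc 0
    set S : Fin m → ℝ := fun i => ∑ j, t' j i * b' j with hS
    have hS0 : ∀ i, 0 < S i := fun i =>
      Finset.sum_pos (fun j _ => mul_pos (ht'0 j i) (hb'0 j)) ⟨0, mem_univ _⟩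
    set Bpp : ℝ := ∏ j, b' j ^ c' j with hBpp
    have hBpp0 : 0 < Bpp := Finset.prod_pos fun j _ => pow_pos (hb'0 j) _
    set β' : ℝ := betaC c' with hβ'
    have hβ0 : 0 < β' := Sparse.betaC_pos c'
    set F' : (Fin m → ℕ) → ℝ := fun x => Sparse.FF (fun i => R i - x i) c' t' with hF'
    set B' : (Fin m → ℕ) → ℝ := fun x => Bfun n (fun i => R i - x i) c' t' with hB'
    have hsubsum : ∀ x ∈ lev R c0, ∑ i, (R i - x i) = ∑ j, c' j := by
      intro x hx
      obtain ⟨h1, h2⟩ := mem_lev.1 hx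
      have h3 : ∑ i, (R i - x i) + ∑ i, x i = ∑ i, R i := by
        rw [← Finset.sum_add_distrib]
        exact Finset.sum_congr rfl fun i _ => Nat.sub_add_cancel (h1 i)
      omega
    have hF'0 : ∀ x ∈ lev R c0, 0 < F' x := fun x hx =>
      Sparse.FF_pos ht'0 _ _ (hsubsum x hx)
    -- the level is not empty
    have hne : (lev R c0).Nonempty := by
      obtain ⟨T, hT⟩ := Sparse.tabs_nonempty (∑ j, c j) R c hsum rfl
      obtain ⟨h1, h2⟩ := mem_tabs.1 hT
      refine ⟨T 0, mem_lev.2 ⟨fun i => ?_, h1 0⟩⟩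
      rw [← h2 i]
      exact Finset.single_le_sum (f := fun j => T j i) (fun _ _ => Nat.zero_le _) (mem_univ 0)
    have hchild : ∀ x ∈ lev R c0, (∏ i, (((R i - x i)! : ℕ) : ℝ)) * F' x * Real.exp (-B' x) / β'
        ≤ (∏ i, S i ^ (R i - x i)) / Bpp := fun x _ =>
      ih (fun i => R i - x i) c' t' ht'0 hc'0 b' hb'0
    have hmain := gibbs_step R c0 u S hu0 hS0 s hs0 F' B' hF'0 β' Bpp hβ0 hBpp0 hne hchild
      (ZZ R c0 c' u t') rfl (post R c0 c' u t') (fun _ => rfl) (pbar R c0 c' u t') (fun _ => rfl)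
    obtain ⟨hPk, hmain⟩ := hmain
    have hFF : Sparse.FF R c t = ZZ R c0 c' u t' := by
      rw [← FF_cons R c0 c' u t', hcons, htcons]
    have hZ0 : 0 < ZZ R c0 c' u t' := by
      rw [← hFF]
      exact Sparse.FF_pos ht _ _ hsum
    have hCeq : ∑ i, R i = c0 + ∑ j, c' j := by rw [hsum, hsplit]
    have hb0pos : 0 < bw (∑ i, R i) ((c0 : ℝ) / ((∑ i, R i : ℕ) : ℝ)) c0 := by
      have hlt : c0 < ∑ i, R i := by omega
      have hC : (0 : ℝ) < ((∑ i, R i : ℕ) : ℝ) := by
        exact_mod_cast (by omega : 0 < ∑ i, R i)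
      have hc0r : (0 : ℝ) < (c0 : ℝ) := by exact_mod_cast hc00
      exact (bw_pos_log (by omega) (by positivity)
        ((div_le_one hC).2 (by exact_mod_cast hlt.le)) (fun _ => by positivity)
        (fun _ => (div_lt_one hC).2 (by exact_mod_cast hlt))).1
    set b0 := bw (∑ i, R i) ((c0 : ℝ) / ((∑ i, R i : ℕ) : ℝ)) c0 with hb0
    have hbeta : betaC c = b0 * β' := by
      have := betaC_cons c0 c' hc00 hD
      rw [hcons, ← hCeq] at this
      exact this
    have hloss : Real.log (Pk R (pbar R c0 c' u t') c0) - Real.log b0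
        ≤ lossF R c0 c' u t' := by
      unfold lossF
      rw [← Real.log_div hPk.ne' hb0pos.ne']
      exact le_max_left _ _
    have hBf : Bfun (n + 1) R c t = lossF R c0 c' u t'
        + ∑ x ∈ lev R c0, post R c0 c' u t' x * B' x := by
      rw [Bfun]
    have hfac : 0 < ∏ i, (((R i)! : ℕ) : ℝ) := Finset.prod_pos fun i _ => by
      exact_mod_cast Nat.factorial_pos _
    have hterm : ∀ i, ∑ j, t j i * b j = u i * s + S i := by
      intro i
      rw [Fin.sum_univ_succ]
      rfl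
    have hpos1 : ∀ i, 0 < u i * s + S i := fun i => add_pos (mul_pos (hu0 i) hs0) (hS0 i)
    have hprodb : ∏ j, b j ^ c j = s ^ c0 * Bpp := by
      rw [Fin.prod_univ_succ]
      rfl
    simp only [hterm, hprodb, hFF, hbeta]
    have hLp : 0 < (∏ i, (((R i)! : ℕ) : ℝ)) * ZZ R c0 c' u t' * Real.exp (-Bfun (n + 1) R c t)
        / (b0 * β') := by
      have := Real.exp_pos (-Bfun (n + 1) R c t)
      positivity
    have hRp : 0 < (∏ i, (u i * s + S i) ^ R i) / (s ^ c0 * Bpp) := by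
      have : 0 < ∏ i, (u i * s + S i) ^ R i := Finset.prod_pos fun i _ => pow_pos (hpos1 i) _
      positivity
    rw [← Real.log_le_log_iff hLp hRp]
    rw [Real.log_div (by have := Real.exp_pos (-Bfun (n + 1) R c t); positivity)
        (by positivity),
      Real.log_mul (by positivity) (Real.exp_pos _).ne', Real.log_mul hfac.ne' hZ0.ne',
      Real.log_exp, Real.log_mul hb0pos.ne' hβ0.ne',
      Real.log_div (Finset.prod_pos fun i _ => pow_pos (hpos1 i) _).ne' (by positivity),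
      Real.log_mul (by positivity) hBpp0.ne', Real.log_pow,
      Real.log_prod (fun i _ => (pow_pos (hpos1 i) _).ne'),
      Real.log_prod (fun i _ => by
        have : (0 : ℝ) < (((R i)! : ℕ) : ℝ) := by exact_mod_cast Nat.factorial_pos _
        exact this.ne')]
    simp only [Real.log_pow]
    rw [hBf]
    linarith

end Vale.Agent.Lib.P328.Ent
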