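import Vale.Agent.Lib.P328.Ent.Stage
import Vale.Agent.Lib.P328.Ent.Gibbs

/-!
# P328, all margins: the chain and the final theorem
-/

namespace Vale.Agent.Lib.P328.Ent

open Finset MeasureTheory Vale.Agent.Lib.P328 Vale.Agent.Lib.P328.Cap
open scoped ENNReal Nat

variable {m n : ℕ}

/-- The sum of the losses of the stages. -/
noncomputable def Lsum (N n : ℕ) : ℝ := ∑ k ∈ range n, eps N (k + 2)

theorem measurable_FF (r : Fin m → ℕ) (c : Fin n → ℕ) : Measurable (Sparse.FF r c) := by
  unfold Sparse.FF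
  exact Finset.measurable_sum _ fun T _ => Sparse.measurable_wt T

theorem measurable_w1 (x : Fin m → ℕ) : Measurable fun u : Fin m → ℝ => w1 u x := by
  unfold w1
  exact Finset.measurable_prod _ fun i _ => ((measurable_pi_apply i).pow_const _).div_const _

theorem measurable_tail : Measurable fun t : Fin (n + 1) → Fin m → ℝ => Fin.tail t :=
  measurable_pi_lambda _ fun l => measurable_pi_apply l.succ

theorem measurable_post (R : Fin m → ℕ) (c0 : ℕ) (c' : Fin (n + 1) → ℕ) (x : Fin m → ℕ) :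
    Measurable fun t : Fin (n + 2) → Fin m → ℝ => post R c0 c' (t 0) (Fin.tail t) x := by
  have hamp : ∀ y : Fin m → ℕ,
      Measurable fun t : Fin (n + 2) → Fin m → ℝ => amp R c' (t 0) (Fin.tail t) y := fun y =>
    ((measurable_w1 y).comp (measurable_pi_apply 0)).mul
      ((measurable_FF _ _).comp measurable_tail)
  unfold post ZZ
  exact (hamp x).div (Finset.measurable_sum _ fun y _ => hamp y)

theorem measurable_Bfun : ∀ (n : ℕ) (R : Fin m → ℕ) (c : Fin (n + 1) → ℕ), Measurable (Bfun n R c) := by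
  intro n
  induction n with
  | zero =>
    intro R c
    have : Bfun (m := m) 0 R c = fun _ => 0 := by
      funext t
      simp [Bfun]
    rw [this]
    exact measurable_const
  | succ n ih =>
    intro R c
    have : Bfun (n + 1) R c = fun t => lossF R (c 0) (Fin.tail c) (t 0) (Fin.tail t)
        + ∑ x ∈ lev R (c 0), post R (c 0) (Fin.tail c) (t 0) (Fin.tail t) x
            * Bfun n (fun i => R i - x i) (Fin.tail c) (Fin.tail t) := by
      funext t
      rw [Bfun]
    rw [this]
    exact (measurable_lossF R c).add (Finset.measurable_sum _ fun x _ =>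
      (measurable_post R _ _ x).mul ((ih _ _).comp measurable_tail))

/-- The mass of the planted law. -/
theorem lintegral_wmat_FF (r : Fin m → ℕ) (c : Fin n → ℕ) :
    ∫⁻ t, wmat t * ENNReal.ofReal (Sparse.FF r c t) = ((tabs r c).card : ℝ≥0∞) := by
  have h1 : ∀ t, wmat t * ENNReal.ofReal (Sparse.FF r c t)
      = ∑ T ∈ tabs r c, wmat t * ENNReal.ofReal (Sparse.wt t T) := by
    intro t
    by_cases h : wmat t = 0
    · simp [h]
    · have hp := wmat_ne_zero_pos h
      unfold Sparse.FF
      rw [ENNReal.ofReal_sum_of_nonneg fun T _ => (Sparse.wt_pos hp T).le, Finset.mul_sum]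
  simp only [h1]
  have hm : ∀ T ∈ tabs r c, Measurable fun t => wmat t * ENNReal.ofReal (Sparse.wt t T) := fun T _ =>
    measurable_wmat.mul (Sparse.measurable_wt T).ennreal_ofReal
  rw [lintegral_finsetSum _ hm]
  simp only [Sparse.gamma_mass, Finset.sum_const, nsmul_eq_mul, mul_one]

/-- The integral of the first column. -/
theorem lintegral_wcol_w1 (x : Fin m → ℕ) :
    ∫⁻ u : Fin m → ℝ, wcol u * ENNReal.ofReal (w1 u x) = 1 := by
  have hfac : (0 : ℝ) < ((∏ i, (x i)! : ℕ) : ℝ) := by
    exact_mod_cast Finset.prod_pos fun i _ => Nat.factorial_pos _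
  have h1 : ∀ u : Fin m → ℝ, wcol u * ENNReal.ofReal (w1 u x)
      = ENNReal.ofReal (((∏ i, (x i)! : ℕ) : ℝ)⁻¹) * (wcol u * ENNReal.ofReal (∏ i, u i ^ x i)) := by
    intro u
    by_cases hu : wcol u = 0
    · simp [hu]
    · have hp := wcol_ne_zero_pos hu
      have e : w1 u x = ((∏ i, (x i)! : ℕ) : ℝ)⁻¹ * ∏ i, u i ^ x i := by
        unfold w1
        rw [Finset.prod_div_distrib]
        push_cast
        rw [div_eq_inv_mul]
      rw [e, ENNReal.ofReal_mul (by positivity)]
      ring
  simp only [h1]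
  rw [lintegral_const_mul' _ _ ENNReal.ofReal_ne_top, lintegral_wcol_mul,
    ← ENNReal.ofReal_natCast, ← ENNReal.ofReal_mul (by positivity), inv_mul_cancel₀ hfac.ne',
    ENNReal.ofReal_one]

/-- Integrating out the first column. -/
theorem lintegral_column (x : Fin m → ℕ) (H : (Fin n → Fin m → ℝ) → ℝ≥0∞) (hH : Measurable H) :
    ∫⁻ t : Fin (n + 1) → Fin m → ℝ, wmat t * ENNReal.ofReal (w1 (t 0) x) * H (Fin.tail t)
      = ∫⁻ t', wmat t' * H t' := by
  rw [lintegral_cons (E := Fin m → ℝ) n]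
  have h1 : ∀ p : (Fin m → ℝ) × (Fin n → Fin m → ℝ),
      wmat (Fin.cons p.1 p.2 : Fin (n + 1) → Fin m → ℝ)
          * ENNReal.ofReal (w1 ((Fin.cons p.1 p.2 : Fin (n + 1) → Fin m → ℝ) 0) x)
          * H (Fin.tail (Fin.cons p.1 p.2 : Fin (n + 1) → Fin m → ℝ))
        = (wcol p.1 * ENNReal.ofReal (w1 p.1 x)) * (wmat p.2 * H p.2) := by
    intro p
    rw [wmat_cons, Fin.cons_zero, Fin.tail_cons]
    ring
  simp only [h1]
  have hf : Measurable fun u : Fin m → ℝ => wcol u * ENNReal.ofReal (w1 u x) :=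
    measurable_wcol.mul (measurable_w1 x).ennreal_ofReal
  have hg : Measurable fun t' : Fin n → Fin m → ℝ => wmat t' * H t' := measurable_wmat.mul hH
  rw [lintegral_prod_mul hf.aemeasurable hg.aemeasurable, lintegral_wcol_w1, one_mul]

theorem kapD_nonneg (N : ℕ) : 0 ≤ kapD N := by
  unfold kapD Atok
  have := ell_ge_one N
  have h0 : 0 ≤ ell N := by linarith
  positivity

theorem eps_nonneg (N ν : ℕ) : 0 ≤ eps N ν := by
  unfold eps
  have := ell_ge_one N
  have h0 : 0 ≤ ell N := by linarith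
  have := kapD_nonneg N
  positivity

theorem Lsum_nonneg (N n : ℕ) : 0 ≤ Lsum N n :=
  Finset.sum_nonneg fun _ _ => eps_nonneg _ _

/-- The integral of the chain loss. -/
theorem chain_integral : ∀ (n : ℕ) (R : Fin m → ℕ) (c : Fin (n + 1) → ℕ), (∀ j, 0 < c j) → Monotone c →
    ∑ i, R i = ∑ j, c j → ∀ N : ℕ, ∑ j, c j ≤ N →
    ∫⁻ t, wmat t * ENNReal.ofReal (Sparse.FF R c t * Bfun n R c t)
      ≤ ((tabs R c).card : ℝ≥0∞) * ENNReal.ofReal (Lsum N n) := by
  intro n
  induction n with
  | zero =>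
    intro R c _ _ _ N _
    have h : ∀ t : Fin (0 + 1) → Fin m → ℝ,
        wmat t * ENNReal.ofReal (Sparse.FF R c t * Bfun 0 R c t) = 0 := by
      intro t
      simp [Bfun]
    simp [h, Lsum]
  | succ n ih =>
    intro R c hpos hc hsum N hN
    set c0 := c 0 with hc0
    set c' : Fin (n + 1) → ℕ := Fin.tail c with hc'
    have hcons : Fin.cons c0 c' = c := Fin.cons_self_tail c
    have hsplit : ∑ j, c j = c0 + ∑ j, c' j := by
      rw [Fin.sum_univ_succ]
      rfl
    have hsubsum : ∀ x ∈ lev R c0, ∑ i, (R i - x i) = ∑ j, c' j := by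
      intro x hx
      obtain ⟨h1, h2⟩ := mem_lev.1 hx
      have h3 : ∑ i, (R i - x i) + ∑ i, x i = ∑ i, R i := by
        rw [← Finset.sum_add_distrib]
        exact Finset.sum_congr rfl fun i _ => Nat.sub_add_cancel (h1 i)
      omega
    have hc'pos : ∀ j, 0 < c' j := fun j => hpos j.succ
    have hc'mono : Monotone c' := fun a b hab => hc (Fin.succ_le_succ_iff.2 hab)
    have hc'N : ∑ j, c' j ≤ N := by omega
    set H : (Fin m → ℕ) → (Fin (n + 1) → Fin m → ℝ) → ℝ≥0∞ := fun x t' =>
      ENNReal.ofReal (Sparse.FF (fun i => R i - x i) c' t'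
        * Bfun n (fun i => R i - x i) c' t') with hH
    have hHm : ∀ x, Measurable (H x) := fun x =>
      ((measurable_FF _ _).mul (measurable_Bfun _ _ _)).ennreal_ofReal
    have hpoint : ∀ t : Fin (n + 2) → Fin m → ℝ,
        wmat t * ENNReal.ofReal (Sparse.FF R c t * Bfun (n + 1) R c t)
          = wmat t * ENNReal.ofReal (Sparse.FF R c t
              * lossF R c0 c' (t 0) (Fin.tail t))
            + ∑ x ∈ lev R c0, wmat t * ENNReal.ofReal (w1 (t 0) x) * H x (Fin.tail t) := by
      intro t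
      by_cases ht : wmat t = 0
      · simp [ht]
      have htp := wmat_ne_zero_pos ht
      have htail : ∀ j i, 0 < Fin.tail t j i := fun j i => htp j.succ i
      have hu : ∀ i, 0 < t 0 i := htp 0
      have htcons : Fin.cons (t 0) (Fin.tail t) = t := Fin.cons_self_tail t
      have hFF : Sparse.FF R c t = ZZ R c0 c' (t 0) (Fin.tail t) := by
        rw [← FF_cons R c0 c' (t 0) (Fin.tail t), hcons, htcons]
      have hZ0 : 0 < ZZ R c0 c' (t 0) (Fin.tail t) := by
        rw [← hFF]
        exact Sparse.FF_pos htp _ _ hsum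
      have hF0 : 0 ≤ Sparse.FF R c t := by
        rw [hFF]
        exact hZ0.le
      have hBf : Bfun (n + 1) R c t = lossF R c0 c' (t 0) (Fin.tail t)
          + ∑ x ∈ lev R c0, post R c0 c' (t 0) (Fin.tail t) x
              * Bfun n (fun i => R i - x i) c' (Fin.tail t) := by
        rw [Bfun]
      have hterm : ∀ x ∈ lev R c0, Sparse.FF R c t * (post R c0 c' (t 0) (Fin.tail t) x
            * Bfun n (fun i => R i - x i) c' (Fin.tail t))
          = w1 (t 0) x * (Sparse.FF (fun i => R i - x i) c' (Fin.tail t)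
              * Bfun n (fun i => R i - x i) c' (Fin.tail t)) := by
        intro x _
        rw [hFF]
        unfold post amp
        field_simp
      have hB0 : ∀ x : Fin m → ℕ, 0 ≤ Bfun n (fun i => R i - x i) c' (Fin.tail t) := fun x =>
        Bfun_nonneg _ _ _ _ htail
      have hval : Sparse.FF R c t * Bfun (n + 1) R c t
          = Sparse.FF R c t * lossF R c0 c' (t 0) (Fin.tail t)
            + ∑ x ∈ lev R c0, w1 (t 0) x * (Sparse.FF (fun i => R i - x i) c' (Fin.tail t)
                * Bfun n (fun i => R i - x i) c' (Fin.tail t)) := by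
        rw [hBf, mul_add, Finset.mul_sum, Finset.sum_congr rfl hterm]
      have hnn : ∀ x : Fin m → ℕ, 0 ≤ Sparse.FF (fun i => R i - x i) c' (Fin.tail t)
            * Bfun n (fun i => R i - x i) c' (Fin.tail t) := fun x =>
        mul_nonneg (FF_nonneg htail _ _) (hB0 x)
      rw [hval, ENNReal.ofReal_add (mul_nonneg hF0 (lossF_nonneg _ _ _ _ _))
        (Finset.sum_nonneg fun x _ => mul_nonneg (w1_nonneg hu x) (hnn x)),
        ENNReal.ofReal_sum_of_nonneg (fun x _ => mul_nonneg (w1_nonneg hu x) (hnn x)), mul_add,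
        Finset.mul_sum]
      congr 1
      refine Finset.sum_congr rfl fun x _ => ?_
      rw [ENNReal.ofReal_mul (w1_nonneg hu x), mul_assoc]
    simp only [hpoint]
    have hm1 : Measurable fun t : Fin (n + 2) → Fin m → ℝ =>
        wmat t * ENNReal.ofReal (Sparse.FF R c t * lossF R c0 c' (t 0) (Fin.tail t)) :=
      measurable_wmat.mul ((measurable_FF _ _).mul (measurable_lossF R c)).ennreal_ofReal
    have hm2 : ∀ x ∈ lev R c0, Measurable fun t : Fin (n + 2) → Fin m → ℝ =>
        wmat t * ENNReal.ofReal (w1 (t 0) x) * H x (Fin.tail t) := fun x _ =>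
      (measurable_wmat.mul ((measurable_w1 x).comp (measurable_pi_apply 0)).ennreal_ofReal).mul
        ((hHm x).comp measurable_tail)
    rw [lintegral_add_left hm1, lintegral_finsetSum _ hm2]
    have hstage := stage_bound R c hpos hc hsum N hN
    have hcol : ∀ x ∈ lev R c0,
        ∫⁻ t : Fin (n + 2) → Fin m → ℝ, wmat t * ENNReal.ofReal (w1 (t 0) x) * H x (Fin.tail t)
          ≤ ((tabs (fun i => R i - x i) c').card : ℝ≥0∞) * ENNReal.ofReal (Lsum N n) := by
      intro x hx
      rw [lintegral_column x (H x) (hHm x)]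
      exact ih _ c' hc'pos hc'mono (hsubsum x hx) N hc'N
    have hcard : (tabs R c).card = ∑ x ∈ lev R c0, (tabs (fun i => R i - x i) c').card := by
      have h := sum_first_col R c0 c' (fun _ => 1)
      rw [hcons] at h
      simp only [Finset.sum_const, nsmul_eq_mul, mul_one, one_mul] at h
      exact_mod_cast h
    have hL : Lsum N (n + 1) = Lsum N n + eps N (n + 2) := by
      unfold Lsum
      rw [Finset.sum_range_succ]
    calc _ ≤ ((tabs R c).card : ℝ≥0∞) * ENNReal.ofReal (eps N (n + 2))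
          + ∑ x ∈ lev R c0, ((tabs (fun i => R i - x i) c').card : ℝ≥0∞)
              * ENNReal.ofReal (Lsum N n) :=
          add_le_add hstage (Finset.sum_le_sum hcol)
      _ = _ := by
          rw [← Finset.sum_mul, ← Nat.cast_sum, ← hcard, hL, ENNReal.ofReal_add (Lsum_nonneg _ _)
            (eps_nonneg _ _), mul_add, add_comm]

/-- The bound for sorted columns. -/
theorem card_le_sorted (R : Fin m → ℕ) (c : Fin (n + 1) → ℕ) (hpos : ∀ j, 0 < c j) (hc : Monotone c)
    (hsum : ∑ i, R i = ∑ j, c j) (N : ℕ) (hN : ∑ j, c j ≤ N) :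
    ((tabs R c).card : ℝ≥0∞) ≤ ENNReal.ofReal (Real.exp (Lsum N n) * betaC c) * Ihat R c := by
  set L := Lsum N n with hL
  have hL0 : 0 ≤ L := Lsum_nonneg _ _
  set Ω : ℝ≥0∞ := ((tabs R c).card : ℝ≥0∞) with hΩ
  have hΩt : Ω ≠ ⊤ := ENNReal.natCast_ne_top _
  have hchain := chain_integral n R c hpos hc hsum N hN
  set X := ∫⁻ t, wmat t * ENNReal.ofReal (Sparse.FF R c t * Real.exp (-Bfun n R c t)) with hX
  have hEm : 0 < Real.exp (-L) := Real.exp_pos _
  -- the tangent line
  have hpoint : ∀ t : Fin (n + 1) → Fin m → ℝ,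
      ENNReal.ofReal ((1 + L) * Real.exp (-L)) * (wmat t * ENNReal.ofReal (Sparse.FF R c t))
        ≤ wmat t * ENNReal.ofReal (Sparse.FF R c t * Real.exp (-Bfun n R c t))
          + ENNReal.ofReal (Real.exp (-L))
            * (wmat t * ENNReal.ofReal (Sparse.FF R c t * Bfun n R c t)) := by
    intro t
    by_cases ht : wmat t = 0
    · simp [ht]
    have htp := wmat_ne_zero_pos ht
    have hF := FF_nonneg htp R c
    have hB := Bfun_nonneg n R c t htp
    have htan : (1 + L) * Real.exp (-L) * Sparse.FF R c t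
        ≤ Sparse.FF R c t * Real.exp (-Bfun n R c t)
          + Real.exp (-L) * (Sparse.FF R c t * Bfun n R c t) := by
      have h1 : 1 + (L - Bfun n R c t) ≤ Real.exp (L - Bfun n R c t) := by
        have := Real.add_one_le_exp (L - Bfun n R c t)
        linarith
      have h2 : Real.exp (-L) * (1 + (L - Bfun n R c t))
          ≤ Real.exp (-L) * Real.exp (L - Bfun n R c t) :=
        mul_le_mul_of_nonneg_left h1 hEm.le
      rw [← Real.exp_add] at h2
      have h3 : -L + (L - Bfun n R c t) = -Bfun n R c t := by ring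
      rw [h3] at h2
      have h4 := mul_le_mul_of_nonneg_left h2 hF
      nlinarith
    have h5 := ENNReal.ofReal_le_ofReal htan
    rw [ENNReal.ofReal_add (by positivity) (by positivity),
      ENNReal.ofReal_mul (by positivity)] at h5
    calc _ = wmat t * (ENNReal.ofReal ((1 + L) * Real.exp (-L)) * ENNReal.ofReal (Sparse.FF R c t)) := by
          ring
      _ ≤ wmat t * (ENNReal.ofReal (Sparse.FF R c t * Real.exp (-Bfun n R c t))
          + ENNReal.ofReal (Real.exp (-L) * (Sparse.FF R c t * Bfun n R c t))) := by gcongr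
      _ = _ := by
          rw [ENNReal.ofReal_mul hEm.le (p := Real.exp (-L)), mul_add]
          ring
  have hm1 : Measurable fun t : Fin (n + 1) → Fin m → ℝ =>
      wmat t * ENNReal.ofReal (Sparse.FF R c t * Real.exp (-Bfun n R c t)) :=
    measurable_wmat.mul ((measurable_FF _ _).mul
      (Real.measurable_exp.comp (measurable_Bfun _ _ _).neg)).ennreal_ofReal
  have hm2 : Measurable fun t : Fin (n + 1) → Fin m → ℝ =>
      wmat t * ENNReal.ofReal (Sparse.FF R c t) :=
    measurable_wmat.mul (measurable_FF _ _).ennreal_ofReal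
  have hint := lintegral_mono (μ := (volume : Measure (Fin (n + 1) → Fin m → ℝ))) hpoint
  rw [lintegral_const_mul _ hm2, lintegral_wmat_FF, lintegral_add_left hm1,
    lintegral_const_mul' _ _ ENNReal.ofReal_ne_top] at hint
  -- cancel
  have hsplit : ENNReal.ofReal ((1 + L) * Real.exp (-L))
      = ENNReal.ofReal (Real.exp (-L)) + ENNReal.ofReal (Real.exp (-L)) * ENNReal.ofReal L := by
    rw [← ENNReal.ofReal_mul hEm.le, ← ENNReal.ofReal_add hEm.le (by positivity)]
    congr 1
    ring
  have h1 : ENNReal.ofReal (Real.exp (-L)) * Ω + ENNReal.ofReal (Real.exp (-L)) * ENNReal.ofReal L * Ω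
      ≤ X + ENNReal.ofReal (Real.exp (-L)) * ENNReal.ofReal L * Ω := by
    calc _ = ENNReal.ofReal ((1 + L) * Real.exp (-L)) * Ω := by
          rw [hsplit, add_mul]
      _ ≤ X + ENNReal.ofReal (Real.exp (-L))
            * ∫⁻ t, wmat t * ENNReal.ofReal (Sparse.FF R c t * Bfun n R c t) := hint
      _ ≤ X + ENNReal.ofReal (Real.exp (-L)) * (Ω * ENNReal.ofReal L) := by gcongr
      _ = _ := by ring
  have hfin : ENNReal.ofReal (Real.exp (-L)) * ENNReal.ofReal L * Ω ≠ ⊤ :=
    ENNReal.mul_ne_top (ENNReal.mul_ne_top ENNReal.ofReal_ne_top ENNReal.ofReal_ne_top) hΩt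
  have h2 : ENNReal.ofReal (Real.exp (-L)) * Ω ≤ X :=
    (ENNReal.add_le_add_iff_right hfin).1 h1
  -- the capacity
  have hβ0 : 0 < betaC c := Sparse.betaC_pos c
  set Fac : ℝ := ∏ i, (((R i)! : ℕ) : ℝ) with hFac
  have hFac0 : 0 < Fac := Finset.prod_pos fun i _ => by exact_mod_cast Nat.factorial_pos _
  have hcap : ∀ t : Fin (n + 1) → Fin m → ℝ, wmat t * ENNReal.ofReal (Sparse.FF R c t
        * Real.exp (-Bfun n R c t))
      ≤ ENNReal.ofReal (betaC c / Fac) * (wmat t * capa R c t) := by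
    intro t
    by_cases ht : wmat t = 0
    · simp [ht]
    have htp := wmat_ne_zero_pos ht
    have hF := FF_nonneg htp R c
    have hge : ENNReal.ofReal (Fac * Sparse.FF R c t * Real.exp (-Bfun n R c t) / betaC c)
        ≤ capa R c t := by
      unfold capa
      refine le_iInf fun b => ?_
      exact ENNReal.ofReal_le_ofReal (FF_exp_le n R c t htp hpos b.1 b.2)
    have heq : Sparse.FF R c t * Real.exp (-Bfun n R c t)
        = (betaC c / Fac) * (Fac * Sparse.FF R c t * Real.exp (-Bfun n R c t) / betaC c) := by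
      field_simp
    rw [heq, ENNReal.ofReal_mul (by positivity)]
    calc _ = ENNReal.ofReal (betaC c / Fac) * (wmat t * ENNReal.ofReal (Fac * Sparse.FF R c t
            * Real.exp (-Bfun n R c t) / betaC c)) := by ring
      _ ≤ _ := by gcongr
  have hXle : X ≤ ENNReal.ofReal (betaC c) * Ihat R c := by
    refine (lintegral_mono hcap).trans ?_
    have e : ENNReal.ofReal Fac = ((∏ i, (R i)! : ℕ) : ℝ≥0∞) := by
      rw [hFac, ← ENNReal.ofReal_natCast]
      congr 1
      push_cast
      rfl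
    rw [lintegral_const_mul' _ _ ENNReal.ofReal_ne_top, Ihat_eq, ENNReal.ofReal_div_of_pos hFac0, e]
    refine le_of_eq ?_
    simp only [div_eq_mul_inv]
    ring
  -- conclude
  have h3 : ENNReal.ofReal (Real.exp L) * ENNReal.ofReal (Real.exp (-L)) = 1 := by
    rw [← ENNReal.ofReal_mul (Real.exp_pos _).le, ← Real.exp_add, add_neg_cancel, Real.exp_zero,
      ENNReal.ofReal_one]
  calc Ω = ENNReal.ofReal (Real.exp L) * (ENNReal.ofReal (Real.exp (-L)) * Ω) := by
        rw [← mul_assoc, h3, one_mul]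
    _ ≤ ENNReal.ofReal (Real.exp L) * (ENNReal.ofReal (betaC c) * Ihat R c) := by
        exact mul_le_mul' le_rfl (h2.trans hXle)
    _ = _ := by
        rw [ENNReal.ofReal_mul (Real.exp_pos _).le, mul_assoc]

/-- The harmonic sum. -/
theorem harm_le (n : ℕ) : ∑ k ∈ range n, (1 : ℝ) / ((k : ℝ) + 2) ≤ Real.log ((n : ℝ) + 1) := by
  induction n with
  | zero => simp
  | succ n ih =>
    rw [Finset.sum_range_succ]
    have h1 : (0 : ℝ) < (n : ℝ) + 1 := by positivity
    have h2 : (0 : ℝ) < (n : ℝ) + 2 := by positivity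
    have h3 := Real.one_sub_inv_le_log_of_pos (show 0 < ((n : ℝ) + 2) / ((n : ℝ) + 1) by positivity)
    rw [Real.log_div h2.ne' h1.ne'] at h3
    have h4 : 1 - (((n : ℝ) + 2) / ((n : ℝ) + 1))⁻¹ = 1 / ((n : ℝ) + 2) := by
      field_simp
      ring
    rw [h4] at h3
    push_cast
    have h5 : (n : ℝ) + 1 + 1 = (n : ℝ) + 2 := by ring
    rw [h5]
    linarith

/-- The constant. -/
theorem Lsum_le (N n : ℕ) (hn : n + 1 ≤ N) : Lsum N n ≤ 2500000 * ell N ^ 7 := by
  set l := ell N with hl
  have hl1 : 1 ≤ l := ell_ge_one N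
  have hl0 : 0 < l := by linarith
  have hM : (Mv N : ℝ) ≤ 7 * l := by
    unfold Mv
    have h := Nat.ceil_lt_add_one (show 0 ≤ 6 * ell N by rw [← hl]; linarith)
    rw [← hl] at h ⊢
    linarith
  have hM0 : (0 : ℝ) ≤ (Mv N : ℝ) := Nat.cast_nonneg _
  have hk : kapD N + 18 ≤ 290323 * l ^ 5 := by
    unfold kapD Atok
    rw [← hl]
    have h1 : (1 + l) ^ 2 ≤ 4 * l ^ 2 := by nlinarith
    have h2 : 2 + (Mv N : ℝ) ≤ 9 * l := by linarith
    have h3 : 6 + 2 * l ≤ 8 * l := by linarith
    have h4 : (1 : ℝ) ≤ l ^ 5 := one_le_pow₀ hl1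
    have h5 : 9 * (1 + l) ^ 2 * (2 + (Mv N : ℝ)) * 6 * (Mv N : ℝ) * (6 + 2 * l) * (8 / 3)
        ≤ 9 * (4 * l ^ 2) * (9 * l) * 6 * (7 * l) * (8 * l) * (8 / 3) := by
      gcongr
    have h6 : 9 * (4 * l ^ 2) * (9 * l) * 6 * (7 * l) * (8 * l) * (8 / 3) = 290304 * l ^ 5 := by ring
    linarith
  have hk0 : 0 ≤ kapD N + 18 := by
    have := kapD_nonneg N
    linarith
  have hsum : Lsum N n = 8 * l * (kapD N + 18) * ∑ k ∈ range n, (1 : ℝ) / ((k : ℝ) + 2) := by
    unfold Lsum eps
    rw [Finset.mul_sum]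
    refine Finset.sum_congr rfl fun k _ => ?_
    rw [← hl]
    push_cast
    have : (kapD N + 10 + 8) = kapD N + 18 := by ring
    rw [this]
    field_simp
  have hlog : Real.log ((n : ℝ) + 1) ≤ l := by
    rw [hl]
    unfold ell
    refine Real.log_le_log (by positivity) ?_
    have : ((n + 1 : ℕ) : ℝ) ≤ N := by exact_mod_cast hn
    push_cast at this
    linarith
  have hh := (harm_le n).trans hlog
  have hh0 : 0 ≤ ∑ k ∈ range n, (1 : ℝ) / ((k : ℝ) + 2) :=
    Finset.sum_nonneg fun k _ => by positivity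
  rw [hsum]
  calc 8 * l * (kapD N + 18) * ∑ k ∈ range n, (1 : ℝ) / ((k : ℝ) + 2)
      ≤ 8 * l * (290323 * l ^ 5) * l := by gcongr
    _ = 2322584 * l ^ 7 := by ring
    _ ≤ 2500000 * l ^ 7 := by
        have : 0 ≤ l ^ 7 := by positivity
        linarith

/-- The final theorem. -/
theorem card_le_all (r : Fin m → ℕ) (c : Fin n → ℕ) (hn : 0 < n) (hpos : ∀ j, 0 < c j)
    (hsum : ∑ i, r i = ∑ j, c j) :
    ((tabs r c).card : ℝ≥0∞)
      ≤ ENNReal.ofReal (Real.exp (2500000 * ell (∑ j, c j) ^ 7) * betaC c) * Ihat r c := by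
  obtain ⟨n', rfl⟩ : ∃ n', n = n' + 1 := ⟨n - 1, by omega⟩
  set σ := Tuple.sort c with hσ
  have hmono : Monotone (c ∘ σ) := Tuple.monotone_sort c
  have hsum' : ∑ j, (c ∘ σ) j = ∑ j, c j := Equiv.sum_comp σ c
  have hcount : n' + 1 ≤ ∑ j, c j := by
    have h := Finset.card_nsmul_le_sum (univ : Finset (Fin (n' + 1))) c 1 (fun j _ => hpos j)
    simpa using h
  have hmain := card_le_sorted r (c ∘ σ) (fun j => hpos _) hmono (by rw [hsum', hsum]) (∑ j, c j)
    hsum'.le
  rw [card_tabs_comp, betaC_comp, Ihat_comp] at hmain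
  exact hmain.trans (mul_le_mul' (ENNReal.ofReal_le_ofReal (mul_le_mul_of_nonneg_right
    (Real.exp_le_exp.2 (Lsum_le _ _ hcount)) (Sparse.betaC_pos c).le)) le_rfl)

end Vale.Agent.Lib.P328.Ent
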