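import Vale.Agent.Lib.P328.Ent.Final

/-!
# P328, all margins: `log K`, columns of sum zero and arbitrary order of the columns
-/

namespace Vale.Agent.Lib.P328.Ent

open Finset MeasureTheory Vale.Agent.Lib.P328 Vale.Agent.Lib.P328.Cap
open scoped ENNReal Nat

variable {m n : ℕ}

/-- The exponent of the final bound. -/
noncomputable def aexp (N : ℕ) : ℝ := 2500000 * ell N ^ 7

theorem aexp_nonneg (N : ℕ) : 0 ≤ aexp N := by
  unfold aexp
  have := ell_ge_one N
  have h0 : 0 ≤ ell N := by linarith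
  positivity

theorem measurable_LK (r : Fin m → ℕ) (c : Fin n → ℕ) : Measurable (Sparse.LK r c) := by
  unfold Sparse.LK
  have h1 : Measurable (Sparse.capR r c) := (capa_measurable r c).ennreal_toReal
  have h2 := measurable_FF r c
  exact (((h2.const_mul _).log).sub h1.log).sub measurable_const

/-- `log K` is at most the loss of the chain. -/
theorem LK_le_of_exp (R : Fin m → ℕ) (c : Fin n → ℕ) (t : Fin n → Fin m → ℝ)
    (ht : ∀ j i, 0 < t j i) (hsum : ∑ i, R i = ∑ j, c j) (B : ℝ)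
    (hB : ∀ b : Fin n → ℝ, (∀ j, 0 < b j) →
      (∏ i, (((R i)! : ℕ) : ℝ)) * Sparse.FF R c t * Real.exp (-B) / betaC c
        ≤ (∏ i, (∑ j, t j i * b j) ^ R i) / ∏ j, b j ^ c j) :
    Sparse.LK R c t ≤ B := by
  have hF := Sparse.FF_pos ht R c hsum
  have hβ := Sparse.betaC_pos c
  have hfac : 0 < ∏ i, (((R i)! : ℕ) : ℝ) := Finset.prod_pos fun i _ => by
    exact_mod_cast Nat.factorial_pos _
  have hC := Sparse.capR_pos ht R c hsum
  have h1 : (∏ i, (((R i)! : ℕ) : ℝ)) * Sparse.FF R c t * Real.exp (-B) / betaC c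
      ≤ Sparse.capR R c t := Sparse.le_capR R c _ hB
  have hexp := Real.exp_pos (-B)
  have h2 := Real.log_le_log (by positivity) h1
  rw [Real.log_div (by positivity) hβ.ne', Real.log_mul (by positivity) hexp.ne', Real.log_exp] at h2
  unfold Sparse.LK
  linarith

theorem LK_le_Bfun (n : ℕ) (R : Fin m → ℕ) (c : Fin (n + 1) → ℕ) (t : Fin (n + 1) → Fin m → ℝ)
    (ht : ∀ j i, 0 < t j i) (hpos : ∀ j, 0 < c j) (hsum : ∑ i, R i = ∑ j, c j) :
    Sparse.LK R c t ≤ Bfun n R c t :=
  LK_le_of_exp R c t ht hsum _ (FF_exp_le n R c t ht hpos)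

/-- The integral of `F log K`, sorted positive columns. -/
theorem lint_LK_sorted (R : Fin m → ℕ) (c : Fin (n + 1) → ℕ) (hpos : ∀ j, 0 < c j) (hc : Monotone c)
    (hsum : ∑ i, R i = ∑ j, c j) :
    ∫⁻ t, wmat t * ENNReal.ofReal (Sparse.FF R c t * Sparse.LK R c t)
      ≤ ((tabs R c).card : ℝ≥0∞) * ENNReal.ofReal (aexp (∑ j, c j)) := by
  have hcount : n + 1 ≤ ∑ j, c j := by
    have h := Finset.card_nsmul_le_sum (univ : Finset (Fin (n + 1))) c 1 (fun j _ => hpos j)
    simpa using h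
  refine le_trans (lintegral_mono fun t => ?_) ((chain_integral n R c hpos hc hsum _ le_rfl).trans ?_)
  · by_cases h : wmat t = 0
    · simp [h]
    · have htp := wmat_ne_zero_pos h
      refine mul_le_mul_right (ENNReal.ofReal_le_ofReal ?_) _
      exact mul_le_mul_of_nonneg_left (LK_le_Bfun n R c t htp hpos hsum) (FF_nonneg htp R c)
  · exact mul_le_mul' le_rfl (ENNReal.ofReal_le_ofReal (Lsum_le _ _ hcount))

theorem lev_zero (R : Fin m → ℕ) : lev R 0 = {fun _ => 0} := by
  ext x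
  simp only [mem_lev, Finset.mem_singleton]
  constructor
  · rintro ⟨_, h⟩
    funext i
    exact (Finset.sum_eq_zero_iff.1 h) i (mem_univ i)
  · rintro rfl
    simp

theorem betaC_cons_zero (c' : Fin n → ℕ) :
    betaC (Fin.cons 0 c' : Fin (n + 1) → ℕ) = betaC c' := by
  unfold betaC
  rw [Fin.sum_univ_succ, Fin.prod_univ_succ]
  simp

theorem card_tabs_cons_zero (R : Fin m → ℕ) (c' : Fin n → ℕ) :
    (tabs R (Fin.cons 0 c')).card = (tabs R c').card := by
  have h := sum_first_col R 0 c' (fun _ => 1)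
  rw [lev_zero, Finset.sum_singleton] at h
  simp only [Finset.sum_const, nsmul_eq_mul, mul_one, one_mul, Nat.sub_zero] at h
  exact_mod_cast h

theorem Ihat_cons_zero (R : Fin m → ℕ) (c' : Fin (n + 1) → ℕ) :
    Ihat R c' ≤ Ihat R (Fin.cons 0 c') := by
  have h := Ihat_rec_one R 0 c'
  rw [lev_zero, Finset.sum_singleton] at h
  simpa using h

theorem w1_zero (u : Fin m → ℝ) : w1 u (fun _ => 0) = 1 := by
  unfold w1
  simp

theorem FF_cons_zero (R : Fin m → ℕ) (c' : Fin n → ℕ) (u : Fin m → ℝ) (t' : Fin n → Fin m → ℝ) :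
    Sparse.FF R (Fin.cons 0 c') (Fin.cons u t') = Sparse.FF R c' t' := by
  rw [FF_cons]
  unfold ZZ amp
  rw [lev_zero, Finset.sum_singleton, w1_zero, one_mul]
  simp

theorem capR_cons_zero (R : Fin m → ℕ) (c' : Fin n → ℕ) (u : Fin m → ℝ) (t' : Fin n → Fin m → ℝ)
    (hu : ∀ i, 0 < u i) (ht : ∀ j i, 0 < t' j i) :
    Sparse.capR R c' t' ≤ Sparse.capR R (Fin.cons 0 c') (Fin.cons u t') := by
  refine Sparse.le_capR _ _ _ fun b hb => ?_
  have h := Sparse.capR_le_valB ht R c' (Fin.tail b) (fun j => hb j.succ)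
  refine h.trans ?_
  unfold Sparse.valB
  have hprod : ∏ j, b j ^ (Fin.cons 0 c' : Fin (n + 1) → ℕ) j = ∏ j, Fin.tail b j ^ c' j := by
    rw [Fin.prod_univ_succ]
    simp [Fin.tail]
  rw [hprod]
  refine div_le_div_of_nonneg_right ?_ (Finset.prod_nonneg fun j _ => pow_nonneg (hb j.succ).le _)
  refine Finset.prod_le_prod (fun i _ => pow_nonneg (Finset.sum_nonneg fun j _ =>
    (mul_pos (ht j i) (hb j.succ)).le) _) fun i _ => ?_
  refine pow_le_pow_left₀ (Finset.sum_nonneg fun j _ => (mul_pos (ht j i) (hb j.succ)).le) ?_ _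
  rw [Fin.sum_univ_succ]
  simp only [Fin.cons_zero, Fin.cons_succ]
  have := mul_pos (hu i) (hb 0)
  linarith

theorem LK_cons_zero (R : Fin m → ℕ) (c' : Fin n → ℕ) (u : Fin m → ℝ) (t' : Fin n → Fin m → ℝ)
    (hu : ∀ i, 0 < u i) (ht : ∀ j i, 0 < t' j i) (hsum : ∑ i, R i = ∑ j, c' j) :
    Sparse.LK R (Fin.cons 0 c') (Fin.cons u t') ≤ Sparse.LK R c' t' := by
  unfold Sparse.LK
  rw [FF_cons_zero, betaC_cons_zero]
  have h := capR_cons_zero R c' u t' hu ht
  have h2 := Real.log_le_log (Sparse.capR_pos ht R c' hsum) h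
  linarith

/-- The bound for sorted columns, possibly with columns of sum zero. -/
theorem sorted_all : ∀ (n : ℕ) (R : Fin m → ℕ) (c : Fin (n + 1) → ℕ), Monotone c →
    ∑ i, R i = ∑ j, c j →
    ((tabs R c).card : ℝ≥0∞) ≤ ENNReal.ofReal (Real.exp (aexp (∑ j, c j)) * betaC c) * Ihat R c ∧
    ∫⁻ t, wmat t * ENNReal.ofReal (Sparse.FF R c t * Sparse.LK R c t)
      ≤ ((tabs R c).card : ℝ≥0∞) * ENNReal.ofReal (aexp (∑ j, c j)) := by
  have hpos_case : ∀ (n : ℕ) (R : Fin m → ℕ) (c : Fin (n + 1) → ℕ), Monotone c →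
      ∑ i, R i = ∑ j, c j → 0 < c 0 →
      ((tabs R c).card : ℝ≥0∞) ≤ ENNReal.ofReal (Real.exp (aexp (∑ j, c j)) * betaC c) * Ihat R c ∧
      ∫⁻ t, wmat t * ENNReal.ofReal (Sparse.FF R c t * Sparse.LK R c t)
        ≤ ((tabs R c).card : ℝ≥0∞) * ENNReal.ofReal (aexp (∑ j, c j)) := by
    intro n R c hc hsum h0
    have hpos : ∀ j, 0 < c j := fun j => lt_of_lt_of_le h0 (hc (Fin.zero_le j))
    have hcount : n + 1 ≤ ∑ j, c j := by
      have h := Finset.card_nsmul_le_sum (univ : Finset (Fin (n + 1))) c 1 (fun j _ => hpos j)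
      simpa using h
    refine ⟨?_, lint_LK_sorted R c hpos hc hsum⟩
    have hmain := card_le_sorted R c hpos hc hsum _ le_rfl
    exact hmain.trans (mul_le_mul' (ENNReal.ofReal_le_ofReal (mul_le_mul_of_nonneg_right
      (Real.exp_le_exp.2 (Lsum_le _ _ hcount)) (Sparse.betaC_pos c).le)) le_rfl)
  intro n
  induction n with
  | zero =>
    intro R c hc hsum
    by_cases h0 : 0 < c 0
    · exact hpos_case 0 R c hc hsum h0
    have hc0 : c 0 = 0 := by omega
    have hbeta : betaC c = 1 := by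
      unfold betaC
      simp [hc0]
    have hsum0 : ∑ i, R i = c 0 := by
      rw [hsum]
      simp
    have hI := Ihat_one_col R c hsum0
    have hcard := card_tabs_one_col R c
    constructor
    · rw [hbeta, mul_one]
      have h1 : (1 : ℝ≥0∞) ≤ ENNReal.ofReal (Real.exp (aexp (∑ j, c j))) := by
        rw [← ENNReal.ofReal_one]
        exact ENNReal.ofReal_le_ofReal (Real.one_le_exp (aexp_nonneg _))
      calc ((tabs R c).card : ℝ≥0∞) ≤ 1 := by exact_mod_cast hcard
        _ ≤ _ := one_le_mul h1 hI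
    · have hz : ∀ t : Fin (0 + 1) → Fin m → ℝ,
          wmat t * ENNReal.ofReal (Sparse.FF R c t * Sparse.LK R c t) = 0 := by
        intro t
        by_cases h : wmat t = 0
        · simp [h]
        have htp := wmat_ne_zero_pos h
        have hL : Sparse.LK R c t ≤ 0 := by
          refine LK_le_of_exp R c t htp hsum 0 fun b hb => ?_
          have := FF_exp_le_one' R c t htp hsum0 hbeta b hb
          simpa [Bfun] using this
        have hF := FF_nonneg htp R c
        rw [ENNReal.ofReal_of_nonpos (mul_nonpos_of_nonneg_of_nonpos hF hL), mul_zero]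
      simp [hz]
  | succ n ih =>
    intro R c hc hsum
    by_cases h0 : 0 < c 0
    · exact hpos_case _ R c hc hsum h0
    have hc0 : c 0 = 0 := by omega
    set c' : Fin (n + 1) → ℕ := Fin.tail c with hc'
    have hcons : Fin.cons 0 c' = c := by
      rw [← hc0]
      exact Fin.cons_self_tail c
    have hc'sum : ∑ j, c j = ∑ j, c' j := by
      rw [Fin.sum_univ_succ, hc0, zero_add]
      rfl
    have hmono : Monotone c' := fun a b hab => hc (Fin.succ_le_succ_iff.2 hab)
    have hsum' : ∑ i, R i = ∑ j, c' j := by rw [hsum, hc'sum]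
    obtain ⟨h1, h2⟩ := ih R c' hmono hsum'
    have hcard : (tabs R c).card = (tabs R c').card := by
      rw [← hcons]
      exact card_tabs_cons_zero R c'
    have hbeta : betaC c = betaC c' := by
      rw [← hcons]
      exact betaC_cons_zero c'
    have hI : Ihat R c' ≤ Ihat R c := by
      rw [← hcons]
      exact Ihat_cons_zero R c'
    rw [hcard, hc'sum, hbeta]
    refine ⟨h1.trans (mul_le_mul' le_rfl hI), le_trans ?_ h2⟩
    -- integrate out the first column
    have hH : Measurable fun t' : Fin (n + 1) → Fin m → ℝ =>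
        ENNReal.ofReal (Sparse.FF R c' t' * Sparse.LK R c' t') :=
      ((measurable_FF _ _).mul (measurable_LK _ _)).ennreal_ofReal
    have hcol := lintegral_column (fun _ => 0) _ hH
    rw [← hcol]
    refine lintegral_mono fun t => ?_
    by_cases h : wmat t = 0
    · simp [h]
    have htp := wmat_ne_zero_pos h
    have htail : ∀ j i, 0 < Fin.tail t j i := fun j i => htp j.succ i
    have htcons : Fin.cons (t 0) (Fin.tail t) = t := Fin.cons_self_tail t
    rw [w1_zero, ENNReal.ofReal_one, mul_one]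
    refine mul_le_mul' le_rfl (ENNReal.ofReal_le_ofReal ?_)
    have e1 : Sparse.FF R c t = Sparse.FF R c' (Fin.tail t) := by
      conv_lhs => rw [← hcons, ← htcons]
      exact FF_cons_zero R c' (t 0) (Fin.tail t)
    have e2 : Sparse.LK R c t ≤ Sparse.LK R c' (Fin.tail t) := by
      conv_lhs => rw [← hcons, ← htcons]
      exact LK_cons_zero R c' (t 0) (Fin.tail t) (htp 0) htail hsum'
    rw [e1]
    exact mul_le_mul_of_nonneg_left e2 (FF_nonneg htail _ _)

theorem FF_comp (r : Fin m → ℕ) (c : Fin n → ℕ) (σ : Equiv.Perm (Fin n)) (t : Fin n → Fin m → ℝ) :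
    Sparse.FF r (c ∘ σ) (t ∘ σ) = Sparse.FF r c t := by
  unfold Sparse.FF
  refine Finset.sum_nbij' (fun T => T ∘ σ.symm) (fun T => T ∘ σ) ?_ ?_ ?_ ?_ ?_
  · intro T hT
    obtain ⟨h1, h2⟩ := mem_tabs.1 hT
    refine mem_tabs.2 ⟨fun j => ?_, fun i => ?_⟩
    · have := h1 (σ.symm j)
      simpa using this
    · rw [← h2 i]
      exact Equiv.sum_comp σ.symm (fun j => T j i)
  · intro T hT
    obtain ⟨h1, h2⟩ := mem_tabs.1 hT
    refine mem_tabs.2 ⟨fun j => ?_, fun i => ?_⟩
    · exact h1 (σ j)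
    · rw [← h2 i]
      exact Equiv.sum_comp σ (fun j => T j i)
  · intro T _
    funext j
    simp
  · intro T _
    funext j
    simp
  · intro T _
    unfold Sparse.wt
    have h := Equiv.prod_comp σ (fun j => ∏ i, (t j i ^ ((T ∘ σ.symm) j i) / (((T ∘ σ.symm) j i)! : ℝ)))
    rw [← h]
    refine Finset.prod_congr rfl fun j _ => ?_
    simp

theorem LK_comp (r : Fin m → ℕ) (c : Fin n → ℕ) (σ : Equiv.Perm (Fin n)) (t : Fin n → Fin m → ℝ) :
    Sparse.LK r (c ∘ σ) (t ∘ σ) = Sparse.LK r c t := by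
  unfold Sparse.LK Sparse.capR
  rw [FF_comp, capa_comp, betaC_comp]

/-- The final theorem for all margins. -/
theorem all_margins (r : Fin m → ℕ) (c : Fin n → ℕ) (hn : 0 < n) (hsum : ∑ i, r i = ∑ j, c j) :
    ((tabs r c).card : ℝ≥0∞) ≤ ENNReal.ofReal (Real.exp (aexp (∑ j, c j)) * betaC c) * Ihat r c ∧
    ∫⁻ t, wmat t * ENNReal.ofReal (Sparse.FF r c t * Sparse.LK r c t)
      ≤ ((tabs r c).card : ℝ≥0∞) * ENNReal.ofReal (aexp (∑ j, c j)) := by
  obtain ⟨n', rfl⟩ : ∃ n', n = n' + 1 := ⟨n - 1, by omega⟩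
  set σ := Tuple.sort c with hσ
  have hmono : Monotone (c ∘ σ) := Tuple.monotone_sort c
  have hsum' : ∑ j, (c ∘ σ) j = ∑ j, c j := Equiv.sum_comp σ c
  obtain ⟨h1, h2⟩ := sorted_all n' r (c ∘ σ) hmono (by rw [hsum', hsum])
  rw [card_tabs_comp, betaC_comp, Ihat_comp, hsum'] at h1
  refine ⟨h1, ?_⟩
  rw [card_tabs_comp, hsum'] at h2
  refine le_trans (le_of_eq ?_) h2
  have h3 := lintegral_comp_perm σ (fun t => wmat t * ENNReal.ofReal
    (Sparse.FF r (c ∘ σ) t * Sparse.LK r (c ∘ σ) t))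
  rw [← h3]
  refine lintegral_congr fun t => ?_
  have e1 : (c ∘ σ) ∘ σ.symm = c := by
    funext j
    simp
  have e2 : (t ∘ σ) ∘ σ.symm = t := by
    funext j
    simp
  have h4 := FF_comp r (c ∘ σ) σ.symm (t ∘ σ)
  have h5 := LK_comp r (c ∘ σ) σ.symm (t ∘ σ)
  rw [e1, e2] at h4 h5
  rw [wmat_comp, ← h4, ← h5]

end Vale.Agent.Lib.P328.Ent
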