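import Vale.Agent.Lib.P328.Ent.Defs

/-!
# P328, all margins: the loss of one column against the squared shares
-/

namespace Vale.Agent.Lib.P328.Ent

open Finset MeasureTheory Vale.Agent.Lib.P328 Vale.Agent.Lib.P328.Cap
open scoped ENNReal Nat

variable {m n : ℕ}

/-- The point probabilities are at most one. -/
theorem Pk_le_one (R : Fin m → ℕ) (p : Fin m → ℝ) (h0 : ∀ i, 0 ≤ p i) (h1 : ∀ i, p i ≤ 1) (c : ℕ) :
    Pk R p c ≤ 1 := by
  classical
  have hbox : ∑ x ∈ Cap.box R, wt R p x = 1 := by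
    unfold Cap.box wt
    rw [← Finset.prod_univ_sum]
    exact Finset.prod_eq_one fun i _ => sum_bw (R i) (p i)
  rw [← hbox]
  unfold Pk lev
  exact Finset.sum_le_sum_of_subset_of_nonneg (Finset.filter_subset _ _)
    fun x _ _ => wt_nonneg h0 h1 x

theorem Pk_nonneg (R : Fin m → ℕ) (p : Fin m → ℝ) (h0 : ∀ i, 0 ≤ p i) (h1 : ∀ i, p i ≤ 1) (c : ℕ) :
    0 ≤ Pk R p c :=
  Finset.sum_nonneg fun x _ => wt_nonneg h0 h1 x

/-- The Hoeffding step, without strict bounds on the shares. -/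
theorem Aq_le (R : Fin m → ℕ) (p : Fin m → ℝ) (c : ℕ) (h0 : ∀ i, 0 ≤ p i) (h1 : ∀ i, p i ≤ 1)
    (hmean : ∑ i, (R i : ℝ) * p i = c) (hc : 0 < c) (hcC : c < ∑ i, R i) :
    Aq R p c ≤ (c : ℝ) * bw (∑ i, R i) ((c : ℝ) / (∑ i, R i : ℕ)) c := by
  have hC : (0 : ℝ) < ((∑ i, R i : ℕ) : ℝ) := by
    have : 0 < ∑ i, R i := by omega
    exact_mod_cast this
  set pbar : ℝ := (c : ℝ) / (∑ i, R i : ℕ) with hpbar
  have hpbar0 : 0 ≤ pbar := by positivity
  have hpbar1 : pbar ≤ 1 := by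
    rw [hpbar, div_le_one hC]
    exact_mod_cast hcC.le
  have hcard : Fintype.card (Σ i, Fin (R i)) = ∑ i, R i := by
    simp [Fintype.card_sigma]
  have hmeanbar : ((∑ i, R i : ℕ) : ℝ) * pbar = c := by
    rw [hpbar]
    field_simp
  have hstep2 : Lam (gpos c) (PP (fun a : (Σ i, Fin (R i)) => p a.1))
      ≤ Lam (gpos c) (PP fun _ : (Σ i, Fin (R i)) => pbar) := by
    refine Lam_PP_le_const (DConvex_pos_part c) pbar _ _ (fun e => h0 _) (fun e => h1 _) ?_ le_rfl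
    rw [hcard, hmeanbar, Fintype.sum_sigma, ← hmean]
    refine Finset.sum_congr rfl fun i _ => ?_
    simp
  have hfinal := Lam_single (∑ i, R i) c hcC.le pbar hmeanbar
  rw [PP_const, hcard, hfinal, PP_sigma, ← Aq_eq_Lam R p c hmean] at hstep2
  have hb : 0 ≤ bw (∑ i, R i) pbar c := bw_nonneg hpbar0 hpbar1 c
  have hc' : (0 : ℝ) ≤ c := Nat.cast_nonneg _
  have : (1 - pbar) * (c : ℝ) * bw (∑ i, R i) pbar c ≤ (c : ℝ) * bw (∑ i, R i) pbar c := by
    have h2 : (1 - pbar) * ((c : ℝ) * bw (∑ i, R i) pbar c) ≤ 1 * ((c : ℝ) * bw (∑ i, R i) pbar c) :=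
      mul_le_mul_of_nonneg_right (by linarith) (mul_nonneg hc' hb)
    linarith
  linarith

/-- The main inequality of the loss bound. -/
theorem pk_ineq (R : Fin m → ℕ) (p : Fin m → ℝ) (c : ℕ) (h0 : ∀ i, 0 ≤ p i) (h1 : ∀ i, p i ≤ 1)
    (hmean : ∑ i, (R i : ℝ) * p i = c) (hc : 0 < c) (hcC : c < ∑ i, R i) :
    ((((c : ℝ) - ∑ i, (R i : ℝ) * p i ^ 2) ^ 2 - (c : ℝ) * ∑ i, (R i : ℝ) * p i ^ 2)) * Pk R p c
      ≤ ((c : ℝ) - ∑ i, (R i : ℝ) * p i ^ 2) * ((c : ℝ) * bw (∑ i, R i) ((c : ℝ) / (∑ i, R i : ℕ)) c) := by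
  set O : ℝ := ∑ i, (R i : ℝ) * p i ^ 2 with hO
  set V : ℝ := (c : ℝ) - O with hV
  have hvr : vr R p = V := by
    unfold vr
    rw [hV, hO, ← hmean, ← Finset.sum_sub_distrib]
    refine Finset.sum_congr rfl fun i _ => ?_
    ring
  have hO_nonneg : 0 ≤ O := Finset.sum_nonneg fun i _ => by positivity
  have hO_le : O ≤ c := by
    rw [← hmean, hO]
    refine Finset.sum_le_sum fun i _ => ?_
    have hp0 := h0 i
    have hp1 := h1 i
    have hR : (0 : ℝ) ≤ R i := Nat.cast_nonneg _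
    have : p i ^ 2 ≤ p i := by nlinarith
    exact mul_le_mul_of_nonneg_left this hR
  have hVnn : 0 ≤ V := by rw [hV]; linarith
  -- on the level, `qx = V - lin`
  have hqx : ∀ x ∈ lev R c, qx p x = V - lin R p x := by
    intro x hx
    have hk := (mem_lev.1 hx).2
    unfold qx lin dv
    rw [hV, hO, ← hk]
    push_cast
    rw [← Finset.sum_sub_distrib, ← Finset.sum_sub_distrib]
    refine Finset.sum_congr rfl fun i _ => ?_
    ring
  have hA : Aq R p c = V * Pk R p c - ∑ x ∈ lev R c, lin R p x * wt R p x := by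
    unfold Aq Pk
    rw [Finset.mul_sum, ← Finset.sum_sub_distrib]
    refine Finset.sum_congr rfl fun x hx => ?_
    rw [hqx x hx]
    ring
  have hlin2 : ∀ x ∈ lev R c, lin R p x ^ 2 ≤ (c : ℝ) * O := by
    intro x hx
    obtain ⟨hxR, hk⟩ := mem_lev.1 hx
    have hlin : lin R p x = ∑ i, p i * (x i : ℝ) - O := by
      unfold lin dv
      rw [hO, ← Finset.sum_sub_distrib]
      refine Finset.sum_congr rfl fun i _ => ?_
      ring
    have hS0 : 0 ≤ ∑ i, p i * (x i : ℝ) := Finset.sum_nonneg fun i _ =>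
      mul_nonneg (h0 i) (Nat.cast_nonneg _)
    have hCS : (∑ i, p i * (x i : ℝ)) ^ 2 ≤ (c : ℝ) * O := by
      have h1' := Finset.sum_sq_le_sum_mul_sum_of_sq_le_mul (Finset.univ : Finset (Fin m))
        (r := fun i => p i * (x i : ℝ)) (f := fun i => (x i : ℝ))
        (g := fun i => (x i : ℝ) * p i ^ 2)
        (fun i _ => Nat.cast_nonneg _) (fun i _ => by positivity) (fun i _ => le_of_eq (by ring))
      have h2' : ∑ i, (x i : ℝ) = c := by rw [← hk]; push_cast; rfl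
      have h3' : ∑ i, (x i : ℝ) * p i ^ 2 ≤ O := by
        rw [hO]
        refine Finset.sum_le_sum fun i _ => ?_
        exact mul_le_mul_of_nonneg_right (by exact_mod_cast hxR i) (sq_nonneg _)
      rw [h2'] at h1'
      have hc' : (0 : ℝ) ≤ c := Nat.cast_nonneg _
      exact h1'.trans (mul_le_mul_of_nonneg_left h3' hc')
    rw [hlin]
    set S := ∑ i, p i * (x i : ℝ) with hS
    have hOO : O ^ 2 ≤ (c : ℝ) * O := by nlinarith
    nlinarith [sq_nonneg (S - O), mul_nonneg hS0 hO_nonneg]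
  have he : V * ∑ x ∈ lev R c, lin R p x * wt R p x ≤ (c : ℝ) * O * Pk R p c := by
    have h2 := var_lin R p c hc hmean
    rw [hvr] at h2
    rw [h2]
    unfold Pk
    rw [Finset.mul_sum]
    refine Finset.sum_le_sum fun x hx => ?_
    exact mul_le_mul_of_nonneg_right (hlin2 x hx) (wt_nonneg h0 h1 x)
  have hAq := Aq_le R p c h0 h1 hmean hc hcC
  have h3 : V * Aq R p c ≤ V * ((c : ℝ) * bw (∑ i, R i) ((c : ℝ) / (∑ i, R i : ℕ)) c) :=
    mul_le_mul_of_nonneg_left hAq hVnn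
  have h4 : V * Aq R p c = V ^ 2 * Pk R p c - V * ∑ x ∈ lev R c, lin R p x * wt R p x := by
    rw [hA]; ring
  rw [h4] at h3
  have h5 : (V ^ 2 - (c : ℝ) * O) * Pk R p c = V ^ 2 * Pk R p c - (c : ℝ) * O * Pk R p c := by ring
  rw [h5]
  linarith

/-- The loss bound. -/
theorem pb_loss (R : Fin m → ℕ) (p : Fin m → ℝ) (c : ℕ) (h0 : ∀ i, 0 ≤ p i) (h1 : ∀ i, p i ≤ 1)
    (hmean : ∑ i, (R i : ℝ) * p i = c) (hc : 0 < c) (hcC : c < ∑ i, R i) :
    max (Real.log (Pk R p c / bw (∑ i, R i) ((c : ℝ) / ((∑ i, R i : ℕ) : ℝ)) c)) 0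
      ≤ 8 * ell (∑ i, R i) * ((∑ i, (R i : ℝ) * p i ^ 2) / (c : ℝ)) := by
  set C := ∑ i, R i with hC
  set O : ℝ := ∑ i, (R i : ℝ) * p i ^ 2 with hO
  set b0 : ℝ := bw C ((c : ℝ) / ((C : ℕ) : ℝ)) c with hb0
  have hc' : (0 : ℝ) < c := by exact_mod_cast hc
  have hCpos : (0 : ℝ) < C := by
    have : 0 < C := by omega
    exact_mod_cast this
  have hmode := bw_mode_ge hc hcC
  have hb0pos : 0 < b0 := by
    by_contra hn
    have hle : b0 ≤ 0 := not_lt.mp hn
    have : ((C : ℝ) + 1) * b0 ≤ 0 := mul_nonpos_of_nonneg_of_nonpos (by positivity) hle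
    linarith
  have hO_nonneg : 0 ≤ O := Finset.sum_nonneg fun i _ => by positivity
  have hO_le : O ≤ c := by
    rw [← hmean, hO]
    refine Finset.sum_le_sum fun i _ => ?_
    have hp0 := h0 i
    have hp1 := h1 i
    have hR : (0 : ℝ) ≤ R i := Nat.cast_nonneg _
    have : p i ^ 2 ≤ p i := by nlinarith
    exact mul_le_mul_of_nonneg_left this hR
  set u : ℝ := O / c with hu
  have hu0 : 0 ≤ u := by positivity
  have hu1 : u ≤ 1 := by rw [hu, div_le_one hc']; exact hO_le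
  have hOu : O = c * u := by rw [hu]; field_simp
  have hell := ell_ge_one C
  have hPk0 := Pk_nonneg R p h0 h1 c
  have hPk1 := Pk_le_one R p h0 h1 c
  have hnn : 0 ≤ 8 * ell C * u := by positivity
  refine max_le ?_ hnn
  by_cases hP : Pk R p c = 0
  · rw [hP, zero_div, Real.log_zero]
    exact hnn
  have hPpos : 0 < Pk R p c := lt_of_le_of_ne hPk0 (Ne.symm hP)
  have hzpos : 0 < Pk R p c / b0 := div_pos hPpos hb0pos
  by_cases hcase : u ≤ 1 / 8
  · -- small shares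
    have hkey := pk_ineq R p c h0 h1 hmean hc hcC
    rw [← hC, ← hO, ← hb0] at hkey
    have hV : (c : ℝ) - O = c * (1 - u) := by rw [hOu]; ring
    have hW : ((c : ℝ) - O) ^ 2 - c * O = c ^ 2 * (1 - 3 * u + u ^ 2) := by
      rw [hV, hOu]; ring
    rw [hW, hV] at hkey
    have hcsq : (0 : ℝ) < c ^ 2 := by positivity
    have hd : (1 - 3 * u + u ^ 2) * Pk R p c ≤ (1 - u) * b0 := by
      have : (c : ℝ) ^ 2 * ((1 - 3 * u + u ^ 2) * Pk R p c) ≤ c ^ 2 * ((1 - u) * b0) := by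
        calc (c : ℝ) ^ 2 * ((1 - 3 * u + u ^ 2) * Pk R p c)
            = c ^ 2 * (1 - 3 * u + u ^ 2) * Pk R p c := by ring
          _ ≤ c * (1 - u) * (c * b0) := hkey
          _ = c ^ 2 * ((1 - u) * b0) := by ring
      exact le_of_mul_le_mul_left this hcsq
    have hden : 5 / 8 ≤ 1 - 3 * u + u ^ 2 := by nlinarith
    have hdpos : 0 < 1 - 3 * u + u ^ 2 := by linarith
    have hz : Pk R p c / b0 ≤ (1 - u) / (1 - 3 * u + u ^ 2) := by
      rw [div_le_div_iff₀ hb0pos hdpos]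
      nlinarith
    have hlog : Real.log (Pk R p c / b0) ≤ Pk R p c / b0 - 1 := Real.log_le_sub_one_of_pos hzpos
    have h4u : (1 - u) / (1 - 3 * u + u ^ 2) - 1 ≤ 4 * u := by
      rw [sub_le_iff_le_add, div_le_iff₀ hdpos]
      nlinarith [mul_nonneg hu0 hu0, mul_nonneg (mul_nonneg hu0 hu0) hu0]
    have h8 : 4 * u ≤ 8 * ell C * u := by nlinarith
    linarith
  · -- large shares
    have hu8 : 1 / 8 < u := not_le.mp hcase
    have hz : Pk R p c / b0 ≤ (C : ℝ) + 1 := by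
      rw [div_le_iff₀ hb0pos]
      linarith
    have hlog : Real.log (Pk R p c / b0) ≤ Real.log ((C : ℝ) + 3) :=
      Real.log_le_log hzpos (by linarith)
    have : Real.log ((C : ℝ) + 3) = ell C := rfl
    rw [this] at hlog
    have h8 : ell C ≤ 8 * ell C * u := by nlinarith
    linarith

end Vale.Agent.Lib.P328.Ent
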