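import Vale.Agent.Lib.P328.Ent.Cons

/-!
# P328, all margins: the share of a row against the cross ratios
-/

namespace Vale.Agent.Lib.P328.Ent

open Finset MeasureTheory Vale.Agent.Lib.P328 Vale.Agent.Lib.P328.Cap
open scoped ENNReal Nat

variable {m n : ℕ}

/-- The switching identity, summed over the rows of the first column. -/
theorem swap_sum {t : Fin (n + 1) → Fin m → ℝ} (ht : ∀ j i, 0 < t j i) (r : Fin m → ℕ)
    (c : Fin (n + 1) → ℕ) (l : Fin n) (i : Fin m) :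
    (c 0 : ℝ) * ∑ T ∈ tabs r c, (T l.succ i : ℝ) * Sparse.wt t T
      = ∑ T ∈ tabs r c, (T 0 i : ℝ) * Sparse.wt t T
          * ∑ i', (T l.succ i' : ℝ) * (t l.succ i * t 0 i' / (t 0 i * t l.succ i')) := by
  have hterm : ∀ i', (∑ T ∈ tabs r c, (T 0 i' : ℝ) * (T l.succ i : ℝ) * Sparse.wt t T)
      = (t l.succ i * t 0 i' / (t 0 i * t l.succ i'))
          * ∑ T ∈ tabs r c, (T 0 i : ℝ) * (T l.succ i' : ℝ) * Sparse.wt t T := by
    intro i'
    have h0 := (ht 0 i).ne'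
    have h1 := (ht l.succ i').ne'
    by_cases h : i' = i
    · subst h
      have h2 : t l.succ i' * t 0 i' / (t 0 i' * t l.succ i') = 1 := by
        field_simp
      rw [h2, one_mul]
    · have h3 := Sparse.flux_pair t r c 0 l.succ i i' (Fin.succ_ne_zero l) h
      have h4 : ∑ S ∈ tabs r c, (S 0 i' : ℝ) * (S l.succ i : ℝ) * Sparse.wt t S
          = ∑ S ∈ tabs r c, (S l.succ i : ℝ) * (S 0 i' : ℝ) * Sparse.wt t S :=
        Finset.sum_congr rfl fun S _ => by ring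
      rw [h4]
      field_simp
      linarith [h3]
  have h1 : (c 0 : ℝ) * ∑ T ∈ tabs r c, (T l.succ i : ℝ) * Sparse.wt t T
      = ∑ i', ∑ T ∈ tabs r c, (T 0 i' : ℝ) * (T l.succ i : ℝ) * Sparse.wt t T := by
    rw [Finset.sum_comm, Finset.mul_sum]
    refine Finset.sum_congr rfl fun T hT => ?_
    have h2 : (c 0 : ℝ) = ∑ i', (T 0 i' : ℝ) := by
      rw [← (mem_tabs.1 hT).1 0]
      push_cast
      rfl
    rw [h2, Finset.sum_mul]
    refine Finset.sum_congr rfl fun i' _ => ?_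
    ring
  rw [h1]
  simp only [hterm]
  simp only [Finset.mul_sum]
  rw [Finset.sum_comm]
  refine Finset.sum_congr rfl fun T _ => ?_
  refine Finset.sum_congr rfl fun i' _ => ?_
  ring

theorem Di_nonneg {t : Fin (n + 1) → Fin m → ℝ} (ht : ∀ j i, 0 < t j i)
    (T : Fin (n + 1) → Fin m → ℕ) (i : Fin m) : 0 ≤ Di T t i := by
  unfold Di
  refine Finset.sum_nonneg fun l _ => Finset.sum_nonneg fun i' _ => ?_
  have h1 := ht l.succ i
  have h2 := ht 0 i'
  have h3 := ht 0 i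
  have h4 := ht l.succ i'
  positivity

/-- The total of a row against the first column and the cross ratio sums. -/
theorem row_total {t : Fin (n + 1) → Fin m → ℝ} (ht : ∀ j i, 0 < t j i) (r : Fin m → ℕ)
    (c : Fin (n + 1) → ℕ) (i : Fin m) :
    (c 0 : ℝ) * ((r i : ℝ) * Sparse.FF r c t - ∑ T ∈ tabs r c, (T 0 i : ℝ) * Sparse.wt t T)
      = ∑ T ∈ tabs r c, (T 0 i : ℝ) * Sparse.wt t T * Di T t i := by
  have h1 : (r i : ℝ) * Sparse.FF r c t - ∑ T ∈ tabs r c, (T 0 i : ℝ) * Sparse.wt t T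
      = ∑ l : Fin n, ∑ T ∈ tabs r c, (T l.succ i : ℝ) * Sparse.wt t T := by
    unfold Sparse.FF
    rw [Finset.mul_sum, ← Finset.sum_sub_distrib, Finset.sum_comm]
    refine Finset.sum_congr rfl fun T hT => ?_
    have h2 : (r i : ℝ) = (T 0 i : ℝ) + ∑ l : Fin n, (T l.succ i : ℝ) := by
      rw [← (mem_tabs.1 hT).2 i, Fin.sum_univ_succ]
      push_cast
      rfl
    rw [h2, add_mul, Finset.sum_mul]
    ring
  rw [h1, Finset.mul_sum]
  simp only [swap_sum ht r c _ i]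
  rw [Finset.sum_comm]
  refine Finset.sum_congr rfl fun T _ => ?_
  unfold Di
  rw [Finset.mul_sum]

/-- The pointwise bound of `F Y p`. -/
theorem pw_bound {t : Fin (n + 1) → Fin m → ℝ} (ht : ∀ j i, 0 < t j i) (r : Fin m → ℕ)
    (c : Fin (n + 1) → ℕ) (hc0 : 0 < c 0) (i : Fin m) :
    (∑ T ∈ tabs r c, (T 0 i : ℝ) * Sparse.wt t T) ^ 2 / ((r i : ℝ) * Sparse.FF r c t)
      ≤ ∑ T ∈ tabs r c, (T 0 i : ℝ) * Sparse.wt t T * Gi (c 0) T t i := by
  have hc : (0 : ℝ) < c 0 := by exact_mod_cast hc0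
  set Y : ℝ := ∑ T ∈ tabs r c, (T 0 i : ℝ) * Sparse.wt t T with hY
  have hw : ∀ T : Fin (n + 1) → Fin m → ℕ, 0 ≤ (T 0 i : ℝ) * Sparse.wt t T := fun T =>
    mul_nonneg (Nat.cast_nonneg _) (Sparse.wt_pos ht T).le
  have hY0 : 0 ≤ Y := Finset.sum_nonneg fun T _ => hw T
  have hG : ∀ T : Fin (n + 1) → Fin m → ℕ, 0 ≤ Gi (c 0) T t i := by
    intro T
    unfold Gi
    have := Di_nonneg ht T i
    positivity
  rcases hY0.eq_or_lt with hY1 | hY1
  · rw [← hY1]
    have : (0 : ℝ) ^ 2 / ((r i : ℝ) * Sparse.FF r c t) = 0 := by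
      simp
    rw [this]
    exact Finset.sum_nonneg fun T _ => mul_nonneg (hw T) (hG T)
  · have hrow := row_total ht r c i
    rw [← hY] at hrow
    set E : ℝ := ∑ T ∈ tabs r c, (T 0 i : ℝ) * Sparse.wt t T * Di T t i with hE
    have hE0 : 0 ≤ E := Finset.sum_nonneg fun T _ => mul_nonneg (hw T) (Di_nonneg ht T i)
    set A : ℝ := E / ((c 0 : ℝ) * Y) with hA
    have hA0 : 0 ≤ A := by positivity
    have hrF : (r i : ℝ) * Sparse.FF r c t = Y * (1 + A) := by
      rw [hA]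
      field_simp
      linarith [hrow]
    have hLHS : Y ^ 2 / ((r i : ℝ) * Sparse.FF r c t) = Y / (1 + A) := by
      rw [hrF]
      field_simp
    rw [hLHS]
    have htan : ∀ T : Fin (n + 1) → Fin m → ℕ,
        (1 + A)⁻¹ - (Di T t i / (c 0 : ℝ) - A) / (1 + A) ^ 2 ≤ Gi (c 0) T t i := by
      intro T
      unfold Gi
      have hx : 0 ≤ Di T t i / (c 0 : ℝ) := div_nonneg (Di_nonneg ht T i) hc.le
      set x : ℝ := Di T t i / (c 0 : ℝ)
      have h1 : 0 < 1 + x := by linarith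
      have h2 : 0 < 1 + A := by linarith
      have h3 : (1 + x)⁻¹ - ((1 + A)⁻¹ - (x - A) / (1 + A) ^ 2)
          = (x - A) ^ 2 / ((1 + x) * (1 + A) ^ 2) := by
        field_simp
        ring
      have h4 : 0 ≤ (x - A) ^ 2 / ((1 + x) * (1 + A) ^ 2) := by positivity
      linarith
    have hsum : ∑ T ∈ tabs r c, (T 0 i : ℝ) * Sparse.wt t T
          * ((1 + A)⁻¹ - (Di T t i / (c 0 : ℝ) - A) / (1 + A) ^ 2) = Y / (1 + A) := by
      have h5 : ∀ T : Fin (n + 1) → Fin m → ℕ, (T 0 i : ℝ) * Sparse.wt t T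
            * ((1 + A)⁻¹ - (Di T t i / (c 0 : ℝ) - A) / (1 + A) ^ 2)
          = ((1 + A)⁻¹ + A / (1 + A) ^ 2) * ((T 0 i : ℝ) * Sparse.wt t T)
            - (1 / ((c 0 : ℝ) * (1 + A) ^ 2)) * ((T 0 i : ℝ) * Sparse.wt t T * Di T t i) := by
        intro T
        field_simp
        ring
      simp only [h5]
      rw [Finset.sum_sub_distrib, ← Finset.mul_sum, ← Finset.mul_sum, ← hY, ← hE]
      have h6 : E = A * ((c 0 : ℝ) * Y) := by
        rw [hA]
        field_simp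
      rw [h6]
      field_simp
      ring
    rw [← hsum]
    exact Finset.sum_le_sum fun T _ => mul_le_mul_of_nonneg_left (htan T) (hw T)

end Vale.Agent.Lib.P328.Ent
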