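import Vale.Agent.Lib.P328.Ent.Defs

/-!
# P328, all margins: geometric tails of entries of small rows
-/

namespace Vale.Agent.Lib.P328.Ent

open Finset MeasureTheory Vale.Agent.Lib.P328 Vale.Agent.Lib.P328.Cap
open scoped ENNReal Nat

variable {m n : ℕ}

/-- The telescoping sum behind the tail step. -/
theorem tail_tele (f : ℕ → ℝ) (σ s : ℕ) (hs : s ≤ σ) :
    ∑ u ∈ range (σ + 1), f u * ((if s + 1 ≤ u then (1 : ℝ) else 0)
        - (if s ≤ u ∧ 1 ≤ σ - u then (1 : ℝ) else 0))
      = f σ - f s := by
  have h : ∀ u ∈ range (σ + 1), f u * ((if s + 1 ≤ u then (1 : ℝ) else 0)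
        - (if s ≤ u ∧ 1 ≤ σ - u then (1 : ℝ) else 0))
      = (if u = σ then f u else 0) - (if u = s then f u else 0) := by
    intro u hu
    have hu' := Finset.mem_range.1 hu
    by_cases h1 : u = σ
    · by_cases h2 : u = s
      · rw [if_neg (by omega), if_neg (by omega), if_pos h1, if_pos h2]
        ring
      · rw [if_pos (by omega), if_neg (by omega), if_pos h1, if_neg h2]
        ring
    · by_cases h2 : u = s
      · rw [if_neg (by omega), if_pos (by omega), if_neg h1, if_pos h2]
        ring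
      · by_cases h3 : s + 1 ≤ u
        · rw [if_pos h3, if_pos (by omega), if_neg h1, if_neg h2]
          ring
        · rw [if_neg h3, if_neg (by omega), if_neg h1, if_neg h2]
          ring
  rw [Finset.sum_congr rfl h, Finset.sum_sub_distrib, Finset.sum_ite_eq', Finset.sum_ite_eq',
    if_pos (Finset.mem_range.2 (by omega)), if_pos (Finset.mem_range.2 (by omega))]

/-- One step of the tail: compare an entry with the same entry of a larger column. -/
theorem tail_step (r : Fin m → ℕ) (c : Fin n → ℕ) (j1 j2 : Fin n) (hne : j1 ≠ j2)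
    (hc : c j1 ≤ c j2) (i : Fin m) (s : ℕ) :
    ((tabs r c).filter fun T => s + 1 ≤ T j1 i).card
      ≤ ((tabs r c).filter fun T => s ≤ T j1 i ∧ 1 ≤ T j2 i).card := by
  have key : ∑ T ∈ tabs r c, ((if s + 1 ≤ T j1 i then (1 : ℝ) else 0)
      - (if s ≤ T j1 i ∧ 1 ≤ T j2 i then (1 : ℝ) else 0)) ≤ 0 := by
    refine two_col r c j1 j2 hne (fun x z => (if s + 1 ≤ x i then (1 : ℝ) else 0)
      - (if s ≤ x i ∧ 1 ≤ z i then (1 : ℝ) else 0)) ?_
    intro σ hσ
    set ph : ℕ → ℝ := fun u => (if s + 1 ≤ u then (1 : ℝ) else 0)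
      - (if s ≤ u ∧ 1 ≤ σ i - u then (1 : ℝ) else 0) with hph
    have h1 := lev_sum_eq σ (c j1) i ph
    refine le_trans (le_of_eq h1) ?_
    set L : ℤ → ℝ := lvl (Function.update σ i 0) with hL
    set D' : ℤ := ((∑ j, Function.update σ i 0 j : ℕ) : ℤ) with hD'
    have hSU : SU L D' := su_lvl Finset.univ _ (fun j hj => absurd (mem_univ j) hj)
    have hDeq : D' + (σ i : ℤ) = ((c j1 : ℤ) + c j2) := by
      have h2 : ∑ j, Function.update σ i 0 j + σ i = ∑ j, σ j + 0 := sum_update σ i 0
      rw [hσ] at h2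
      simp only [hD']
      omega
    by_cases hs : s ≤ σ i
    · have h3 := tail_tele (fun u => L ((c j1 : ℤ) - u)) (σ i) s hs
      simp only [hph]
      rw [h3]
      have h4 : L ((c j1 : ℤ) - (σ i : ℕ)) ≤ L ((c j1 : ℤ) - (s : ℕ)) := by
        apply hSU.mono
        have hc' : (c j1 : ℤ) ≤ c j2 := by exact_mod_cast hc
        have hs' : (s : ℤ) ≤ σ i := by exact_mod_cast hs
        have hs0 : (0 : ℤ) ≤ s := Int.natCast_nonneg _
        have hσ0 : (0 : ℤ) ≤ σ i := Int.natCast_nonneg _
        rw [abs_of_nonpos (by omega : 2 * ((c j1 : ℤ) - (σ i : ℕ)) - D' ≤ 0)]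
        rw [abs_le]
        constructor <;> omega
      linarith
    · refine le_of_eq (Finset.sum_eq_zero fun u hu => ?_)
      have hu' := Finset.mem_range.1 hu
      simp only [hph]
      rw [if_neg (by omega), if_neg (by omega)]
      simp
  have h1 : ∑ T ∈ tabs r c, (if s + 1 ≤ T j1 i then (1 : ℝ) else 0)
      = (((tabs r c).filter fun T => s + 1 ≤ T j1 i).card : ℝ) := by
    rw [Finset.card_filter]
    push_cast
    rfl
  have h2 : ∑ T ∈ tabs r c, (if s ≤ T j1 i ∧ 1 ≤ T j2 i then (1 : ℝ) else 0)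
      = (((tabs r c).filter fun T => s ≤ T j1 i ∧ 1 ≤ T j2 i).card : ℝ) := by
    rw [Finset.card_filter]
    push_cast
    rfl
  rw [Finset.sum_sub_distrib, h1, h2] at key
  have : (((tabs r c).filter fun T => s + 1 ≤ T j1 i).card : ℝ)
      ≤ (((tabs r c).filter fun T => s ≤ T j1 i ∧ 1 ≤ T j2 i).card : ℝ) := by linarith
  exact_mod_cast this

/-- Geometric tail of an entry of a column with many larger columns after it. -/
theorem tail_geom (r : Fin m → ℕ) (c : Fin (n + 1) → ℕ) (hc : Monotone c) (j : Fin (n + 1)) (i : Fin m)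
    (hj : 2 * r i ≤ n - (j : ℕ)) (s : ℕ) :
    2 ^ s * ((tabs r c).filter fun T => s ≤ T j i).card ≤ (tabs r c).card := by
  induction s with
  | zero => simp
  | succ s ih =>
    refine le_trans ?_ ih
    rw [pow_succ, mul_assoc]
    refine Nat.mul_le_mul_left _ ?_
    -- the step `2 * #{s + 1 ≤ entry} ≤ #{s ≤ entry}`
    set A := (tabs r c).filter fun T => s + 1 ≤ T j i with hA
    set B := (tabs r c).filter fun T => s ≤ T j i with hB
    by_cases hr : r i = 0
    · have h0 : A = ∅ := by
        refine Finset.filter_eq_empty_iff.2 fun T hT => ?_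
        have h1 := (mem_tabs.1 hT).2 i
        have h2 : T j i ≤ ∑ j', T j' i :=
          Finset.single_le_sum (f := fun z => T z i) (fun _ _ => Nat.zero_le _) (mem_univ j)
        omega
      rw [h0]
      simp
    have hrpos : 0 < r i := Nat.pos_of_ne_zero hr
    set Lt : Finset (Fin (n + 1)) := Finset.Ioi j with hLt
    have hcardL : Lt.card = n - (j : ℕ) := by
      rw [hLt, Fin.card_Ioi]
      simp
    have h1 : Lt.card * A.card ≤ ∑ j' ∈ Lt, (B.filter fun T => 1 ≤ T j' i).card := by
      rw [← smul_eq_mul, ← Finset.sum_const]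
      refine Finset.sum_le_sum fun j' hj' => ?_
      have hlt : j < j' := Finset.mem_Ioi.1 hj'
      have := tail_step r c j j' (ne_of_lt hlt) (hc hlt.le) i s
      rw [hB, Finset.filter_filter]
      exact this
    have h2 : ∑ j' ∈ Lt, (B.filter fun T => 1 ≤ T j' i).card ≤ r i * B.card := by
      have e : ∑ j' ∈ Lt, (B.filter fun T => 1 ≤ T j' i).card
          = ∑ T ∈ B, (Lt.filter fun j' => 1 ≤ T j' i).card := by
        simp only [Finset.card_filter]
        rw [Finset.sum_comm]
      rw [e, mul_comm, ← smul_eq_mul, ← Finset.sum_const]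
      refine Finset.sum_le_sum fun T hT => ?_
      have hT' := (mem_tabs.1 (Finset.mem_filter.1 hT).1).2 i
      rw [← hT', Finset.card_filter]
      calc ∑ j' ∈ Lt, (if 1 ≤ T j' i then 1 else 0) ≤ ∑ j' ∈ Lt, T j' i := by
            refine Finset.sum_le_sum fun j' _ => ?_
            split_ifs with h
            · exact h
            · exact Nat.zero_le _
        _ ≤ ∑ j', T j' i :=
            Finset.sum_le_sum_of_subset (Finset.subset_univ _)
    have h3 : 2 * r i * A.card ≤ r i * B.card := by
      calc 2 * r i * A.card ≤ Lt.card * A.card := by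
            refine Nat.mul_le_mul_right _ ?_
            rw [hcardL]
            exact hj
        _ ≤ r i * B.card := h1.trans h2
    have h4 : r i * (2 * A.card) ≤ r i * B.card := by
      calc r i * (2 * A.card) = 2 * r i * A.card := by ring
        _ ≤ _ := h3
    exact Nat.le_of_mul_le_mul_left h4 hrpos

end Vale.Agent.Lib.P328.Ent
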