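import Vale.Agent.Lib.P328.Ent.Defs

/-!
# P328, all margins: the two column logarithmic lemma
-/

namespace Vale.Agent.Lib.P328.Ent

open Finset MeasureTheory Vale.Agent.Lib.P328 Vale.Agent.Lib.P328.Cap
open scoped ENNReal Nat

variable {m n : ℕ}

/-- Restriction of a vector to a set of rows. -/
def res (D : Finset (Fin m)) (s : Fin m → ℕ) : Fin m → ℕ := fun i => if i ∈ D then s i else 0

theorem sum_res (D : Finset (Fin m)) (s : Fin m → ℕ) : ∑ i, res D s i = ∑ i ∈ D, s i := by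
  unfold res
  rw [Finset.sum_ite_mem]
  simp

theorem res_add_res (D : Finset (Fin m)) (s : Fin m → ℕ) (i : Fin m) :
    res D s i + res Dᶜ s i = s i := by
  unfold res
  by_cases h : i ∈ D
  · simp [h]
  · simp [h]

theorem sum_res_add (D : Finset (Fin m)) (s : Fin m → ℕ) :
    ∑ i, s i = ∑ i ∈ D, s i + ∑ i, res Dᶜ s i := by
  rw [← sum_res D s, ← Finset.sum_add_distrib]
  exact Finset.sum_congr rfl fun i _ => (res_add_res D s i).symm

theorem box_res_left {D : Finset (Fin m)} {s y : Fin m → ℕ} (h : y ∈ box (res D s)) {i : Fin m}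
    (hi : i ∉ D) : y i = 0 := by
  have := mem_box.1 h i
  simpa [res, hi] using this

theorem box_res_right {D : Finset (Fin m)} {s y : Fin m → ℕ} (h : y ∈ box (res Dᶜ s)) {i : Fin m}
    (hi : i ∈ D) : y i = 0 := by
  have := mem_box.1 h i
  simpa [res, hi] using this

theorem res_eq_self {D : Finset (Fin m)} {y : Fin m → ℕ} (h : ∀ i, i ∉ D → y i = 0) :
    res D y = y := by
  funext i
  unfold res
  by_cases hi : i ∈ D
  · simp [hi]
  · simp [hi, h i hi]

theorem res_eq_zero {D : Finset (Fin m)} {y : Fin m → ℕ} (h : ∀ i, i ∉ D → y i = 0) :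
    res Dᶜ y = fun _ => 0 := by
  funext i
  unfold res
  by_cases hi : i ∈ D
  · simp [hi]
  · simp [hi, h i hi]

/-- The number of points of a slice with a prescribed part on `D`. -/
theorem fiber_card (s : Fin m → ℕ) (D : Finset (Fin m)) (c1 j : ℕ) :
    (((lev s c1).filter fun x => ∑ i ∈ D, (s i - x i) = j).card : ℝ)
      = lvl (res D s) (((∑ i ∈ D, s i : ℕ) : ℤ) - j)
        * lvl (res Dᶜ s) ((c1 : ℤ) - (∑ i ∈ D, s i : ℕ) + j) := by
  classical
  unfold lvl
  rw [← Nat.cast_mul, ← Finset.card_product]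
  congr 1
  refine Finset.card_nbij' (fun x => (res D x, res Dᶜ x)) (fun p i => p.1 i + p.2 i) ?_ ?_ ?_ ?_
  · intro x hx
    have hx' := Finset.mem_filter.1 (Finset.mem_coe.1 hx)
    obtain ⟨hxs, hxc⟩ := mem_lev.1 hx'.1
    have hy : ∑ i ∈ D, (s i - x i) + ∑ i ∈ D, x i = ∑ i ∈ D, s i := by
      rw [← Finset.sum_add_distrib]
      exact Finset.sum_congr rfl fun i _ => Nat.sub_add_cancel (hxs i)
    have hsplit := sum_res_add D x
    simp only [Finset.coe_product, Set.mem_prod, Finset.mem_coe, Finset.mem_filter, mem_box]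
    refine ⟨⟨fun i => ?_, ?_⟩, fun i => ?_, ?_⟩
    · unfold res
      split_ifs
      · exact hxs i
      · exact le_rfl
    · rw [sum_res]
      have := hx'.2
      omega
    · unfold res
      split_ifs
      · exact hxs i
      · exact le_rfl
    · have := hx'.2
      omega
  · intro p hp
    simp only [Finset.coe_product, Set.mem_prod, Finset.mem_coe, Finset.mem_filter] at hp
    obtain ⟨⟨hp1, hp1s⟩, hp2, hp2s⟩ := hp
    have hp1' := mem_box.1 hp1
    have hp2' := mem_box.1 hp2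
    have hsum : ∑ i ∈ D, s i = ∑ i, res D s i := (sum_res D s).symm
    have hp1D : ∑ i, p.1 i = ∑ i ∈ D, p.1 i := by
      conv_lhs => rw [sum_res_add D p.1]
      rw [res_eq_zero (fun i hi => box_res_left hp1 hi)]
      simp
    have hp2D : ∑ i ∈ D, p.2 i = 0 :=
      Finset.sum_eq_zero fun i hi => box_res_right hp2 hi
    have hle : ∀ i ∈ D, p.1 i ≤ s i := by
      intro i hi
      have := hp1' i
      simpa [res, hi] using this
    refine Finset.mem_coe.2 (Finset.mem_filter.2 ⟨mem_lev.2 ⟨fun i => ?_, ?_⟩, ?_⟩)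
    · show p.1 i + p.2 i ≤ s i
      by_cases hi : i ∈ D
      · rw [box_res_right hp2 hi]
        exact hle i hi
      · rw [box_res_left hp1 hi]
        have := hp2' i
        simpa [res, hi] using this
    · show ∑ i, (p.1 i + p.2 i) = c1
      rw [Finset.sum_add_distrib]
      omega
    · have h1 : ∑ i ∈ D, (s i - (p.1 i + p.2 i)) + ∑ i ∈ D, p.1 i = ∑ i ∈ D, s i := by
        rw [← Finset.sum_add_distrib]
        refine Finset.sum_congr rfl fun i hi => ?_
        rw [box_res_right hp2 hi, add_zero]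
        exact Nat.sub_add_cancel (hle i hi)
      show ∑ i ∈ D, (s i - (p.1 i + p.2 i)) = j
      omega
  · intro x _
    funext i
    exact res_add_res D x i
  · intro p hp
    simp only [Finset.coe_product, Set.mem_prod, Finset.mem_coe, Finset.mem_filter] at hp
    obtain ⟨⟨hp1, _⟩, hp2, _⟩ := hp
    ext i
    · show res D (fun i => p.1 i + p.2 i) i = p.1 i
      unfold res
      by_cases hi : i ∈ D
      · simp [hi, box_res_right hp2 hi]
      · simp [hi, box_res_left hp1 hi]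
    · show res Dᶜ (fun i => p.1 i + p.2 i) i = p.2 i
      unfold res
      by_cases hi : i ∈ D
      · simp [hi, box_res_right hp2 hi]
      · simp [hi, box_res_left hp1 hi]

/-- The fiber sizes increase up to half of the total on `D`. -/
theorem fiber_mono (s : Fin m → ℕ) (c1 c2 : ℕ) (hc : c1 ≤ c2) (hs : ∑ i, s i = c1 + c2)
    (D : Finset (Fin m)) {a b : ℕ} (hab : a ≤ b) (hb : 2 * b ≤ ∑ i ∈ D, s i) :
    (((lev s c1).filter fun x => ∑ i ∈ D, (s i - x i) = a).card : ℝ)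
      ≤ (((lev s c1).filter fun x => ∑ i ∈ D, (s i - x i) = b).card : ℝ) := by
  rw [fiber_card, fiber_card]
  have hL1 : SU (lvl (res D s)) ((∑ i, res D s i : ℕ) : ℤ) :=
    su_lvl Finset.univ _ (fun j hj => absurd (mem_univ j) hj)
  have hL2 : SU (lvl (res Dᶜ s)) ((∑ i, res Dᶜ s i : ℕ) : ℤ) :=
    su_lvl Finset.univ _ (fun j hj => absurd (mem_univ j) hj)
  rw [sum_res] at hL1
  have hsplit := sum_res_add D s
  set S : ℕ := ∑ i ∈ D, s i with hS
  set D2 : ℕ := ∑ i, res Dᶜ s i with hD2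
  have hab' : (a : ℤ) ≤ b := by exact_mod_cast hab
  have hb' : 2 * (b : ℤ) ≤ S := by exact_mod_cast hb
  have hc' : (c1 : ℤ) ≤ c2 := by exact_mod_cast hc
  have hD2' : (D2 : ℤ) + S = c1 + c2 := by
    have : S + D2 = c1 + c2 := by rw [← hs, hsplit]
    omega
  have h1 : lvl (res D s) ((S : ℤ) - a) ≤ lvl (res D s) ((S : ℤ) - b) := by
    apply hL1.mono
    rw [abs_of_nonneg (by omega), abs_of_nonneg (by omega)]
    omega
  have h2 : lvl (res Dᶜ s) ((c1 : ℤ) - S + a) ≤ lvl (res Dᶜ s) ((c1 : ℤ) - S + b) :=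
    hL2.mono_low (by omega) (by omega)
  have h3 : ∀ (u : Fin m → ℕ) (l : ℤ), 0 ≤ lvl u l := by
    intro u l
    unfold lvl
    positivity
  exact mul_le_mul h1 h2 (h3 _ _) (h3 _ _)

/-- The value of the ratio in terms of the deficit. -/
noncomputable def gg (S j : ℕ) : ℝ := ((S : ℝ) - j) / max 1 (j : ℝ)

theorem gg_anti (S : ℕ) {a b : ℕ} (hab : a ≤ b) (hb : b ≤ S) : gg S b ≤ gg S a := by
  unfold gg
  have h1 : (a : ℝ) ≤ b := by exact_mod_cast hab
  have h2 : (b : ℝ) ≤ S := by exact_mod_cast hb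
  refine div_le_div₀ (by linarith) (by linarith) (lt_of_lt_of_le one_pos (le_max_left _ _)) ?_
  exact max_le_max le_rfl h1

theorem sum_gg_le (S J : ℕ) (hJ : J ≤ S) :
    ∑ j ∈ range (J + 1), gg S j ≤ (S : ℝ) * (2 + Real.log ((S : ℝ) + 1)) := by
  have hS0 : (0 : ℝ) ≤ S := Nat.cast_nonneg _
  rw [Finset.sum_range_succ']
  have h0 : gg S 0 = S := by
    simp [gg]
  have h1 : ∀ j ∈ range J, gg S (j + 1) ≤ (S : ℝ) * ((j + 1 : ℕ) : ℝ)⁻¹ := by
    intro j _
    unfold gg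
    have hj : (1 : ℝ) ≤ ((j + 1 : ℕ) : ℝ) := by
      exact_mod_cast Nat.succ_le_succ (Nat.zero_le j)
    rw [max_eq_right hj, div_eq_mul_inv]
    refine mul_le_mul_of_nonneg_right ?_ (by positivity)
    have : (0 : ℝ) ≤ ((j + 1 : ℕ) : ℝ) := Nat.cast_nonneg _
    linarith
  have h2 : ∑ j ∈ range J, ((j + 1 : ℕ) : ℝ)⁻¹ = ((harmonic J : ℚ) : ℝ) := by
    unfold harmonic
    push_cast
    rfl
  have h3 := harmonic_le_one_add_log J
  have h4 : Real.log (J : ℝ) ≤ Real.log ((S : ℝ) + 1) := by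
    rcases Nat.eq_zero_or_pos J with h | h
    · rw [h]
      simp only [Nat.cast_zero, Real.log_zero]
      exact Real.log_nonneg (by linarith)
    · refine Real.log_le_log (by exact_mod_cast h) ?_
      have : (J : ℝ) ≤ S := by exact_mod_cast hJ
      linarith
  calc ∑ j ∈ range J, gg S (j + 1) + gg S 0
      ≤ ∑ j ∈ range J, (S : ℝ) * ((j + 1 : ℕ) : ℝ)⁻¹ + S := by
        rw [h0]
        linarith [Finset.sum_le_sum h1]
    _ = (S : ℝ) * ((harmonic J : ℚ) : ℝ) + S := by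
        rw [← Finset.mul_sum, h2]
    _ ≤ (S : ℝ) * (1 + Real.log ((S : ℝ) + 1)) + S := by
        have := mul_le_mul_of_nonneg_left (h3.trans (add_le_add_right h4 1)) hS0
        linarith
    _ = (S : ℝ) * (2 + Real.log ((S : ℝ) + 1)) := by ring

/-- The slice form of the two column logarithmic lemma. -/
theorem slice_log (s : Fin m → ℕ) (c1 c2 : ℕ) (hc : c1 ≤ c2) (hs : ∑ i, s i = c1 + c2)
    (D : Finset (Fin m)) :
    ∑ x ∈ lev s c1, ((∑ i ∈ D, x i : ℕ) : ℝ) / max 1 ((∑ i ∈ D, (s i - x i) : ℕ) : ℝ)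
      ≤ (6 + 2 * Real.log (((∑ i ∈ D, s i : ℕ) : ℝ) + 1)) * ((lev s c1).card : ℝ) := by
  classical
  set S : ℕ := ∑ i ∈ D, s i with hS
  set J : ℕ := S / 2 with hJ
  set y : (Fin m → ℕ) → ℕ := fun x => ∑ i ∈ D, (s i - x i) with hy
  set LEV := lev s c1 with hLEV
  set Lam : ℝ := Real.log ((S : ℝ) + 1) with hLam
  have hLam0 : 0 ≤ Lam := Real.log_nonneg (by
    have : (0 : ℝ) ≤ S := Nat.cast_nonneg _
    linarith)
  have hyx : ∀ x ∈ LEV, y x + ∑ i ∈ D, x i = S := by
    intro x hx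
    obtain ⟨hxs, _⟩ := mem_lev.1 hx
    simp only [hy]
    rw [← Finset.sum_add_distrib]
    exact Finset.sum_congr rfl fun i _ => Nat.sub_add_cancel (hxs i)
  have hF : ∀ x ∈ LEV, ((∑ i ∈ D, x i : ℕ) : ℝ) / max 1 ((y x : ℕ) : ℝ) = gg S (y x) := by
    intro x hx
    unfold gg
    have := hyx x hx
    congr 1
    have h2 : ((y x + ∑ i ∈ D, x i : ℕ) : ℝ) = S := by rw [this]
    push_cast at h2 ⊢
    linarith
  -- splitting
  set n : ℕ → ℝ := fun j => ((LEV.filter fun x => y x = j).card : ℝ) with hn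
  have hfib : ∀ h : ℕ → ℝ, ∑ x ∈ LEV.filter (fun x => y x ≤ J), h (y x)
      = ∑ j ∈ range (J + 1), n j * h j := by
    intro h
    rw [← Finset.sum_fiberwise_of_maps_to (g := y) (t := range (J + 1))
      (fun x hx => Finset.mem_range.2 (Nat.lt_succ_of_le (Finset.mem_filter.1 hx).2))]
    refine Finset.sum_congr rfl fun j hj => ?_
    have hj' := Finset.mem_range.1 hj
    have e : (LEV.filter (fun x => y x ≤ J)).filter (fun x => y x = j)
        = LEV.filter fun x => y x = j := by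
      ext x
      simp only [Finset.mem_filter]
      constructor
      · rintro ⟨⟨h1, _⟩, h3⟩
        exact ⟨h1, h3⟩
      · rintro ⟨h1, h3⟩
        exact ⟨⟨h1, by omega⟩, h3⟩
    rw [e, Finset.sum_congr rfl (fun x hx => by rw [(Finset.mem_filter.1 hx).2] :
      ∀ x ∈ LEV.filter (fun x => y x = j), h (y x) = h j), Finset.sum_const, nsmul_eq_mul]
  have hsumn : ∑ j ∈ range (J + 1), n j ≤ (LEV.card : ℝ) := by
    have := hfib (fun _ => 1)
    simp only [mul_one, Finset.sum_const, nsmul_eq_mul] at this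
    rw [← this]
    exact_mod_cast Finset.card_filter_le _ _
  have hn0 : ∀ j, 0 ≤ n j := fun j => Nat.cast_nonneg _
  have hJS : 2 * J ≤ S := by omega
  have hanti : AntivaryOn n (gg S) (↑(range (J + 1))) := by
    intro a ha b hb hlt
    have ha' : a ≤ J := Nat.lt_succ_iff.1 (Finset.mem_range.1 (Finset.mem_coe.1 ha))
    have hb' : b ≤ J := Nat.lt_succ_iff.1 (Finset.mem_range.1 (Finset.mem_coe.1 hb))
    have hab : b ≤ a := by
      by_contra hcon
      push Not at hcon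
      exact absurd (gg_anti S hcon.le (by omega)) (not_le.2 hlt)
    exact fiber_mono s c1 c2 hc hs D hab (by omega)
  have hcheb := hanti.card_mul_sum_le_sum_mul_sum
  rw [Finset.card_range] at hcheb
  have hsumg := sum_gg_le S J (by omega)
  have hg0 : ∀ j ∈ range (J + 1), 0 ≤ gg S j := by
    intro j hj
    have hj' := Finset.mem_range.1 hj
    unfold gg
    have h1 : (j : ℝ) ≤ S := by exact_mod_cast (show j ≤ S by omega)
    exact div_nonneg (by linarith) (lt_of_lt_of_le one_pos (le_max_left _ _)).le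
  have hSJ : (S : ℝ) ≤ 2 * ((J : ℝ) + 1) := by
    have : S ≤ 2 * (J + 1) := by omega
    exact_mod_cast this
  have hJpos : (0 : ℝ) < (J : ℝ) + 1 := by positivity
  have hP1 : ∑ j ∈ range (J + 1), n j * gg S j ≤ 2 * (2 + Lam) * (LEV.card : ℝ) := by
    have hLE0 : (0 : ℝ) ≤ LEV.card := Nat.cast_nonneg _
    have h1 : ((J + 1 : ℕ) : ℝ) * ∑ j ∈ range (J + 1), n j * gg S j
        ≤ (LEV.card : ℝ) * ((S : ℝ) * (2 + Lam)) :=
      hcheb.trans (mul_le_mul hsumn hsumg (Finset.sum_nonneg hg0) hLE0)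
    have h2 : (LEV.card : ℝ) * ((S : ℝ) * (2 + Lam))
        ≤ (LEV.card : ℝ) * ((2 * ((J : ℝ) + 1)) * (2 + Lam)) := by
      refine mul_le_mul_of_nonneg_left ?_ hLE0
      exact mul_le_mul_of_nonneg_right hSJ (by linarith)
    have h3 : ((J : ℝ) + 1) * ∑ j ∈ range (J + 1), n j * gg S j
        ≤ ((J : ℝ) + 1) * (2 * (2 + Lam) * (LEV.card : ℝ)) := by
      push_cast at h1
      refine le_trans (h1.trans h2) (le_of_eq ?_)
      ring
    exact le_of_mul_le_mul_left h3 hJpos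
  -- the large deficits
  have hP2 : ∑ x ∈ LEV.filter (fun x => ¬ y x ≤ J),
      ((∑ i ∈ D, x i : ℕ) : ℝ) / max 1 ((y x : ℕ) : ℝ) ≤ (LEV.card : ℝ) := by
    have h1 : ∀ x ∈ LEV.filter (fun x => ¬ y x ≤ J),
        ((∑ i ∈ D, x i : ℕ) : ℝ) / max 1 ((y x : ℕ) : ℝ) ≤ 1 := by
      intro x hx
      obtain ⟨hx1, hx2⟩ := Finset.mem_filter.1 hx
      have h3 := hyx x hx1
      have h4 : ∑ i ∈ D, x i ≤ y x := by omega
      refine div_le_one_of_le₀ ?_ (lt_of_lt_of_le one_pos (le_max_left _ _)).le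
      refine le_trans ?_ (le_max_right _ _)
      exact_mod_cast h4
    calc _ ≤ ∑ _x ∈ LEV.filter (fun x => ¬ y x ≤ J), (1 : ℝ) := Finset.sum_le_sum h1
      _ = ((LEV.filter (fun x => ¬ y x ≤ J)).card : ℝ) := by simp
      _ ≤ (LEV.card : ℝ) := by exact_mod_cast Finset.card_filter_le _ _
  -- assemble
  have hLE0 : (0 : ℝ) ≤ LEV.card := Nat.cast_nonneg _
  rw [← Finset.sum_filter_add_sum_filter_not LEV (fun x => y x ≤ J)]
  have hP0 : ∑ x ∈ LEV.filter (fun x => y x ≤ J),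
      ((∑ i ∈ D, x i : ℕ) : ℝ) / max 1 ((y x : ℕ) : ℝ)
        = ∑ j ∈ range (J + 1), n j * gg S j := by
    rw [← hfib]
    exact Finset.sum_congr rfl fun x hx => hF x (Finset.mem_filter.1 hx).1
  have hP0' : ∑ x ∈ LEV.filter (fun x => y x ≤ J),
      ((∑ i ∈ D, x i : ℕ) : ℝ) / max 1 ((∑ i ∈ D, (s i - x i) : ℕ) : ℝ)
        = ∑ j ∈ range (J + 1), n j * gg S j := hP0
  have hP2' : ∑ x ∈ LEV.filter (fun x => ¬ y x ≤ J),
      ((∑ i ∈ D, x i : ℕ) : ℝ) / max 1 ((∑ i ∈ D, (s i - x i) : ℕ) : ℝ) ≤ (LEV.card : ℝ) := hP2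
  rw [hP0']
  nlinarith [hP1, hP2', hLE0]

/-- The two column logarithmic lemma. -/
theorem two_col_log (r : Fin m → ℕ) (c : Fin n → ℕ) (j1 j2 : Fin n) (hne : j1 ≠ j2)
    (hc : c j1 ≤ c j2) (D : Finset (Fin m)) (N : ℕ) (hN : c j1 + c j2 ≤ N) :
    ∑ T ∈ tabs r c, ((∑ i ∈ D, T j1 i : ℕ) : ℝ) / max 1 ((∑ i ∈ D, T j2 i : ℕ) : ℝ)
      ≤ (6 + 2 * ell N) * ((tabs r c).card : ℝ) := by
  have key : ∑ T ∈ tabs r c, (((∑ i ∈ D, T j1 i : ℕ) : ℝ) / max 1 ((∑ i ∈ D, T j2 i : ℕ) : ℝ)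
      - (6 + 2 * ell N)) ≤ 0 := by
    refine two_col r c j1 j2 hne (fun x z => ((∑ i ∈ D, x i : ℕ) : ℝ) / max 1 ((∑ i ∈ D, z i : ℕ) : ℝ)
      - (6 + 2 * ell N)) ?_
    intro s hs
    rw [Finset.sum_sub_distrib, Finset.sum_const, nsmul_eq_mul]
    have h1 := slice_log s (c j1) (c j2) hc hs D
    have h2 : Real.log (((∑ i ∈ D, s i : ℕ) : ℝ) + 1) ≤ ell N := by
      unfold ell
      refine Real.log_le_log (by positivity) ?_
      have h3 : ∑ i ∈ D, s i ≤ N := by
        calc ∑ i ∈ D, s i ≤ ∑ i, s i := Finset.sum_le_sum_of_subset (Finset.subset_univ _)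
          _ = c j1 + c j2 := hs
          _ ≤ N := hN
      have h4 : ((∑ i ∈ D, s i : ℕ) : ℝ) ≤ N := by exact_mod_cast h3
      linarith
    have h5 : (0 : ℝ) ≤ (lev s (c j1)).card := Nat.cast_nonneg _
    have h6 := mul_le_mul_of_nonneg_right h2 h5
    nlinarith [h1, h6]
  rw [Finset.sum_sub_distrib, Finset.sum_const, nsmul_eq_mul] at key
  linarith

end Vale.Agent.Lib.P328.Ent
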