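import Vale.Agent.Lib.P328.Ent.Token
import Vale.Agent.Lib.P328.Ent.Tail
import Vale.Agent.Lib.P328.Ent.TwoCol

/-!
# P328, all margins: the table sums for small and large rows
-/

namespace Vale.Agent.Lib.P328.Ent

open Finset MeasureTheory Vale.Agent.Lib.P328 Vale.Agent.Lib.P328.Cap
open scoped ENNReal Nat

variable {m n : ℕ}

/-- The cap of the entries in the good event. -/
noncomputable def Mv (N : ℕ) : ℕ := ⌈6 * ell N⌉₊

/-- The constant of the rows of `D`. -/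
noncomputable def kapD (N : ℕ) : ℝ :=
  1 + Atok N * (2 + (Mv N : ℝ)) * 6 * (Mv N : ℝ) * (6 + 2 * ell N) * (8 / 3)

theorem Mv_ge (N : ℕ) : 6 * ell N ≤ (Mv N : ℝ) := Nat.le_ceil _

theorem Mv_pos (N : ℕ) : 1 ≤ Mv N := by
  have h1 := ell_ge_one N
  have h2 := Mv_ge N
  have : (1 : ℝ) ≤ Mv N := by linarith
  exact_mod_cast this

theorem cube_le_two_pow (N : ℕ) : N ^ 3 ≤ 2 ^ Mv N := by
  have hN : (0 : ℝ) < (N : ℝ) + 3 := by positivity
  have h1 : ((N : ℝ) + 3) ^ 3 ≤ 2 ^ (Mv N) := by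
    have hl : Real.log (((N : ℝ) + 3) ^ 3) ≤ Real.log ((2 : ℝ) ^ (Mv N)) := by
      rw [Real.log_pow, Real.log_pow]
      have h2 := Mv_ge N
      have h3 : ell N = Real.log ((N : ℝ) + 3) := rfl
      have h4 := Real.log_two_gt_d9
      have h5 := ell_ge_one N
      rw [← h3]
      push_cast
      nlinarith
    exact (Real.log_le_log_iff (by positivity) (by positivity)).1 hl
  have h2 : (N : ℝ) ^ 3 ≤ ((N : ℝ) + 3) ^ 3 := by
    gcongr
    linarith
  have : ((N ^ 3 : ℕ) : ℝ) ≤ ((2 ^ Mv N : ℕ) : ℝ) := by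
    push_cast
    linarith
  exact_mod_cast this

theorem Lset_card_ge (hn : 3 ≤ n) : 3 * (n + 1) ≤ 8 * (Lset n).card := by
  have him : (Lset n).image Fin.val = Finset.range ((n + 1) / 2) := by
    ext k
    simp only [Lset, mem_image, mem_filter, mem_univ, true_and, mem_range]
    constructor
    · rintro ⟨l, hl, rfl⟩
      omega
    · intro hk
      exact ⟨⟨k, by omega⟩, by simp only; omega, rfl⟩
  have h : (Lset n).card = (n + 1) / 2 := by
    rw [← card_range ((n + 1) / 2), ← him, card_image_of_injective _ Fin.val_injective]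
  rw [h]
  omega

/-- The number of positive entries outside row `i` in the column `l.succ`. -/
def zcount (T : Fin (n + 1) → Fin m → ℕ) (i : Fin m) (l : Fin n) : ℕ :=
  (univ.filter fun i' => i' ≠ i ∧ 1 ≤ T l.succ i').card

theorem sum_zcount_eq (T : Fin (n + 1) → Fin m → ℕ) (i : Fin m) :
    ∑ l, zcount T i l = (Ei T i).card := by
  classical
  unfold zcount Ei
  simp only [Finset.card_filter]
  rw [Fintype.sum_prod_type]

theorem sum_zcount_le (T : Fin (n + 1) → Fin m → ℕ) (i : Fin m) (L : Finset (Fin n)) :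
    ∑ l ∈ L, zcount T i l ≤ (Ei T i).card := by
  rw [← sum_zcount_eq]
  exact sum_le_sum_of_subset (subset_univ _)

theorem card_le_add_sum_zcount {R : Fin m → ℕ} {c : Fin (n + 1) → ℕ} (hpos : ∀ j, 0 < c j)
    {T : Fin (n + 1) → Fin m → ℕ} (hT : T ∈ tabs R c) (i : Fin m) (L : Finset (Fin n)) :
    L.card ≤ R i + ∑ l ∈ L, zcount T i l := by
  classical
  have h1 : (L.filter fun l => zcount T i l = 0).card ≤ R i := by
    calc (L.filter fun l => zcount T i l = 0).card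
        ≤ ∑ l ∈ L.filter (fun l => zcount T i l = 0), T l.succ i := by
          rw [card_eq_sum_ones]
          refine sum_le_sum fun l hl => ?_
          have hz := (mem_filter.1 hl).2
          unfold zcount at hz
          rw [card_eq_zero, filter_eq_empty_iff] at hz
          by_contra hlt
          have h0 : T l.succ i = 0 := by omega
          have hs : ∑ i', T l.succ i' = 0 := by
            refine Finset.sum_eq_zero fun i' _ => ?_
            by_cases hi : i' = i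
            · rw [hi, h0]
            · by_contra hne
              exact hz (mem_univ i') ⟨hi, Nat.one_le_iff_ne_zero.2 hne⟩
          have h3 := (mem_tabs.1 hT).1 l.succ
          have h4 := hpos l.succ
          omega
      _ ≤ ∑ l : Fin n, T l.succ i := sum_le_sum_of_subset (subset_univ _)
      _ ≤ ∑ j, T j i := by
          rw [Fin.sum_univ_succ]
          omega
      _ = R i := (mem_tabs.1 hT).2 i
  have h2 : (L.filter fun l => ¬ zcount T i l = 0).card ≤ ∑ l ∈ L, zcount T i l := by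
    calc (L.filter fun l => ¬ zcount T i l = 0).card
        = ∑ l ∈ L.filter (fun l => ¬ zcount T i l = 0), 1 := by simp
      _ ≤ ∑ l ∈ L.filter (fun l => ¬ zcount T i l = 0), zcount T i l :=
          sum_le_sum fun l hl => Nat.one_le_iff_ne_zero.2 (mem_filter.1 hl).2
      _ ≤ ∑ l ∈ L, zcount T i l := sum_le_sum_of_subset (filter_subset _ _)
  have h3 := card_filter_add_card_filter_not (s := L) (fun l => zcount T i l = 0)
  omega

theorem col_sum_le (T : Fin (n + 1) → Fin m → ℕ) (D : Finset (Fin m)) {i : Fin m} (hi : i ∈ D)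
    (l : Fin n) (M : ℕ) (hM : ∀ i' ∈ D, T l.succ i' ≤ M) :
    ∑ i' ∈ D, T l.succ i' ≤ T l.succ i + M * zcount T i l := by
  classical
  rw [← add_sum_erase D _ hi]
  refine Nat.add_le_add_left ?_ _
  have hsub : (D.erase i).filter (fun i' => 1 ≤ T l.succ i')
      ⊆ univ.filter fun i' => i' ≠ i ∧ 1 ≤ T l.succ i' := by
    intro x hx
    rw [mem_filter] at hx ⊢
    exact ⟨mem_univ _, ne_of_mem_erase hx.1, hx.2⟩
  calc ∑ i' ∈ D.erase i, T l.succ i'
      ≤ ∑ i' ∈ (D.erase i).filter (fun i' => 1 ≤ T l.succ i'), T l.succ i' := by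
        refine sum_le_sum_of_ne_zero ?_
        intro x hx hne
        exact mem_filter.2 ⟨hx, Nat.one_le_iff_ne_zero.2 hne⟩
    _ ≤ ∑ _i' ∈ (D.erase i).filter (fun i' => 1 ≤ T l.succ i'), M :=
        sum_le_sum fun x hx => hM x (mem_of_mem_erase (mem_filter.1 hx).1)
    _ = ((D.erase i).filter (fun i' => 1 ≤ T l.succ i')).card * M := by simp
    _ ≤ zcount T i l * M := Nat.mul_le_mul_right _ (card_le_card hsub)
    _ = M * zcount T i l := mul_comm _ _

/-- The sum of the denominators of the two column lemma. -/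
noncomputable def AT (D : Finset (Fin m)) (L : Finset (Fin n)) (T : Fin (n + 1) → Fin m → ℕ) : ℝ :=
  ∑ l ∈ L, max 1 ((∑ i ∈ D, T l.succ i : ℕ) : ℝ)

theorem AT_pos (D : Finset (Fin m)) {L : Finset (Fin n)} (hL : L.Nonempty)
    (T : Fin (n + 1) → Fin m → ℕ) : 0 < AT D L T :=
  Finset.sum_pos (fun _ _ => lt_of_lt_of_le one_pos (le_max_left _ _)) hL

theorem AT_le_token {R : Fin m → ℕ} {c : Fin (n + 1) → ℕ} (hpos : ∀ j, 0 < c j)
    {T : Fin (n + 1) → Fin m → ℕ} (hT : T ∈ tabs R c) (D : Finset (Fin m)) (L : Finset (Fin n))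
    {i : Fin m} (hi : i ∈ D) (M : ℕ) (hM : ∀ l ∈ L, ∀ i' ∈ D, T l.succ i' ≤ M)
    (h3 : 3 * R i ≤ L.card) (hL : 0 < L.card) :
    (Ei T i).Nonempty ∧ AT D L T ≤ (2 + (M : ℝ)) * ((Ei T i).card : ℝ) := by
  classical
  set Z := ∑ l ∈ L, zcount T i l with hZ
  have hZE : Z ≤ (Ei T i).card := sum_zcount_le T i L
  have hLZ : L.card ≤ R i + Z := card_le_add_sum_zcount hpos hT i L
  have h23 : 2 * L.card ≤ 3 * Z := by omega
  have hZpos : 0 < Z := by omega
  refine ⟨Finset.card_pos.1 (by omega), ?_⟩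
  have hA : AT D L T ≤ ((∑ l ∈ L, (1 + T l.succ i + M * zcount T i l) : ℕ) : ℝ) := by
    unfold AT
    push_cast
    refine Finset.sum_le_sum fun l hl => ?_
    have h1 := col_sum_le T D hi l M (hM l hl)
    have h2 : ((∑ i' ∈ D, T l.succ i' : ℕ) : ℝ) ≤ ((T l.succ i + M * zcount T i l : ℕ) : ℝ) := by
      exact_mod_cast h1
    push_cast at h2
    have h4 : (0 : ℝ) ≤ (T l.succ i : ℝ) := Nat.cast_nonneg _
    have h5 : (0 : ℝ) ≤ (M : ℝ) * (zcount T i l : ℝ) := by positivity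
    refine max_le ?_ ?_
    · linarith
    · linarith
  have hrow : ∑ l ∈ L, T l.succ i ≤ R i := by
    calc ∑ l ∈ L, T l.succ i ≤ ∑ l : Fin n, T l.succ i := sum_le_sum_of_subset (subset_univ _)
      _ ≤ ∑ j, T j i := by
          rw [Fin.sum_univ_succ]
          omega
      _ = R i := (mem_tabs.1 hT).2 i
  have hN : ∑ l ∈ L, (1 + T l.succ i + M * zcount T i l) ≤ (2 + M) * (Ei T i).card := by
    rw [Finset.sum_add_distrib, Finset.sum_add_distrib, ← Finset.mul_sum]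
    simp only [sum_const, smul_eq_mul, mul_one]
    calc L.card + ∑ l ∈ L, T l.succ i + M * Z ≤ 2 * Z + M * Z := by omega
      _ = (2 + M) * Z := by ring
      _ ≤ (2 + M) * (Ei T i).card := Nat.mul_le_mul_left _ hZE
  refine hA.trans ?_
  have : ((∑ l ∈ L, (1 + T l.succ i + M * zcount T i l) : ℕ) : ℝ)
      ≤ (((2 + M) * (Ei T i).card : ℕ) : ℝ) := by exact_mod_cast hN
  refine this.trans (le_of_eq ?_)
  push_cast
  ring

/-- The good event: all relevant entries are at most `M`. -/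
def goodT (M : ℕ) (D : Finset (Fin m)) (L : Finset (Fin n)) (T : Fin (n + 1) → Fin m → ℕ) : Prop :=
  ∀ i ∈ D, T 0 i ≤ M ∧ ∀ l ∈ L, T l.succ i ≤ M

open Classical in
theorem bad_card (R : Fin m → ℕ) (c : Fin (n + 1) → ℕ) (hc : Monotone c) (hn : 3 ≤ n) (M : ℕ) :
    2 ^ (M + 1) * ((tabs R c).filter fun T => ¬ goodT M (rowsD R (n + 1)) (Lset n) T).card
      ≤ (rowsD R (n + 1)).card * ((Lset n).card + 1) * (tabs R c).card := by
  set D := rowsD R (n + 1) with hD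
  set L := Lset n with hL
  set Ω := tabs R c with hΩ
  set tl : Fin (n + 1) → Fin m → Finset (Fin (n + 1) → Fin m → ℕ) :=
    fun j i => Ω.filter fun T => M + 1 ≤ T j i with htl
  have hsub : Ω.filter (fun T => ¬ goodT M D L T)
      ⊆ D.biUnion fun i => tl 0 i ∪ L.biUnion fun l => tl l.succ i := by
    intro T hT
    obtain ⟨hTΩ, hbad⟩ := mem_filter.1 hT
    unfold goodT at hbad
    push Not at hbad
    obtain ⟨i, hi, h⟩ := hbad
    refine mem_biUnion.2 ⟨i, hi, ?_⟩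
    by_cases h0 : T 0 i ≤ M
    · obtain ⟨l, hl, hlM⟩ := h h0
      exact mem_union_right _ (mem_biUnion.2 ⟨l, hl, mem_filter.2 ⟨hTΩ, hlM⟩⟩)
    · exact mem_union_left _ (mem_filter.2 ⟨hTΩ, by omega⟩)
  have hDR : ∀ i ∈ D, 8 * R i ≤ n + 1 := fun i hi => (mem_filter.1 hi).2.2
  have htail0 : ∀ i ∈ D, 2 ^ (M + 1) * (tl 0 i).card ≤ Ω.card := by
    intro i hi
    have h8 := hDR i hi
    exact tail_geom R c hc 0 i (by simp only [Fin.val_zero]; omega) (M + 1)
  have htaill : ∀ i ∈ D, ∀ l ∈ L, 2 ^ (M + 1) * (tl l.succ i).card ≤ Ω.card := by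
    intro i hi l hl
    have h8 := hDR i hi
    have hl2 : 2 * ((l : ℕ) + 1) ≤ n + 1 := (mem_filter.1 hl).2
    exact tail_geom R c hc l.succ i (by simp only [Fin.val_succ]; omega) (M + 1)
  calc 2 ^ (M + 1) * (Ω.filter fun T => ¬ goodT M D L T).card
      ≤ 2 ^ (M + 1) * ∑ i ∈ D, ((tl 0 i).card + ∑ l ∈ L, (tl l.succ i).card) := by
        refine Nat.mul_le_mul_left _ ((card_le_card hsub).trans ?_)
        refine card_biUnion_le.trans (sum_le_sum fun i _ => ?_)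
        refine (card_union_le _ _).trans (Nat.add_le_add_left card_biUnion_le _)
    _ = ∑ i ∈ D, (2 ^ (M + 1) * (tl 0 i).card + ∑ l ∈ L, 2 ^ (M + 1) * (tl l.succ i).card) := by
        rw [Finset.mul_sum]
        refine sum_congr rfl fun i _ => ?_
        rw [Nat.mul_add, Finset.mul_sum]
    _ ≤ ∑ _i ∈ D, (Ω.card + ∑ _l ∈ L, Ω.card) :=
        sum_le_sum fun i hi => Nat.add_le_add (htail0 i hi) (sum_le_sum fun l hl => htaill i hi l hl)
    _ = D.card * (L.card + 1) * Ω.card := by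
        simp only [sum_const, smul_eq_mul]
        ring

theorem sum_x_div_AT (R : Fin m → ℕ) (c : Fin (n + 1) → ℕ) (hc : Monotone c) (D : Finset (Fin m))
    {L : Finset (Fin n)} (hL : L.Nonempty) (N : ℕ) (hN : ∑ j, c j ≤ N) :
    ∑ T ∈ tabs R c, ((∑ i ∈ D, T 0 i : ℕ) : ℝ) / AT D L T
      ≤ (6 + 2 * ell N) * ((tabs R c).card : ℝ) / (L.card : ℝ) := by
  have hLpos : (0 : ℝ) < L.card := by exact_mod_cast hL.card_pos
  have h1 : ∀ (T : Fin (n + 1) → Fin m → ℕ) (x : ℝ), 0 ≤ x →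
      x / AT D L T ≤ (1 / (L.card : ℝ) ^ 2)
        * ∑ l ∈ L, x / max 1 ((∑ i ∈ D, T l.succ i : ℕ) : ℝ) := by
    intro T x hx
    have hcs := Finset.sq_sum_div_le_sum_sq_div L (fun _ => (1 : ℝ))
      (g := fun l => max 1 ((∑ i ∈ D, T l.succ i : ℕ) : ℝ))
      (fun _ _ => lt_of_lt_of_le one_pos (le_max_left _ _))
    simp only [sum_const, nsmul_eq_mul, mul_one, one_pow] at hcs
    have hA : 0 < AT D L T := AT_pos D hL T
    have hcs' : (L.card : ℝ) ^ 2 / AT D L T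
        ≤ ∑ l ∈ L, 1 / max 1 ((∑ i ∈ D, T l.succ i : ℕ) : ℝ) := hcs
    have h2 : ∑ l ∈ L, x / max 1 ((∑ i ∈ D, T l.succ i : ℕ) : ℝ)
        = x * ∑ l ∈ L, 1 / max 1 ((∑ i ∈ D, T l.succ i : ℕ) : ℝ) := by
      rw [Finset.mul_sum]
      refine sum_congr rfl fun l _ => ?_
      rw [mul_one_div]
    rw [h2]
    have h3 : x / AT D L T = (1 / (L.card : ℝ) ^ 2) * (x * ((L.card : ℝ) ^ 2 / AT D L T)) := by
      field_simp
    rw [h3]
    exact mul_le_mul_of_nonneg_left (mul_le_mul_of_nonneg_left hcs' hx) (by positivity)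
  have h2 : ∀ l ∈ L, ∑ T ∈ tabs R c, ((∑ i ∈ D, T 0 i : ℕ) : ℝ)
        / max 1 ((∑ i ∈ D, T l.succ i : ℕ) : ℝ) ≤ (6 + 2 * ell N) * ((tabs R c).card : ℝ) := by
    intro l _
    refine two_col_log R c 0 l.succ (Fin.succ_ne_zero l).symm (hc (Fin.zero_le _)) D N ?_
    refine le_trans ?_ hN
    rw [Fin.sum_univ_succ]
    have : c l.succ ≤ ∑ l : Fin n, c l.succ :=
      Finset.single_le_sum (f := fun l : Fin n => c l.succ) (fun _ _ => Nat.zero_le _) (mem_univ l)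
    omega
  calc ∑ T ∈ tabs R c, ((∑ i ∈ D, T 0 i : ℕ) : ℝ) / AT D L T
      ≤ ∑ T ∈ tabs R c, (1 / (L.card : ℝ) ^ 2)
          * ∑ l ∈ L, ((∑ i ∈ D, T 0 i : ℕ) : ℝ) / max 1 ((∑ i ∈ D, T l.succ i : ℕ) : ℝ) :=
        Finset.sum_le_sum fun T _ => h1 T _ (Nat.cast_nonneg _)
    _ = (1 / (L.card : ℝ) ^ 2) * ∑ l ∈ L, ∑ T ∈ tabs R c,
          ((∑ i ∈ D, T 0 i : ℕ) : ℝ) / max 1 ((∑ i ∈ D, T l.succ i : ℕ) : ℝ) := by
        rw [← Finset.mul_sum, Finset.sum_comm]
    _ ≤ (1 / (L.card : ℝ) ^ 2) * ∑ _l ∈ L, (6 + 2 * ell N) * ((tabs R c).card : ℝ) :=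
        mul_le_mul_of_nonneg_left (Finset.sum_le_sum h2) (by positivity)
    _ = (6 + 2 * ell N) * ((tabs R c).card : ℝ) / (L.card : ℝ) := by
        simp only [sum_const, nsmul_eq_mul]
        field_simp

/-- The main table lemma for the small rows. -/
theorem table_D (R : Fin m → ℕ) (c : Fin (n + 1) → ℕ) (hpos : ∀ j, 0 < c j) (hc : Monotone c)
    (hsum : ∑ i, R i = ∑ j, c j) (N : ℕ) (hN : ∑ j, c j ≤ N) (hν : 8 ≤ n + 1)
    (S : (Fin (n + 1) → Fin m → ℕ) → Fin m → ℝ) (hS0 : ∀ T i, 0 ≤ S T i)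
    (hS1 : ∀ T ∈ tabs R c, ∀ i, S T i ≤ 1)
    (hS2 : ∀ T ∈ tabs R c, ∀ i, (Ei T i).Nonempty →
      S T i ≤ Atok N * (2 + (T 0 i : ℝ)) * (c 0 : ℝ) / ((Ei T i).card : ℝ)) :
    ∑ T ∈ tabs R c, ∑ i ∈ rowsD R (n + 1), (T 0 i : ℝ) * S T i
      ≤ (c 0 : ℝ) * ((tabs R c).card : ℝ) * (kapD N / ((n : ℝ) + 1)) := by
  classical
  set D := rowsD R (n + 1) with hD
  set L := Lset n with hL
  set M := Mv N with hM
  set Ω := tabs R c with hΩ
  have hn3 : 3 ≤ n := by omega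
  have hLge : 3 * (n + 1) ≤ 8 * L.card := Lset_card_ge hn3
  have hLpos : 0 < L.card := by omega
  have hLne : L.Nonempty := Finset.card_pos.1 hLpos
  have hM1 : 1 ≤ M := Mv_pos N
  have hc0 : (0 : ℝ) ≤ (c 0 : ℝ) := Nat.cast_nonneg _
  have hAtok : 0 ≤ Atok N := by
    unfold Atok
    positivity
  have hMr : (1 : ℝ) ≤ (M : ℝ) := by exact_mod_cast hM1
  have h2M : (2 : ℝ) + (M : ℝ) ≤ 6 * (M : ℝ) := by linarith
  set K : ℝ := Atok N * (2 + (M : ℝ)) * (c 0 : ℝ) * (6 * (M : ℝ)) with hK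
  have hK0 : 0 ≤ K := by positivity
  -- bad tables are rare
  set Bad := Ω.filter fun T => ¬ goodT M D L T with hBad
  have hbadc : 2 ^ (M + 1) * Bad.card ≤ D.card * (L.card + 1) * Ω.card :=
    bad_card R c hc hn3 M
  have hDN : D.card ≤ N := by
    calc D.card = ∑ _i ∈ D, 1 := by simp
      _ ≤ ∑ i ∈ D, R i := sum_le_sum fun i hi => (mem_filter.1 hi).2.1
      _ ≤ ∑ i, R i := sum_le_sum_of_subset (subset_univ _)
      _ = ∑ j, c j := hsum
      _ ≤ N := hN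
  have hνN : n + 1 ≤ N := by
    calc n + 1 = ∑ _j : Fin (n + 1), 1 := by simp
      _ ≤ ∑ j, c j := sum_le_sum fun j _ => hpos j
      _ ≤ N := hN
  have hLle : L.card + 1 ≤ n + 1 := by
    have : L.card ≤ Fintype.card (Fin n) := Finset.card_le_univ _
    simp only [Fintype.card_fin] at this
    omega
  have hbad2 : (n + 1) * Bad.card ≤ Ω.card := by
    have h1 : (n + 1) * (D.card * (L.card + 1)) ≤ 2 ^ (M + 1) := by
      calc (n + 1) * (D.card * (L.card + 1)) ≤ N * (N * N) :=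
            Nat.mul_le_mul hνN (Nat.mul_le_mul hDN (hLle.trans hνN))
        _ = N ^ 3 := by ring
        _ ≤ 2 ^ M := cube_le_two_pow N
        _ ≤ 2 ^ (M + 1) := Nat.pow_le_pow_right (by norm_num) (by omega)
    have h2 : 2 ^ (M + 1) * ((n + 1) * Bad.card) ≤ 2 ^ (M + 1) * Ω.card := by
      calc 2 ^ (M + 1) * ((n + 1) * Bad.card) = (n + 1) * (2 ^ (M + 1) * Bad.card) := by ring
        _ ≤ (n + 1) * (D.card * (L.card + 1) * Ω.card) := Nat.mul_le_mul_left _ hbadc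
        _ = (n + 1) * (D.card * (L.card + 1)) * Ω.card := by ring
        _ ≤ 2 ^ (M + 1) * Ω.card := Nat.mul_le_mul_right _ h1
    exact Nat.le_of_mul_le_mul_left h2 (by positivity)
  -- the pointwise bound
  have hpt : ∀ T ∈ Ω, ∑ i ∈ D, (T 0 i : ℝ) * S T i
      ≤ (if goodT M D L T then 0 else (c 0 : ℝ)) + K * (((∑ i ∈ D, T 0 i : ℕ) : ℝ) / AT D L T) := by
    intro T hT
    have hApos : 0 < AT D L T := AT_pos D hLne T
    have hxnn : (0 : ℝ) ≤ ((∑ i ∈ D, T 0 i : ℕ) : ℝ) := Nat.cast_nonneg _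
    by_cases hg : goodT M D L T
    · rw [if_pos hg, zero_add]
      have hbound : ∀ i ∈ D, S T i ≤ K / AT D L T := by
        intro i hi
        have h8 : 8 * R i ≤ n + 1 := (mem_filter.1 hi).2.2
        have h3R : 3 * R i ≤ L.card := by omega
        obtain ⟨hne, hAE⟩ := AT_le_token hpos hT D L hi M
          (fun l hl i' hi' => (hg i' hi').2 l hl) h3R hLpos
        have hEpos : (0 : ℝ) < ((Ei T i).card : ℝ) := by exact_mod_cast hne.card_pos
        refine (hS2 T hT i hne).trans ?_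
        rw [div_le_div_iff₀ hEpos hApos]
        have hT0 : (T 0 i : ℝ) ≤ M := by exact_mod_cast (hg i hi).1
        have hAE' : AT D L T ≤ 6 * (M : ℝ) * ((Ei T i).card : ℝ) :=
          hAE.trans (mul_le_mul_of_nonneg_right h2M hEpos.le)
        have hfac : (0 : ℝ) ≤ Atok N * (c 0 : ℝ) := by positivity
        have h5 : (2 + (T 0 i : ℝ)) * AT D L T ≤ (2 + (M : ℝ)) * (6 * (M : ℝ) * ((Ei T i).card : ℝ)) :=
          mul_le_mul (by linarith) hAE' hApos.le (by positivity)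
        calc Atok N * (2 + (T 0 i : ℝ)) * (c 0 : ℝ) * AT D L T
            = (Atok N * (c 0 : ℝ)) * ((2 + (T 0 i : ℝ)) * AT D L T) := by ring
          _ ≤ (Atok N * (c 0 : ℝ)) * ((2 + (M : ℝ)) * (6 * (M : ℝ) * ((Ei T i).card : ℝ))) :=
              mul_le_mul_of_nonneg_left h5 hfac
          _ = K * ((Ei T i).card : ℝ) := by
              rw [hK]
              ring
      calc ∑ i ∈ D, (T 0 i : ℝ) * S T i
          ≤ ∑ i ∈ D, (T 0 i : ℝ) * (K / AT D L T) :=
            Finset.sum_le_sum fun i hi =>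
              mul_le_mul_of_nonneg_left (hbound i hi) (Nat.cast_nonneg _)
        _ = K * (((∑ i ∈ D, T 0 i : ℕ) : ℝ) / AT D L T) := by
            push_cast
            rw [← Finset.sum_mul]
            ring
    · rw [if_neg hg]
      have h1 : ∑ i ∈ D, (T 0 i : ℝ) * S T i ≤ (c 0 : ℝ) := by
        calc ∑ i ∈ D, (T 0 i : ℝ) * S T i ≤ ∑ i ∈ D, (T 0 i : ℝ) :=
              Finset.sum_le_sum fun i _ => by
                have := hS1 T hT i
                have h0 : (0 : ℝ) ≤ (T 0 i : ℝ) := Nat.cast_nonneg _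
                nlinarith
          _ ≤ ∑ i, (T 0 i : ℝ) := Finset.sum_le_sum_of_subset_of_nonneg (subset_univ _)
              fun _ _ _ => Nat.cast_nonneg _
          _ = (c 0 : ℝ) := by
              have := (mem_tabs.1 hT).1 0
              rw [← this]
              push_cast
              rfl
      have h2 : 0 ≤ K * (((∑ i ∈ D, T 0 i : ℕ) : ℝ) / AT D L T) := by positivity
      linarith
  have hsumbad : ∑ T ∈ Ω, (if goodT M D L T then 0 else (c 0 : ℝ)) = (Bad.card : ℝ) * (c 0 : ℝ) := by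
    rw [hBad, Finset.card_filter]
    push_cast
    rw [Finset.sum_mul]
    refine sum_congr rfl fun T _ => ?_
    by_cases hg : goodT M D L T <;> simp [hg]
  have hsx := sum_x_div_AT R c hc D hLne N hN
  have hν' : (0 : ℝ) < (n : ℝ) + 1 := by positivity
  have hbad3 : (Bad.card : ℝ) ≤ (Ω.card : ℝ) / ((n : ℝ) + 1) := by
    rw [le_div_iff₀ hν']
    have : (((n + 1) * Bad.card : ℕ) : ℝ) ≤ (Ω.card : ℝ) := by exact_mod_cast hbad2
    push_cast at this
    linarith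
  have hLinv : 1 / (L.card : ℝ) ≤ (8 / 3) / ((n : ℝ) + 1) := by
    have hL0 : (0 : ℝ) < L.card := by exact_mod_cast hLpos
    rw [div_le_div_iff₀ hL0 hν']
    have : ((3 * (n + 1) : ℕ) : ℝ) ≤ ((8 * L.card : ℕ) : ℝ) := by exact_mod_cast hLge
    push_cast at this
    linarith
  have hell : 0 ≤ 6 + 2 * ell N := by
    have := ell_ge_one N
    linarith
  have hΩ0 : (0 : ℝ) ≤ (Ω.card : ℝ) := Nat.cast_nonneg _
  calc ∑ T ∈ Ω, ∑ i ∈ D, (T 0 i : ℝ) * S T i
      ≤ ∑ T ∈ Ω, ((if goodT M D L T then 0 else (c 0 : ℝ))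
          + K * (((∑ i ∈ D, T 0 i : ℕ) : ℝ) / AT D L T)) := Finset.sum_le_sum hpt
    _ = (Bad.card : ℝ) * (c 0 : ℝ) + K * ∑ T ∈ Ω, ((∑ i ∈ D, T 0 i : ℕ) : ℝ) / AT D L T := by
        rw [Finset.sum_add_distrib, hsumbad, Finset.mul_sum]
    _ ≤ ((Ω.card : ℝ) / ((n : ℝ) + 1)) * (c 0 : ℝ)
          + K * ((6 + 2 * ell N) * (Ω.card : ℝ) * ((8 / 3) / ((n : ℝ) + 1))) := by
        refine add_le_add (mul_le_mul_of_nonneg_right hbad3 hc0) ?_
        refine mul_le_mul_of_nonneg_left (hsx.trans ?_) hK0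
        rw [div_eq_mul_one_div]
        exact mul_le_mul_of_nonneg_left hLinv (by positivity)
    _ = (c 0 : ℝ) * (Ω.card : ℝ) * (kapD N / ((n : ℝ) + 1)) := by
        unfold kapD
        rw [← hM, hK]
        field_simp

/-- The table lemma for the large rows. -/
theorem table_B (R : Fin m → ℕ) (c : Fin (n + 1) → ℕ) (hc : Monotone c) :
    ∑ T ∈ tabs R c, ∑ i ∈ rowsB R (n + 1), (T 0 i : ℝ) ^ 2 / (R i : ℝ)
      ≤ (c 0 : ℝ) * ((tabs R c).card : ℝ) * (10 / ((n : ℝ) + 1)) := by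
  classical
  have hc' : ∀ l : Fin n, c 0 ≤ c l.succ := fun l => hc (Fin.zero_le _)
  set Ω := tabs R c with hΩ
  have hν : (0 : ℝ) < (n : ℝ) + 1 := by positivity
  have hrow : ∀ i ∈ rowsB R (n + 1), ∑ T ∈ Ω, (T 0 i : ℝ) ^ 2 / (R i : ℝ)
      ≤ (10 / ((n : ℝ) + 1)) * ∑ T ∈ Ω, (T 0 i : ℝ) := by
    intro i hi
    have hi' : n + 1 < 8 * R i := (mem_filter.1 hi).2
    have hi'' : (n : ℝ) + 1 < 8 * (R i : ℝ) := by exact_mod_cast hi'
    have hRpos : (0 : ℝ) < (R i : ℝ) := by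
      have : (0 : ℝ) < 8 * (R i : ℝ) := by linarith
      linarith
    have h2 := tab_moment2 R c hc' i
    rw [Finset.sum_sub_distrib, ← Finset.mul_sum, ← Finset.mul_sum] at h2
    set X := ∑ T ∈ Ω, (T 0 i : ℝ) with hX
    set X2 := ∑ T ∈ Ω, (T 0 i : ℝ) ^ 2 with hX2
    have hX0 : 0 ≤ X := Finset.sum_nonneg fun T _ => by positivity
    rw [← Finset.sum_div, div_le_iff₀ hRpos]
    have hn0 : (0 : ℝ) ≤ (n : ℝ) := Nat.cast_nonneg _
    have hn2 : (0 : ℝ) < (n : ℝ) + 2 := by positivity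
    have hkey : (2 * (R i : ℝ) + n) * ((n : ℝ) + 1) ≤ 10 * (R i : ℝ) * ((n : ℝ) + 2) := by
      nlinarith
    have h3 : X2 ≤ (2 * (R i : ℝ) + n) / ((n : ℝ) + 2) * X := by
      rw [div_mul_eq_mul_div, le_div_iff₀ hn2]
      linarith
    have h4 : (2 * (R i : ℝ) + n) / ((n : ℝ) + 2) ≤ 10 / ((n : ℝ) + 1) * (R i : ℝ) := by
      rw [div_mul_eq_mul_div, div_le_div_iff₀ hn2 hν]
      linarith
    calc X2 ≤ (2 * (R i : ℝ) + n) / ((n : ℝ) + 2) * X := h3
      _ ≤ 10 / ((n : ℝ) + 1) * (R i : ℝ) * X := mul_le_mul_of_nonneg_right h4 hX0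
      _ = 10 / ((n : ℝ) + 1) * X * (R i : ℝ) := by ring
  have htot : ∑ i, ∑ T ∈ Ω, (T 0 i : ℝ) = (c 0 : ℝ) * (Ω.card : ℝ) := by
    rw [Finset.sum_comm]
    have : ∀ T ∈ Ω, ∑ i, (T 0 i : ℝ) = (c 0 : ℝ) := by
      intro T hT
      have := (mem_tabs.1 hT).1 0
      rw [← this]
      push_cast
      rfl
    rw [Finset.sum_congr rfl this]
    simp only [sum_const, nsmul_eq_mul]
    ring
  calc ∑ T ∈ Ω, ∑ i ∈ rowsB R (n + 1), (T 0 i : ℝ) ^ 2 / (R i : ℝ)
      = ∑ i ∈ rowsB R (n + 1), ∑ T ∈ Ω, (T 0 i : ℝ) ^ 2 / (R i : ℝ) := Finset.sum_comm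
    _ ≤ ∑ i ∈ rowsB R (n + 1), (10 / ((n : ℝ) + 1)) * ∑ T ∈ Ω, (T 0 i : ℝ) :=
        Finset.sum_le_sum hrow
    _ = (10 / ((n : ℝ) + 1)) * ∑ i ∈ rowsB R (n + 1), ∑ T ∈ Ω, (T 0 i : ℝ) := by
        rw [Finset.mul_sum]
    _ ≤ (10 / ((n : ℝ) + 1)) * ∑ i, ∑ T ∈ Ω, (T 0 i : ℝ) := by
        refine mul_le_mul_of_nonneg_left ?_ (by positivity)
        exact Finset.sum_le_sum_of_subset_of_nonneg (subset_univ _)
          fun i _ _ => Finset.sum_nonneg fun T _ => Nat.cast_nonneg _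
    _ = (c 0 : ℝ) * (Ω.card : ℝ) * (10 / ((n : ℝ) + 1)) := by
        rw [htot]
        ring

/-- Every token lies in a table: the number of tokens is at most the total. -/
theorem Ei_card_le {R : Fin m → ℕ} {c : Fin (n + 1) → ℕ} {T : Fin (n + 1) → Fin m → ℕ}
    (hT : T ∈ tabs R c) (i : Fin m) : (Ei T i).card ≤ ∑ j, c j := by
  classical
  obtain ⟨hcol, -⟩ := mem_tabs.1 hT
  calc (Ei T i).card = ∑ _e ∈ Ei T i, 1 := by simp
    _ ≤ ∑ e ∈ Ei T i, T e.1.succ e.2 := sum_le_sum fun e he => (mem_filter.1 he).2.2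
    _ ≤ ∑ e : Fin n × Fin m, T e.1.succ e.2 := sum_le_sum_of_subset (subset_univ _)
    _ = ∑ l : Fin n, ∑ i', T l.succ i' := Fintype.sum_prod_type _
    _ = ∑ l : Fin n, c l.succ := by simp only [hcol]
    _ ≤ ∑ j, c j := by
        rw [Fin.sum_univ_succ]
        omega

end Vale.Agent.Lib.P328.Ent
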