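import Vale.Agent.Lib.P328.Ent.PB
import Vale.Agent.Lib.P328.Ent.Swap
import Vale.Agent.Lib.P328.Ent.TableD

/-!
# P328, all margins: the bound of one stage
-/

namespace Vale.Agent.Lib.P328.Ent

open Finset MeasureTheory Vale.Agent.Lib.P328 Vale.Agent.Lib.P328.Cap
open scoped ENNReal Nat

variable {m n : ℕ}

/-- The constant of one stage. -/
noncomputable def eps (N ν : ℕ) : ℝ := 8 * ell N * ((kapD N + 10 + 8) / (ν : ℝ))

theorem lossF_nonneg (R : Fin m → ℕ) (c0 : ℕ) (c' : Fin n → ℕ) (u : Fin m → ℝ)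
    (t' : Fin n → Fin m → ℝ) : 0 ≤ lossF R c0 c' u t' := le_max_right _ _

theorem measurable_FF_aux (r : Fin m → ℕ) (c : Fin n → ℕ) :
    Measurable fun t : Fin n → Fin m → ℝ => Sparse.FF r c t := by
  unfold Sparse.FF
  exact Finset.measurable_sum _ fun T _ => Sparse.measurable_wt T

theorem measurable_w1_aux (x : Fin m → ℕ) : Measurable fun u : Fin m → ℝ => w1 u x := by
  unfold w1
  refine Finset.measurable_prod _ fun i _ => ?_
  exact ((measurable_pi_apply i).pow_const _).div_const _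

theorem measurable_tail_aux : Measurable fun t : Fin (n + 1) → Fin m → ℝ => Fin.tail t :=
  measurable_pi_lambda _ fun j => measurable_pi_apply j.succ

theorem measurable_bw_aux {α : Type} [MeasurableSpace α] (R v : ℕ) {p : α → ℝ}
    (hp : Measurable p) : Measurable fun a => bw R (p a) v := by
  unfold bw
  exact (hp.pow_const _).const_mul _ |>.mul ((measurable_const.sub hp).pow_const _)

theorem measurable_lossF (R : Fin m → ℕ) (c : Fin (n + 2) → ℕ) :
    Measurable fun t : Fin (n + 2) → Fin m → ℝ =>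
      lossF R (c 0) (Fin.tail c) (t 0) (Fin.tail t) := by
  have hamp : ∀ x : Fin m → ℕ, Measurable fun t : Fin (n + 2) → Fin m → ℝ =>
      amp R (Fin.tail c) (t 0) (Fin.tail t) x := by
    intro x
    unfold amp
    exact ((measurable_w1_aux x).comp (measurable_pi_apply 0)).mul
      ((measurable_FF_aux _ _).comp measurable_tail_aux)
  have hZ : Measurable fun t : Fin (n + 2) → Fin m → ℝ =>
      ZZ R (c 0) (Fin.tail c) (t 0) (Fin.tail t) := by
    unfold ZZ
    exact Finset.measurable_sum _ fun x _ => hamp x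
  have hpost : ∀ x : Fin m → ℕ, Measurable fun t : Fin (n + 2) → Fin m → ℝ =>
      post R (c 0) (Fin.tail c) (t 0) (Fin.tail t) x := by
    intro x
    unfold post
    exact (hamp x).div hZ
  have hY : ∀ i, Measurable fun t : Fin (n + 2) → Fin m → ℝ =>
      Ybar R (c 0) (Fin.tail c) (t 0) (Fin.tail t) i := by
    intro i
    unfold Ybar
    exact Finset.measurable_sum _ fun x _ => (hpost x).mul_const _
  have hp : ∀ i, Measurable fun t : Fin (n + 2) → Fin m → ℝ =>
      pbar R (c 0) (Fin.tail c) (t 0) (Fin.tail t) i := by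
    intro i
    unfold pbar
    exact (hY i).div_const _
  have hP : Measurable fun t : Fin (n + 2) → Fin m → ℝ =>
      Pk R (pbar R (c 0) (Fin.tail c) (t 0) (Fin.tail t)) (c 0) := by
    unfold Pk
    refine Finset.measurable_sum _ fun x _ => ?_
    unfold Cap.wt
    exact Finset.measurable_prod _ fun i _ => measurable_bw_aux _ _ (hp i)
  unfold lossF
  exact (Real.measurable_log.comp (hP.div_const _)).max measurable_const

/-- The mass of the planted law. -/
theorem lintegral_wmat_FF_aux (r : Fin m → ℕ) (c : Fin n → ℕ) :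
    ∫⁻ t, wmat t * ENNReal.ofReal (Sparse.FF r c t) = ((tabs r c).card : ℝ≥0∞) := by
  have h1 : ∀ t : Fin n → Fin m → ℝ, wmat t * ENNReal.ofReal (Sparse.FF r c t) =
      ∑ T ∈ tabs r c, wmat t * ENNReal.ofReal (Sparse.wt t T) := by
    intro t
    by_cases h0 : wmat t = 0
    · simp [h0]
    · have ht := wmat_ne_zero_pos h0
      unfold Sparse.FF
      rw [ENNReal.ofReal_sum_of_nonneg fun T _ => (Sparse.wt_pos ht T).le, Finset.mul_sum]
  simp only [h1]
  have hm : ∀ T, Measurable fun t : Fin n → Fin m → ℝ =>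
      wmat t * ENNReal.ofReal (Sparse.wt t T) := fun T =>
    measurable_wmat.mul (Sparse.measurable_wt T).ennreal_ofReal
  rw [lintegral_finsetSum _ fun T _ => hm T]
  simp only [Sparse.gamma_mass]
  simp

/-- The first column total of row `i`, weighted. -/
noncomputable def AtS (R : Fin m → ℕ) (c : Fin (n + 2) → ℕ) (t : Fin (n + 2) → Fin m → ℝ)
    (i : Fin m) : ℝ :=
  ∑ T ∈ tabs R c, (T 0 i : ℝ) * Sparse.wt t T

theorem Ybar_eq (R : Fin m → ℕ) (c : Fin (n + 2) → ℕ) (t : Fin (n + 2) → Fin m → ℝ) (i : Fin m) :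
    Ybar R (c 0) (Fin.tail c) (t 0) (Fin.tail t) i = AtS R c t i / Sparse.FF R c t := by
  have e1 := sum_entry_cons R (c 0) (Fin.tail c) (t 0) (Fin.tail t) i
  have e2 := FF_cons R (c 0) (Fin.tail c) (t 0) (Fin.tail t)
  rw [Fin.cons_self_tail, Fin.cons_self_tail] at e1 e2
  unfold Ybar post AtS
  rw [e1, e2, Finset.sum_div]
  apply Finset.sum_congr rfl
  intro x _
  ring

theorem AtS_nonneg {t : Fin (n + 2) → Fin m → ℝ} (ht : ∀ j i, 0 < t j i) (R : Fin m → ℕ)
    (c : Fin (n + 2) → ℕ) (i : Fin m) : 0 ≤ AtS R c t i := by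
  unfold AtS
  exact Finset.sum_nonneg fun T _ => mul_nonneg (Nat.cast_nonneg _) (Sparse.wt_pos ht T).le

theorem AtS_le {t : Fin (n + 2) → Fin m → ℝ} (ht : ∀ j i, 0 < t j i) (R : Fin m → ℕ)
    (c : Fin (n + 2) → ℕ) (i : Fin m) : AtS R c t i ≤ (R i : ℝ) * Sparse.FF R c t := by
  unfold AtS Sparse.FF
  rw [Finset.mul_sum]
  refine Finset.sum_le_sum fun T hT => ?_
  refine mul_le_mul_of_nonneg_right ?_ (Sparse.wt_pos ht T).le
  exact_mod_cast Sparse.entry_le_row hT 0 i

theorem AtS_sum (R : Fin m → ℕ) (c : Fin (n + 2) → ℕ) (t : Fin (n + 2) → Fin m → ℝ) :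
    ∑ i, AtS R c t i = (c 0 : ℝ) * Sparse.FF R c t := by
  unfold AtS Sparse.FF
  rw [Finset.sum_comm, Finset.mul_sum]
  refine Finset.sum_congr rfl fun T hT => ?_
  rw [← Finset.sum_mul]
  congr 1
  exact_mod_cast (mem_tabs.1 hT).1 0

/-- The squared sum over the table of a row, by Cauchy. -/
theorem AtS_sq_le {t : Fin (n + 2) → Fin m → ℝ} (ht : ∀ j i, 0 < t j i) (R : Fin m → ℕ)
    (c : Fin (n + 2) → ℕ) (i : Fin m) :
    AtS R c t i ^ 2 ≤ (∑ T ∈ tabs R c, (T 0 i : ℝ) ^ 2 * Sparse.wt t T) * Sparse.FF R c t := by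
  unfold AtS Sparse.FF
  refine Finset.sum_sq_le_sum_mul_sum_of_sq_le_mul _ (fun T _ => ?_) (fun T _ => ?_) (fun T _ => ?_)
  · exact mul_nonneg (by positivity) (Sparse.wt_pos ht T).le
  · exact (Sparse.wt_pos ht T).le
  · apply le_of_eq
    ring

/-- The loss against the weighted squares, at a positive coefficient matrix. -/
theorem loss_pointwise {t : Fin (n + 2) → Fin m → ℝ} (ht : ∀ j i, 0 < t j i) (R : Fin m → ℕ)
    (c : Fin (n + 2) → ℕ) (hpos : ∀ j, 0 < c j) (hsum : ∑ i, R i = ∑ j, c j) (N : ℕ)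
    (hN : ∑ j, c j ≤ N) :
    lossF R (c 0) (Fin.tail c) (t 0) (Fin.tail t) ≤ 8 * ell N ∧
    Sparse.FF R c t * lossF R (c 0) (Fin.tail c) (t 0) (Fin.tail t) ≤
      (8 * ell N / (c 0 : ℝ)) * ∑ i, AtS R c t i ^ 2 / ((R i : ℝ) * Sparse.FF R c t) := by
  set F := Sparse.FF R c t with hF
  have hFpos : 0 < F := Sparse.FF_pos ht R c hsum
  set p := pbar R (c 0) (Fin.tail c) (t 0) (Fin.tail t) with hp
  have hpi : ∀ i, p i = AtS R c t i / F / (R i : ℝ) := by
    intro i
    rw [hp]
    unfold pbar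
    rw [Ybar_eq]
  have hA0 : ∀ i, R i = 0 → AtS R c t i = 0 := by
    intro i hi
    have h1 := AtS_le ht R c i
    rw [hi] at h1
    simp only [Nat.cast_zero, zero_mul] at h1
    exact le_antisymm h1 (AtS_nonneg ht R c i)
  have h0 : ∀ i, 0 ≤ p i := by
    intro i
    rw [hpi]
    exact div_nonneg (div_nonneg (AtS_nonneg ht R c i) hFpos.le) (Nat.cast_nonneg _)
  have h1 : ∀ i, p i ≤ 1 := by
    intro i
    rw [hpi]
    by_cases hi : R i = 0
    · simp [hi]
    · have hi' : (0 : ℝ) < (R i : ℝ) := by exact_mod_cast Nat.pos_of_ne_zero hi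
      rw [div_div, div_le_one (by positivity)]
      have := AtS_le ht R c i
      linarith
  have hRp : ∀ i, (R i : ℝ) * p i = AtS R c t i / F := by
    intro i
    rw [hpi]
    by_cases hi : R i = 0
    · simp [hi, hA0 i hi]
    · have hi' : (R i : ℝ) ≠ 0 := by exact_mod_cast hi
      field_simp
  have hmean : ∑ i, (R i : ℝ) * p i = (c 0 : ℝ) := by
    simp only [hRp]
    rw [← Finset.sum_div, AtS_sum, ← hF]
    field_simp
  have hc0 : 0 < c 0 := hpos 0
  have hc0' : (0 : ℝ) < (c 0 : ℝ) := by exact_mod_cast hc0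
  have hcC : c 0 < ∑ i, R i := by
    rw [hsum, Fin.sum_univ_succ]
    have h2 : 0 < c (Fin.succ 0) := hpos _
    have h3 : c (Fin.succ 0) ≤ ∑ j : Fin (n + 1), c j.succ :=
      Finset.single_le_sum (f := fun j : Fin (n + 1) => c j.succ) (fun _ _ => Nat.zero_le _)
        (mem_univ (0 : Fin (n + 1)))
    omega
  have hpb := pb_loss R p (c 0) h0 h1 hmean hc0 hcC
  have hloss : lossF R (c 0) (Fin.tail c) (t 0) (Fin.tail t) ≤
      8 * ell (∑ i, R i) * ((∑ i, (R i : ℝ) * p i ^ 2) / (c 0 : ℝ)) := hpb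
  have hell : ell (∑ i, R i) ≤ ell N := ell_mono (by rw [hsum]; exact hN)
  have hO0 : 0 ≤ ∑ i, (R i : ℝ) * p i ^ 2 :=
    Finset.sum_nonneg fun i _ => mul_nonneg (Nat.cast_nonneg _) (sq_nonneg _)
  have hloss2 : lossF R (c 0) (Fin.tail c) (t 0) (Fin.tail t) ≤
      8 * ell N * ((∑ i, (R i : ℝ) * p i ^ 2) / (c 0 : ℝ)) := by
    refine hloss.trans ?_
    apply mul_le_mul_of_nonneg_right _ (by positivity)
    linarith
  have hell1 := ell_ge_one N
  constructor
  · have hO : ∑ i, (R i : ℝ) * p i ^ 2 ≤ (c 0 : ℝ) := by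
      rw [← hmean]
      refine Finset.sum_le_sum fun i _ => ?_
      apply mul_le_mul_of_nonneg_left _ (Nat.cast_nonneg _)
      nlinarith [h0 i, h1 i]
    refine hloss2.trans ?_
    have : (∑ i, (R i : ℝ) * p i ^ 2) / (c 0 : ℝ) ≤ 1 := by
      rw [div_le_one hc0']
      exact hO
    nlinarith
  · have hOF : (∑ i, (R i : ℝ) * p i ^ 2) * F =
        ∑ i, AtS R c t i ^ 2 / ((R i : ℝ) * F) := by
      rw [Finset.sum_mul]
      refine Finset.sum_congr rfl fun i _ => ?_
      rw [hpi]
      by_cases hi : R i = 0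
      · simp [hi]
      · have hi' : (R i : ℝ) ≠ 0 := by exact_mod_cast hi
        field_simp
    rw [← hOF]
    calc F * lossF R (c 0) (Fin.tail c) (t 0) (Fin.tail t)
        ≤ F * (8 * ell N * ((∑ i, (R i : ℝ) * p i ^ 2) / (c 0 : ℝ))) :=
          mul_le_mul_of_nonneg_left hloss2 hFpos.le
      _ = _ := by
          field_simp

/-- The bound of one stage. -/
theorem stage_bound (R : Fin m → ℕ) (c : Fin (n + 2) → ℕ) (hpos : ∀ j, 0 < c j) (hc : Monotone c)
    (hsum : ∑ i, R i = ∑ j, c j) (N : ℕ) (hN : ∑ j, c j ≤ N) :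
    ∫⁻ t : Fin (n + 2) → Fin m → ℝ, wmat t * ENNReal.ofReal (Sparse.FF R c t
        * lossF R (c 0) (Fin.tail c) (t 0) (Fin.tail t))
      ≤ ((tabs R c).card : ℝ≥0∞) * ENNReal.ofReal (eps N (n + 2)) := by
  have hc0 : 0 < c 0 := hpos 0
  have hc0' : (0 : ℝ) < (c 0 : ℝ) := by exact_mod_cast hc0
  have hell1 := ell_ge_one N
  have hkap : 0 ≤ kapD N := by
    unfold kapD Atok
    have : (0 : ℝ) ≤ (Mv N : ℝ) := Nat.cast_nonneg _
    positivity
  have hcardnn : (0 : ℝ) ≤ ((tabs R c).card : ℝ) := Nat.cast_nonneg _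
  have hν0 : (0 : ℝ) < ((n + 2 : ℕ) : ℝ) := by positivity
  have hcardE : ((tabs R c).card : ℝ≥0∞) * ENNReal.ofReal (eps N (n + 2)) =
      ENNReal.ofReal (((tabs R c).card : ℝ) * eps N (n + 2)) := by
    rw [ENNReal.ofReal_mul hcardnn, ENNReal.ofReal_natCast]
  rw [hcardE]
  by_cases hν : 8 ≤ n + 2
  · -- the main case
    set K : ℝ := 8 * ell N / (c 0 : ℝ) with hK
    have hK0 : 0 ≤ K := by positivity
    set J : (Fin (n + 2) → Fin m → ℕ) → Fin m → ℝ≥0∞ := fun T i =>
      ∫⁻ t, wmat t * ENNReal.ofReal (Sparse.wt t T * Gi (c 0) T t i) with hJ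
    have hJ1 : ∀ T i, J T i ≤ 1 := by
      intro T i
      rw [← Sparse.gamma_mass T]
      refine lintegral_mono fun t => ?_
      by_cases h0 : wmat t = 0
      · simp [h0]
      · have ht := wmat_ne_zero_pos h0
        refine mul_le_mul_right (ENNReal.ofReal_le_ofReal ?_) _
        have := Sparse.wt_pos ht T
        have h2 := Gi_le_one ht (c 0) T i
        nlinarith
    have hJtop : ∀ T i, J T i ≠ ⊤ := fun T i => ne_top_of_le_ne_top ENNReal.one_ne_top (hJ1 T i)
    set S : (Fin (n + 2) → Fin m → ℕ) → Fin m → ℝ := fun T i => (J T i).toReal with hS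
    have hTD := table_D (n := n + 1) R c hpos hc hsum N hN hν S (fun _ _ => ENNReal.toReal_nonneg)
      (fun T _ i => by
        have := ENNReal.toReal_mono ENNReal.one_ne_top (hJ1 T i)
        simpa using this)
      (fun T hT i hE => by
        have hAtok : 0 ≤ Atok N := by
          unfold Atok
          positivity
        refine ENNReal.toReal_le_of_le_ofReal
          (div_nonneg (mul_nonneg (mul_nonneg hAtok (by positivity)) (Nat.cast_nonneg _))
            (Nat.cast_nonneg _)) ?_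
        exact token_bound T i (c 0) N hc0 hE ((Ei_card_le hT i).trans hN))
    have hTB := table_B (n := n + 1) R c hc
    set X : ℝ := ∑ T ∈ tabs R c, ∑ i ∈ rowsB R (n + 1 + 1), (T 0 i : ℝ) ^ 2 / (R i : ℝ) with hX
    set Y : ℝ := ∑ T ∈ tabs R c, ∑ i ∈ rowsD R (n + 1 + 1), (T 0 i : ℝ) * S T i with hY
    have hX0 : 0 ≤ X := Finset.sum_nonneg fun _ _ => Finset.sum_nonneg fun _ _ => by positivity
    have hY0 : 0 ≤ Y := Finset.sum_nonneg fun _ _ => Finset.sum_nonneg fun _ _ =>
      mul_nonneg (Nat.cast_nonneg _) ENNReal.toReal_nonneg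
    -- the pointwise domination
    have hpt : ∀ t : Fin (n + 2) → Fin m → ℝ, wmat t * ENNReal.ofReal (Sparse.FF R c t
        * lossF R (c 0) (Fin.tail c) (t 0) (Fin.tail t)) ≤
        ENNReal.ofReal K * (∑ T ∈ tabs R c, ∑ i ∈ rowsB R (n + 1 + 1),
            ENNReal.ofReal ((T 0 i : ℝ) ^ 2 / (R i : ℝ)) * (wmat t * ENNReal.ofReal (Sparse.wt t T))
          + ∑ T ∈ tabs R c, ∑ i ∈ rowsD R (n + 1 + 1),
            ENNReal.ofReal (T 0 i : ℝ) * (wmat t * ENNReal.ofReal (Sparse.wt t T * Gi (c 0) T t i))) := by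
      intro t
      by_cases h0 : wmat t = 0
      · simp [h0]
      have ht := wmat_ne_zero_pos h0
      have hFpos : 0 < Sparse.FF R c t := Sparse.FF_pos ht R c hsum
      have hreal := (loss_pointwise ht R c hpos hsum N hN).2
      have hwt : ∀ T, 0 ≤ Sparse.wt t T := fun T => (Sparse.wt_pos ht T).le
      have hGi : ∀ T i, 0 ≤ Gi (c 0) T t i := fun T i => Gi_nonneg ht (c 0) T i
      -- the sum over the rows
      have hrows : ∑ i, AtS R c t i ^ 2 / ((R i : ℝ) * Sparse.FF R c t) ≤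
          ∑ T ∈ tabs R c, ∑ i ∈ rowsB R (n + 1 + 1), (T 0 i : ℝ) ^ 2 / (R i : ℝ) * Sparse.wt t T
          + ∑ T ∈ tabs R c, ∑ i ∈ rowsD R (n + 1 + 1), (T 0 i : ℝ) * (Sparse.wt t T * Gi (c 0) T t i) := by
        rw [Finset.sum_comm (s := tabs R c) (t := rowsB R (n + 1 + 1)),
          Finset.sum_comm (s := tabs R c) (t := rowsD R (n + 1 + 1))]
        unfold rowsB rowsD
        rw [Finset.sum_filter, Finset.sum_filter, ← Finset.sum_add_distrib]
        refine Finset.sum_le_sum fun i _ => ?_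
        by_cases hB : n + 1 + 1 < 8 * R i
        · have hD : ¬ (0 < R i ∧ 8 * R i ≤ n + 1 + 1) := fun h => by omega
          rw [if_pos hB, if_neg hD, add_zero]
          have hRi : (0 : ℝ) < (R i : ℝ) := by
            have : 0 < R i := by omega
            exact_mod_cast this
          rw [div_le_iff₀ (by positivity)]
          refine (AtS_sq_le ht R c i).trans ?_
          apply le_of_eq
          have : ∑ T ∈ tabs R c, (T 0 i : ℝ) ^ 2 / (R i : ℝ) * Sparse.wt t T =
              (∑ T ∈ tabs R c, (T 0 i : ℝ) ^ 2 * Sparse.wt t T) / (R i : ℝ) := by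
            rw [Finset.sum_div]
            refine Finset.sum_congr rfl fun T _ => ?_
            ring
          rw [this]
          field_simp
        · rw [if_neg hB, zero_add]
          by_cases hi0 : R i = 0
          · have h2 : 0 ≤ ∑ T ∈ tabs R c, (T 0 i : ℝ) * (Sparse.wt t T * Gi (c 0) T t i) :=
              Finset.sum_nonneg fun T _ =>
                mul_nonneg (Nat.cast_nonneg _) (mul_nonneg (hwt T) (hGi T i))
            simp only [hi0, Nat.cast_zero, zero_mul, div_zero]
            split_ifs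
            · exact h2
            · exact le_rfl
          · have hD : 0 < R i ∧ 8 * R i ≤ n + 1 + 1 := ⟨Nat.pos_of_ne_zero hi0, by omega⟩
            rw [if_pos hD]
            have h3 := pw_bound ht R c hc0 i
            refine h3.trans (le_of_eq ?_)
            refine Finset.sum_congr rfl fun T _ => ?_
            ring
      have hreal2 : Sparse.FF R c t * lossF R (c 0) (Fin.tail c) (t 0) (Fin.tail t) ≤
          K * (∑ T ∈ tabs R c, ∑ i ∈ rowsB R (n + 1 + 1), (T 0 i : ℝ) ^ 2 / (R i : ℝ) * Sparse.wt t T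
          + ∑ T ∈ tabs R c, ∑ i ∈ rowsD R (n + 1 + 1), (T 0 i : ℝ) * (Sparse.wt t T * Gi (c 0) T t i)) :=
        hreal.trans (mul_le_mul_of_nonneg_left hrows hK0)
      have hE : ENNReal.ofReal (Sparse.FF R c t * lossF R (c 0) (Fin.tail c) (t 0) (Fin.tail t)) ≤
          ENNReal.ofReal K * (∑ T ∈ tabs R c, ∑ i ∈ rowsB R (n + 1 + 1),
            ENNReal.ofReal ((T 0 i : ℝ) ^ 2 / (R i : ℝ)) * ENNReal.ofReal (Sparse.wt t T)
          + ∑ T ∈ tabs R c, ∑ i ∈ rowsD R (n + 1 + 1),
            ENNReal.ofReal (T 0 i : ℝ) * ENNReal.ofReal (Sparse.wt t T * Gi (c 0) T t i)) := by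
        refine (ENNReal.ofReal_le_ofReal hreal2).trans (le_of_eq ?_)
        rw [ENNReal.ofReal_mul hK0, ENNReal.ofReal_add
          (Finset.sum_nonneg fun _ _ => Finset.sum_nonneg fun _ _ =>
            mul_nonneg (by positivity) (hwt _))
          (Finset.sum_nonneg fun _ _ => Finset.sum_nonneg fun _ _ =>
            mul_nonneg (Nat.cast_nonneg _) (mul_nonneg (hwt _) (hGi _ _))),
          ENNReal.ofReal_sum_of_nonneg (fun _ _ => Finset.sum_nonneg fun _ _ =>
            mul_nonneg (by positivity) (hwt _)),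
          ENNReal.ofReal_sum_of_nonneg (fun _ _ => Finset.sum_nonneg fun _ _ =>
            mul_nonneg (Nat.cast_nonneg _) (mul_nonneg (hwt _) (hGi _ _)))]
        congr 2
        · refine Finset.sum_congr rfl fun T _ => ?_
          rw [ENNReal.ofReal_sum_of_nonneg (fun _ _ => mul_nonneg (by positivity) (hwt _))]
          refine Finset.sum_congr rfl fun i _ => ?_
          rw [ENNReal.ofReal_mul (by positivity)]
        · refine Finset.sum_congr rfl fun T _ => ?_
          rw [ENNReal.ofReal_sum_of_nonneg (fun _ _ =>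
            mul_nonneg (Nat.cast_nonneg _) (mul_nonneg (hwt _) (hGi _ _)))]
          refine Finset.sum_congr rfl fun i _ => ?_
          rw [ENNReal.ofReal_mul (Nat.cast_nonneg _)]
      refine (mul_le_mul_right hE _).trans (le_of_eq ?_)
      rw [mul_left_comm, mul_add, Finset.mul_sum, Finset.mul_sum]
      congr 2
      · refine Finset.sum_congr rfl fun T _ => ?_
        rw [Finset.mul_sum]
        refine Finset.sum_congr rfl fun i _ => ?_
        ring
      · refine Finset.sum_congr rfl fun T _ => ?_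
        rw [Finset.mul_sum]
        refine Finset.sum_congr rfl fun i _ => ?_
        ring
    refine (lintegral_mono hpt).trans ?_
    have hm1 : ∀ T, Measurable fun t : Fin (n + 2) → Fin m → ℝ =>
        wmat t * ENNReal.ofReal (Sparse.wt t T) := fun T =>
      measurable_wmat.mul (Sparse.measurable_wt T).ennreal_ofReal
    have hm2 : ∀ T i, Measurable fun t : Fin (n + 2) → Fin m → ℝ =>
        wmat t * ENNReal.ofReal (Sparse.wt t T * Gi (c 0) T t i) := fun T i =>
      measurable_wmat.mul ((Sparse.measurable_wt T).mul (measurable_Gi (c 0) T i)).ennreal_ofReal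
    have hint : ∫⁻ t : Fin (n + 2) → Fin m → ℝ, ENNReal.ofReal K * (∑ T ∈ tabs R c, ∑ i ∈ rowsB R (n + 1 + 1),
            ENNReal.ofReal ((T 0 i : ℝ) ^ 2 / (R i : ℝ)) * (wmat t * ENNReal.ofReal (Sparse.wt t T))
          + ∑ T ∈ tabs R c, ∑ i ∈ rowsD R (n + 1 + 1),
            ENNReal.ofReal (T 0 i : ℝ) * (wmat t * ENNReal.ofReal (Sparse.wt t T * Gi (c 0) T t i)))
        = ENNReal.ofReal K * (ENNReal.ofReal X + ENNReal.ofReal Y) := by
      have hmA : Measurable fun t : Fin (n + 2) → Fin m → ℝ =>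
          ∑ T ∈ tabs R c, ∑ i ∈ rowsB R (n + 1 + 1),
            ENNReal.ofReal ((T 0 i : ℝ) ^ 2 / (R i : ℝ)) * (wmat t * ENNReal.ofReal (Sparse.wt t T)) :=
        Finset.measurable_sum _ fun T _ => Finset.measurable_sum _ fun i _ => (hm1 T).const_mul _
      have hmB : Measurable fun t : Fin (n + 2) → Fin m → ℝ =>
          ∑ T ∈ tabs R c, ∑ i ∈ rowsD R (n + 1 + 1),
            ENNReal.ofReal (T 0 i : ℝ) * (wmat t * ENNReal.ofReal (Sparse.wt t T * Gi (c 0) T t i)) :=
        Finset.measurable_sum _ fun T _ => Finset.measurable_sum _ fun i _ => (hm2 T i).const_mul _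
      have hmAB : Measurable fun t : Fin (n + 2) → Fin m → ℝ =>
          (∑ T ∈ tabs R c, ∑ i ∈ rowsB R (n + 1 + 1),
            ENNReal.ofReal ((T 0 i : ℝ) ^ 2 / (R i : ℝ)) * (wmat t * ENNReal.ofReal (Sparse.wt t T)))
          + ∑ T ∈ tabs R c, ∑ i ∈ rowsD R (n + 1 + 1),
            ENNReal.ofReal (T 0 i : ℝ) * (wmat t * ENNReal.ofReal (Sparse.wt t T * Gi (c 0) T t i)) :=
        hmA.add hmB
      rw [lintegral_const_mul _ hmAB, lintegral_add_left hmA]
      congr 2
      · rw [lintegral_finsetSum _ fun T _ => Finset.measurable_sum _ fun i _ => (hm1 T).const_mul _,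
          hX, ENNReal.ofReal_sum_of_nonneg (fun _ _ => Finset.sum_nonneg fun _ _ => by positivity)]
        refine Finset.sum_congr rfl fun T _ => ?_
        rw [lintegral_finsetSum _ fun i _ => (hm1 T).const_mul _,
          ENNReal.ofReal_sum_of_nonneg (fun _ _ => by positivity)]
        refine Finset.sum_congr rfl fun i _ => ?_
        rw [lintegral_const_mul _ (hm1 T), Sparse.gamma_mass, mul_one]
      · rw [lintegral_finsetSum _ fun T _ => Finset.measurable_sum _ fun i _ => (hm2 T i).const_mul _,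
          hY, ENNReal.ofReal_sum_of_nonneg (fun _ _ => Finset.sum_nonneg fun _ _ =>
            mul_nonneg (Nat.cast_nonneg _) ENNReal.toReal_nonneg)]
        refine Finset.sum_congr rfl fun T _ => ?_
        rw [lintegral_finsetSum _ fun i _ => (hm2 T i).const_mul _,
          ENNReal.ofReal_sum_of_nonneg (fun _ _ =>
            mul_nonneg (Nat.cast_nonneg _) ENNReal.toReal_nonneg)]
        refine Finset.sum_congr rfl fun i _ => ?_
        rw [lintegral_const_mul _ (hm2 T i), ENNReal.ofReal_mul (Nat.cast_nonneg _)]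
        show _ = ENNReal.ofReal (T 0 i : ℝ) * ENNReal.ofReal (J T i).toReal
        rw [ENNReal.ofReal_toReal (hJtop T i)]
    rw [hint, ← ENNReal.ofReal_add hX0 hY0, ← ENNReal.ofReal_mul hK0]
    refine ENNReal.ofReal_le_ofReal ?_
    -- the numbers
    have hn' : (((n + 1 : ℕ) : ℝ) + 1) = ((n + 2 : ℕ) : ℝ) := by push_cast; ring
    rw [hn'] at hTD hTB
    have hcard0 : 0 ≤ (c 0 : ℝ) * ((tabs R c).card : ℝ) := by positivity
    have hsum2 : X + Y ≤ (c 0 : ℝ) * ((tabs R c).card : ℝ) * ((kapD N + 10) / ((n + 2 : ℕ) : ℝ)) := by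
      have e : (kapD N + 10) / ((n + 2 : ℕ) : ℝ) = 10 / ((n + 2 : ℕ) : ℝ) + kapD N / ((n + 2 : ℕ) : ℝ) := by
        ring
      rw [e, mul_add]
      linarith
    have hfin : K * ((c 0 : ℝ) * ((tabs R c).card : ℝ) * ((kapD N + 10) / ((n + 2 : ℕ) : ℝ))) ≤
        ((tabs R c).card : ℝ) * eps N (n + 2) := by
      have e2 : K * ((c 0 : ℝ) * ((tabs R c).card : ℝ) * ((kapD N + 10) / ((n + 2 : ℕ) : ℝ))) =
          ((tabs R c).card : ℝ) * (8 * ell N * ((kapD N + 10) / ((n + 2 : ℕ) : ℝ))) := by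
        rw [hK]
        field_simp
      rw [e2]
      unfold eps
      apply mul_le_mul_of_nonneg_left _ hcardnn
      apply mul_le_mul_of_nonneg_left _ (by positivity)
      apply div_le_div_of_nonneg_right _ hν0.le
      linarith
    exact (mul_le_mul_of_nonneg_left hsum2 hK0).trans hfin
  · -- few columns
    have hpt : ∀ t : Fin (n + 2) → Fin m → ℝ, wmat t * ENNReal.ofReal (Sparse.FF R c t
        * lossF R (c 0) (Fin.tail c) (t 0) (Fin.tail t)) ≤
        ENNReal.ofReal (8 * ell N) * (wmat t * ENNReal.ofReal (Sparse.FF R c t)) := by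
      intro t
      by_cases h0 : wmat t = 0
      · simp [h0]
      have ht := wmat_ne_zero_pos h0
      have hFpos : 0 < Sparse.FF R c t := Sparse.FF_pos ht R c hsum
      have h1 := (loss_pointwise ht R c hpos hsum N hN).1
      have h2 : Sparse.FF R c t * lossF R (c 0) (Fin.tail c) (t 0) (Fin.tail t) ≤
          8 * ell N * Sparse.FF R c t := by
        rw [mul_comm]
        exact mul_le_mul_of_nonneg_right h1 hFpos.le
      refine (mul_le_mul_right (ENNReal.ofReal_le_ofReal h2) _).trans (le_of_eq ?_)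
      rw [ENNReal.ofReal_mul (by positivity)]
      ring
    refine (lintegral_mono hpt).trans ?_
    have hmF : Measurable fun t : Fin (n + 2) → Fin m → ℝ =>
        wmat t * ENNReal.ofReal (Sparse.FF R c t) :=
      measurable_wmat.mul (measurable_FF_aux R c).ennreal_ofReal
    rw [lintegral_const_mul _ hmF, lintegral_wmat_FF_aux, ← ENNReal.ofReal_natCast, ← ENNReal.ofReal_mul (by positivity)]
    refine ENNReal.ofReal_le_ofReal ?_
    unfold eps
    rw [mul_comm]
    apply mul_le_mul_of_nonneg_left _ hcardnn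
    have h5 : 1 ≤ (kapD N + 10 + 8) / ((n + 2 : ℕ) : ℝ) := by
      rw [le_div_iff₀ hν0]
      have h6 : ((n + 2 : ℕ) : ℝ) ≤ 8 := by
        have : n + 2 ≤ 8 := by omega
        exact_mod_cast this
      linarith
    have h7 : 0 ≤ 8 * ell N := by positivity
    nlinarith

end Vale.Agent.Lib.P328.Ent
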