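import Vale.Agent.Lib.P328.Ent.Cons

/-!
# P328, all margins: the Gamma integral of the share bound
-/

namespace Vale.Agent.Lib.P328.Ent

open Finset MeasureTheory Vale.Agent.Lib.P328 Vale.Agent.Lib.P328.Cap
open scoped ENNReal Nat

variable {m n : ℕ}

/-- The constant of the token bound. -/
noncomputable def Atok (N : ℕ) : ℝ := 9 * (1 + ell N) ^ 2

theorem Di_nonneg' {t : Fin (n + 1) → Fin m → ℝ} (ht : ∀ j i, 0 < t j i)
    (T : Fin (n + 1) → Fin m → ℕ) (i : Fin m) : 0 ≤ Di T t i := by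
  unfold Di
  refine Finset.sum_nonneg fun l _ => Finset.sum_nonneg fun i' _ => ?_
  have h1 := ht l.succ i
  have h2 := ht 0 i'
  have h3 := ht 0 i
  have h4 := ht l.succ i'
  positivity

theorem Gi_le_one {t : Fin (n + 1) → Fin m → ℝ} (ht : ∀ j i, 0 < t j i) (c0 : ℕ)
    (T : Fin (n + 1) → Fin m → ℕ) (i : Fin m) : Gi c0 T t i ≤ 1 := by
  unfold Gi
  have h := div_nonneg (Di_nonneg' ht T i) (Nat.cast_nonneg (α := ℝ) c0)
  exact inv_le_one_of_one_le₀ (by linarith)

theorem Gi_nonneg {t : Fin (n + 1) → Fin m → ℝ} (ht : ∀ j i, 0 < t j i) (c0 : ℕ)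
    (T : Fin (n + 1) → Fin m → ℕ) (i : Fin m) : 0 ≤ Gi c0 T t i := by
  unfold Gi
  have h := div_nonneg (Di_nonneg' ht T i) (Nat.cast_nonneg (α := ℝ) c0)
  exact inv_nonneg.2 (by linarith)

theorem measurable_Gi (c0 : ℕ) (T : Fin (n + 1) → Fin m → ℕ) (i : Fin m) :
    Measurable fun t => Gi c0 T t i := by
  have h : ∀ (a : Fin (n + 1)) (b : Fin m), Measurable fun t : Fin (n + 1) → Fin m → ℝ => t a b :=
    fun a b => (measurable_pi_apply b).comp (measurable_pi_apply a)
  unfold Gi Di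
  refine (measurable_const.add (Measurable.div_const ?_ _)).inv
  refine Finset.measurable_sum _ fun l _ => Finset.measurable_sum _ fun i' _ => ?_
  exact measurable_const.mul (((h _ _).mul (h _ _)).div ((h _ _).mul (h _ _)))

/-- A small power is at most `1 + x`. -/
theorem rpow_le_one_add {x g : ℝ} (hx : 0 < x) (h0 : 0 ≤ g) (h1 : g ≤ 1) : x ^ g ≤ 1 + x := by
  rcases le_total x 1 with h | h
  · have := Real.rpow_le_one hx.le h h0
    linarith
  · have h2 : x ^ g ≤ x ^ (1 : ℝ) := Real.rpow_le_rpow_of_exponent_le h h1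
    rw [Real.rpow_one] at h2
    linarith

theorem cell_rpow (k : ℕ) {g : ℝ} (h0 : 0 ≤ g) (h1 : g ≤ 1) :
    Sparse.cellI k (fun x => x ^ g) ≤ ENNReal.ofReal ((k : ℝ) + 2) := by
  have h2 : ∀ x : ℝ, 0 < x → x ^ g ≤ 1 * 1 + 1 * x := by
    intro x hx
    have := rpow_le_one_add hx h0 h1
    linarith
  refine (Sparse.cell_mono k h2).trans ?_
  rw [Sparse.cell_split k 1 1 (fun _ => 1) (fun x => x) zero_le_one zero_le_one
    (fun _ _ => zero_le_one) (fun _ hx => hx.le) measurable_const, Sparse.cell_one, Sparse.cell_id]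
  simp only [ENNReal.ofReal_one, mul_one]
  rw [show (k : ℝ) + 2 = 1 + ((k : ℝ) + 1) by ring,
    ENNReal.ofReal_add zero_le_one (by positivity),
    ENNReal.ofReal_add (by positivity) zero_le_one]
  simp

theorem cell_rpow_div (k : ℕ) (hk : 1 ≤ k) {g : ℝ} (h0 : 0 ≤ g) (h1 : g ≤ 1) :
    Sparse.cellI k (fun x => (x / (k : ℝ)) ^ g) ≤ ENNReal.ofReal 3 := by
  have hk0 : (1 : ℝ) ≤ k := by exact_mod_cast hk
  have hk1 : (0 : ℝ) < k := by linarith
  have h2 : ∀ x : ℝ, 0 < x → (x / (k : ℝ)) ^ g ≤ 1 * 1 + (1 / (k : ℝ)) * x := by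
    intro x hx
    have := rpow_le_one_add (x := x / (k : ℝ)) (by positivity) h0 h1
    have h3 : 1 / (k : ℝ) * x = x / k := by ring
    rw [h3]
    linarith
  refine (Sparse.cell_mono k h2).trans ?_
  rw [Sparse.cell_split k 1 (1 / (k : ℝ)) (fun _ => 1) (fun x => x) zero_le_one (by positivity)
    (fun _ _ => zero_le_one) (fun _ hx => hx.le) measurable_const, Sparse.cell_one, Sparse.cell_id]
  simp only [ENNReal.ofReal_one, mul_one]
  have h4 : ((k : ℝ≥0∞) + 1) = ENNReal.ofReal ((k : ℝ) + 1) := by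
    rw [ENNReal.ofReal_add (by positivity) zero_le_one]
    simp
  rw [h4, ← ENNReal.ofReal_mul (by positivity), ← ENNReal.ofReal_one,
    ← ENNReal.ofReal_add zero_le_one (by positivity)]
  refine ENNReal.ofReal_le_ofReal ?_
  have h5 : 1 / (k : ℝ) * ((k : ℝ) + 1) = 1 + 1 / k := by
    field_simp
  rw [h5]
  have h6 : 1 / (k : ℝ) ≤ 1 := by
    rw [div_le_one hk1]
    exact hk0
  linarith

theorem lintegral_rpow_Ioc {g : ℝ} (h1 : g < 1) :
    ∫⁻ x in Set.Ioc (0 : ℝ) 1, ENNReal.ofReal (x ^ (-g)) = ENNReal.ofReal (1 / (1 - g)) := by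
  have hr : (-1 : ℝ) < -g := by linarith
  have hint : IntervalIntegrable (fun x : ℝ => x ^ (-g)) volume 0 1 :=
    intervalIntegral.intervalIntegrable_rpow' hr
  have hint2 : IntegrableOn (fun x : ℝ => x ^ (-g)) (Set.Ioc 0 1) volume :=
    (intervalIntegrable_iff_integrableOn_Ioc_of_le zero_le_one).1 hint
  rw [← ofReal_integral_eq_lintegral_ofReal hint2]
  · have h2 := integral_rpow (a := 0) (b := 1) (r := -g) (Or.inl hr)
    rw [intervalIntegral.integral_of_le zero_le_one] at h2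
    rw [h2]
    congr 1
    have h3 : (0 : ℝ) ^ (-g + 1) = 0 := Real.zero_rpow (by linarith)
    rw [h3, Real.one_rpow]
    have : -g + 1 = 1 - g := by ring
    rw [this]
    simp
  · filter_upwards [ae_restrict_mem measurableSet_Ioc] with y hy
    exact Real.rpow_nonneg hy.1.le _

theorem cell_rpow_neg (k : ℕ) {g : ℝ} (h0 : 0 ≤ g) (h1 : g < 1) :
    Sparse.cellI k (fun x => x ^ (-g)) ≤ ENNReal.ofReal (1 + 1 / (1 - g)) := by
  have hpt : ∀ x : ℝ, Sparse.gcell k (fun x => x ^ (-g)) x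
      ≤ (Set.Ioc (0 : ℝ) 1).indicator (fun x => ENNReal.ofReal (x ^ (-g))) x
          + Sparse.gcell k (fun _ => 1) x := by
    intro x
    by_cases hx : 0 < x
    · by_cases hx1 : x ≤ 1
      · rw [Set.indicator_of_mem (Set.mem_Ioc.2 ⟨hx, hx1⟩)]
        refine le_trans ?_ le_self_add
        unfold Sparse.gcell expDens
        rw [if_pos hx]
        have h2 : Real.exp (-x) * (x ^ k / ((k ! : ℕ) : ℝ)) ≤ 1 := by
          have h3 := Real.pow_div_factorial_le_exp x hx.le k
          have h4 : Real.exp (-x) * Real.exp x = 1 := by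
            rw [← Real.exp_add]
            simp
          have h5 := Real.exp_pos (-x)
          nlinarith
        rw [← ENNReal.ofReal_mul (Real.exp_pos _).le]
        have h6 : ENNReal.ofReal (Real.exp (-x) * (x ^ k / ((k ! : ℕ) : ℝ))) ≤ 1 := by
          rw [← ENNReal.ofReal_one]
          exact ENNReal.ofReal_le_ofReal h2
        calc _ ≤ 1 * ENNReal.ofReal (x ^ (-g)) := mul_le_mul_left h6 _
          _ = ENNReal.ofReal (x ^ (-g)) := one_mul _
      · rw [Set.indicator_of_notMem (fun h => hx1 h.2), zero_add]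
        unfold Sparse.gcell
        refine mul_le_mul_right (ENNReal.ofReal_le_ofReal ?_) _
        exact Real.rpow_le_one_of_one_le_of_nonpos (by linarith [not_le.1 hx1]) (by linarith)
    · unfold Sparse.gcell
      rw [Sparse.expDens_of_nonpos hx]
      simp
  unfold Sparse.cellI
  refine (lintegral_mono hpt).trans ?_
  have hm : Measurable (Sparse.gcell k (fun _ : ℝ => (1 : ℝ))) :=
    Sparse.measurable_gcell k measurable_const
  rw [lintegral_add_right _ hm, lintegral_indicator measurableSet_Ioc, lintegral_rpow_Ioc h1]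
  have h7 := Sparse.cell_one k
  unfold Sparse.cellI at h7
  rw [h7, add_comm, ENNReal.ofReal_add zero_le_one (by
    have : 0 < 1 - g := by linarith
    positivity)]
  simp

/-- The four cells of a token. -/
def cellsE (i : Fin m) (e : Fin n × Fin m) : Fin 4 → Fin (n + 1) × Fin m :=
  ![(0, i), (e.1.succ, i), (0, e.2), (e.1.succ, e.2)]

/-- The four functions of a token. -/
noncomputable def funsE (g k : ℝ) : Fin 4 → ℝ → ℝ :=
  ![fun x => x ^ g, fun x => x ^ (-g), fun x => x ^ (-g), fun x => (x / k) ^ g]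

theorem cellsE_inj {i : Fin m} {e : Fin n × Fin m} (he : e.2 ≠ i) :
    Function.Injective (cellsE i e) := by
  have h1 : (e.1.succ : Fin (n + 1)) ≠ 0 := Fin.succ_ne_zero _
  have h2 : (0 : Fin (n + 1)) ≠ e.1.succ := h1.symm
  have h3 := he.symm
  intro r s h
  fin_cases r <;> fin_cases s <;> first | rfl | (exfalso; simp_all [cellsE])

/-- The monomial of a token. -/
noncomputable def monE (g : ℝ) (T : Fin (n + 1) → Fin m → ℕ) (i : Fin m) (e : Fin n × Fin m)
    (t : Fin (n + 1) → Fin m → ℝ) : ℝ :=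
  ∏ r, funsE g (T e.1.succ e.2 : ℝ) r (t (cellsE i e r).1 (cellsE i e r).2)

theorem funsE_nonneg (g k : ℝ) (hk : 0 ≤ k) (r : Fin 4) (x : ℝ) (hx : 0 < x) : 0 ≤ funsE g k r x := by
  fin_cases r <;> simp only [funsE] <;> first | exact Real.rpow_nonneg hx.le _ | exact Real.rpow_nonneg (by positivity) _

theorem funsE_meas (g k : ℝ) (r : Fin 4) : Measurable (funsE g k r) := by
  fin_cases r <;> simp only [funsE]
  · exact measurable_id.pow_const _
  · exact measurable_id.pow_const _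
  · exact measurable_id.pow_const _
  · exact (measurable_id.div_const _).pow_const _

theorem measurable_monE (g : ℝ) (T : Fin (n + 1) → Fin m → ℕ) (i : Fin m) (e : Fin n × Fin m) :
    Measurable (monE g T i e) := by
  unfold monE
  refine Finset.measurable_prod _ fun r _ => (funsE_meas _ _ r).comp ?_
  exact (measurable_pi_apply _).comp (measurable_pi_apply _)

/-- The integral of the monomial of one token. -/
theorem lintegral_monE (T : Fin (n + 1) → Fin m → ℕ) (i : Fin m) (e : Fin n × Fin m)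
    (he : e.2 ≠ i) (hk : 1 ≤ T e.1.succ e.2) {g : ℝ} (h0 : 0 ≤ g) (h1 : g < 1) :
    ∫⁻ t, wmat t * ENNReal.ofReal (Sparse.wt t T) * ENNReal.ofReal (monE g T i e t)
      ≤ ENNReal.ofReal (((T 0 i : ℝ) + 2) * (1 + 1 / (1 - g)) ^ 2 * 3) := by
  have hk0 : (0 : ℝ) ≤ (T e.1.succ e.2 : ℝ) := Nat.cast_nonneg _
  have h := Sparse.lintegral_monomial T (cellsE i e) (cellsE_inj he)
    (funsE g (T e.1.succ e.2 : ℝ)) (fun r x hx => funsE_nonneg g _ hk0 r x hx)
    (fun r => funsE_meas g _ r)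
  unfold monE
  rw [h, Fin.prod_univ_four]
  have e1 : Sparse.cellI (T (cellsE i e 0).1 (cellsE i e 0).2) (funsE g (T e.1.succ e.2 : ℝ) 0)
      ≤ ENNReal.ofReal ((T 0 i : ℝ) + 2) := cell_rpow (T 0 i) h0 h1.le
  have e2 : Sparse.cellI (T (cellsE i e 1).1 (cellsE i e 1).2) (funsE g (T e.1.succ e.2 : ℝ) 1)
      ≤ ENNReal.ofReal (1 + 1 / (1 - g)) := cell_rpow_neg _ h0 h1
  have e3 : Sparse.cellI (T (cellsE i e 2).1 (cellsE i e 2).2) (funsE g (T e.1.succ e.2 : ℝ) 2)
      ≤ ENNReal.ofReal (1 + 1 / (1 - g)) := cell_rpow_neg _ h0 h1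
  have e4 : Sparse.cellI (T (cellsE i e 3).1 (cellsE i e 3).2) (funsE g (T e.1.succ e.2 : ℝ) 3)
      ≤ ENNReal.ofReal 3 := cell_rpow_div _ hk h0 h1.le
  refine (mul_le_mul' (mul_le_mul' (mul_le_mul' e1 e2) e3) e4).trans ?_
  have h3 : 0 < 1 - g := by linarith
  have h4 : (0 : ℝ) ≤ (T 0 i : ℝ) + 2 := by positivity
  have h5 : (0 : ℝ) ≤ 1 + 1 / (1 - g) := by positivity
  rw [← ENNReal.ofReal_mul h4, ← ENNReal.ofReal_mul (by positivity),
    ← ENNReal.ofReal_mul (by positivity)]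
  refine ENNReal.ofReal_le_ofReal (le_of_eq ?_)
  ring

/-- The value of the monomial of a token. -/
theorem monE_eq {g : ℝ} {T : Fin (n + 1) → Fin m → ℕ} {i : Fin m} {e : Fin n × Fin m}
    {t : Fin (n + 1) → Fin m → ℝ} (ht : ∀ j i, 0 < t j i) (hk : 1 ≤ T e.1.succ e.2) :
    monE g T i e t
      = (((T e.1.succ e.2 : ℝ) * (t e.1.succ i * t 0 e.2 / (t 0 i * t e.1.succ e.2)))) ^ (-g) := by
  have hk0 : (0 : ℝ) < (T e.1.succ e.2 : ℝ) := by exact_mod_cast hk
  have x1 := ht 0 i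
  have x2 := ht e.1.succ i
  have x3 := ht 0 e.2
  have x4 := ht e.1.succ e.2
  unfold monE
  rw [Fin.prod_univ_four]
  simp only [cellsE, funsE, Fin.isValue, Matrix.cons_val_zero, Matrix.cons_val_one, Matrix.cons_val]
  set k : ℝ := (T e.1.succ e.2 : ℝ)
  have h1 : k * (t e.1.succ i * t 0 e.2 / (t 0 i * t e.1.succ e.2))
      = (t 0 i * (t e.1.succ i)⁻¹ * (t 0 e.2)⁻¹ * (t e.1.succ e.2 / k))⁻¹ := by
    field_simp
  have h2 : ((t 0 i * (t e.1.succ i)⁻¹ * (t 0 e.2)⁻¹ * (t e.1.succ e.2 / k))⁻¹) ^ (-g)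
      = (t 0 i * (t e.1.succ i)⁻¹ * (t 0 e.2)⁻¹ * (t e.1.succ e.2 / k)) ^ g := by
    rw [Real.rpow_neg (by positivity), Real.inv_rpow (by positivity), inv_inv]
  rw [h1, h2, Real.mul_rpow (by positivity) (by positivity),
    Real.mul_rpow (by positivity) (by positivity),
    Real.mul_rpow (by positivity) (by positivity), Real.inv_rpow x2.le, Real.inv_rpow x3.le,
    Real.rpow_neg x2.le, Real.rpow_neg x3.le]

/-- The pointwise bound of the share bound by an average of monomials over the tokens. -/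
theorem Gi_le_avg {t : Fin (n + 1) → Fin m → ℝ} (ht : ∀ j i, 0 < t j i)
    (T : Fin (n + 1) → Fin m → ℕ) (i : Fin m) (c0 : ℕ) (hc0 : 0 < c0)
    (hE : (Ei T i).Nonempty) {g : ℝ} (h0 : 0 ≤ g) (h1 : g ≤ 1) :
    Gi c0 T t i ≤ ∑ e ∈ Ei T i, (((Ei T i).card : ℝ)⁻¹ * (((Ei T i).card : ℝ) / (c0 : ℝ)) ^ (-g))
      * monE g T i e t := by
  set E := Ei T i with hEdef
  have hcE : (0 : ℝ) < (E.card : ℝ) := by exact_mod_cast Finset.card_pos.2 hE
  have hc : (0 : ℝ) < c0 := by exact_mod_cast hc0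
  set θ : ℝ := (E.card : ℝ) / (c0 : ℝ) with hθ
  have hθ0 : 0 < θ := by positivity
  set a : Fin n × Fin m → ℝ := fun e =>
    (T e.1.succ e.2 : ℝ) * (t e.1.succ i * t 0 e.2 / (t 0 i * t e.1.succ e.2)) with ha
  have ha0 : ∀ e, 0 ≤ a e := by
    intro e
    have x1 := ht 0 i
    have x2 := ht e.1.succ i
    have x3 := ht 0 e.2
    have x4 := ht e.1.succ e.2
    simp only [ha]
    positivity
  have haE : ∀ e ∈ E, 0 < a e := by
    intro e he
    have hk : 1 ≤ T e.1.succ e.2 := (mem_filter.1 he).2.2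
    have hk0 : (0 : ℝ) < (T e.1.succ e.2 : ℝ) := by exact_mod_cast hk
    have x1 := ht 0 i
    have x2 := ht e.1.succ i
    have x3 := ht 0 e.2
    have x4 := ht e.1.succ e.2
    simp only [ha]
    positivity
  -- the tokens are part of the cross ratio sum
  have hD : ∑ e ∈ E, a e ≤ Di T t i := by
    unfold Di
    rw [← Finset.sum_product' (univ : Finset (Fin n)) (univ : Finset (Fin m))
      (fun l i' => (T l.succ i' : ℝ) * (t l.succ i * t 0 i' / (t 0 i * t l.succ i')))]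
    exact Finset.sum_le_sum_of_subset_of_nonneg (by simp) fun e _ _ => ha0 e
  set xbar : ℝ := ∑ e ∈ E, a e / (c0 : ℝ) with hxbar
  have hxbar0 : 0 ≤ xbar := Finset.sum_nonneg fun e _ => div_nonneg (ha0 e) hc.le
  have hG : Gi c0 T t i ≤ (1 + xbar)⁻¹ := by
    unfold Gi
    refine inv_anti₀ (by linarith) ?_
    have : xbar = (∑ e ∈ E, a e) / (c0 : ℝ) := by
      rw [hxbar, Finset.sum_div]
    rw [this]
    have h2 : (∑ e ∈ E, a e) / (c0 : ℝ) ≤ Di T t i / (c0 : ℝ) :=
      div_le_div_of_nonneg_right hD hc.le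
    linarith
  refine hG.trans ?_
  -- tangent line at the mean
  have htan : ∀ e ∈ E, (1 + xbar)⁻¹ - (θ * a e - xbar) / (1 + xbar) ^ 2
      ≤ θ ^ (-g) * monE g T i e t := by
    intro e he
    have hk : 1 ≤ T e.1.succ e.2 := (mem_filter.1 he).2.2
    rw [monE_eq ht hk]
    have hz : 0 < θ * a e := mul_pos hθ0 (haE e he)
    have h2 : θ ^ (-g) * a e ^ (-g) = (θ * a e) ^ (-g) :=
      (Real.mul_rpow hθ0.le (haE e he).le).symm
    simp only [ha] at h2 ⊢
    rw [h2]
    set z : ℝ := θ * ((T e.1.succ e.2 : ℝ) * (t e.1.succ i * t 0 e.2 / (t 0 i * t e.1.succ e.2)))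
    have h3 : (1 + z)⁻¹ ≤ z ^ (-g) := by
      rw [Real.rpow_neg hz.le]
      exact inv_anti₀ (Real.rpow_pos_of_pos hz _) (rpow_le_one_add hz h0 h1)
    have h4 : 0 < 1 + xbar := by linarith
    have h5 : (1 + z)⁻¹ - ((1 + xbar)⁻¹ - (z - xbar) / (1 + xbar) ^ 2)
        = (z - xbar) ^ 2 / ((1 + z) * (1 + xbar) ^ 2) := by
      have h6 : 0 < 1 + z := by linarith
      field_simp
      ring
    have h7 : 0 ≤ (z - xbar) ^ 2 / ((1 + z) * (1 + xbar) ^ 2) := by
      have h6 : 0 < 1 + z := by linarith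
      positivity
    linarith
  have hsum0 : ∑ e ∈ E, (θ * a e - xbar) = 0 := by
    rw [Finset.sum_sub_distrib, Finset.sum_const, nsmul_eq_mul, ← Finset.mul_sum]
    have : xbar = (∑ e ∈ E, a e) / (c0 : ℝ) := by
      rw [hxbar, Finset.sum_div]
    rw [this, hθ]
    field_simp
    ring
  have hsum : (E.card : ℝ) * (1 + xbar)⁻¹ ≤ ∑ e ∈ E, θ ^ (-g) * monE g T i e t := by
    have h2 := Finset.sum_le_sum htan
    rw [Finset.sum_sub_distrib, Finset.sum_const, nsmul_eq_mul, ← Finset.sum_div, hsum0,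
      zero_div, sub_zero] at h2
    exact h2
  have h8 : ∑ e ∈ E, ((E.card : ℝ)⁻¹ * θ ^ (-g)) * monE g T i e t
      = (E.card : ℝ)⁻¹ * ∑ e ∈ E, θ ^ (-g) * monE g T i e t := by
    rw [Finset.mul_sum]
    refine Finset.sum_congr rfl fun e _ => ?_
    ring
  rw [h8]
  calc (1 + xbar)⁻¹ = (E.card : ℝ)⁻¹ * ((E.card : ℝ) * (1 + xbar)⁻¹) := by
        field_simp
    _ ≤ _ := mul_le_mul_of_nonneg_left hsum (by positivity)

/-- The integral of the share bound over the planted law of `T`. -/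
theorem token_bound (T : Fin (n + 1) → Fin m → ℕ) (i : Fin m) (c0 N : ℕ) (hc0 : 0 < c0)
    (hE : (Ei T i).Nonempty) (hN : (Ei T i).card ≤ N) :
    ∫⁻ t, wmat t * ENNReal.ofReal (Sparse.wt t T * Gi c0 T t i)
      ≤ ENNReal.ofReal (Atok N * (2 + (T 0 i : ℝ)) * (c0 : ℝ) / ((Ei T i).card : ℝ)) := by
  set E := Ei T i with hEdef
  have hcE : (0 : ℝ) < (E.card : ℝ) := by exact_mod_cast Finset.card_pos.2 hE
  have hc : (0 : ℝ) < c0 := by exact_mod_cast hc0
  have hc1 : (1 : ℝ) ≤ c0 := by exact_mod_cast hc0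
  have hell := ell_ge_one N
  set L : ℝ := ell N with hL
  have hL0 : 0 < L := by linarith
  set g : ℝ := 1 - 1 / L with hg
  have hg0 : 0 ≤ g := by
    have : 1 / L ≤ 1 := by
      rw [div_le_one hL0]
      exact hell
    linarith
  have hg1 : g < 1 := by
    have : 0 < 1 / L := by positivity
    linarith
  have hgL : 1 / (1 - g) = L := by
    rw [hg]
    field_simp
    ring
  set θ : ℝ := (E.card : ℝ) / (c0 : ℝ) with hθ
  have hθ0 : 0 < θ := by positivity
  set b : ℝ := (E.card : ℝ)⁻¹ * θ ^ (-g) with hb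
  have hb0 : 0 ≤ b := by positivity
  have hpt : ∀ t : Fin (n + 1) → Fin m → ℝ, wmat t * ENNReal.ofReal (Sparse.wt t T * Gi c0 T t i)
      ≤ ∑ e ∈ E, ENNReal.ofReal b * (wmat t * ENNReal.ofReal (Sparse.wt t T)
          * ENNReal.ofReal (monE g T i e t)) := by
    intro t
    by_cases hw : wmat t = 0
    · rw [hw, zero_mul]
      exact zero_le
    · have hp := wmat_ne_zero_pos hw
      have hwt := Sparse.wt_pos hp T
      have h2 := Gi_le_avg hp T i c0 hc0 hE hg0 hg1.le
      have hmon : ∀ e ∈ E, 0 ≤ monE g T i e t := by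
        intro e he
        have hk : 1 ≤ T e.1.succ e.2 := (mem_filter.1 he).2.2
        rw [monE_eq hp hk]
        have x1 := hp 0 i
        have x2 := hp e.1.succ i
        have x3 := hp 0 e.2
        have x4 := hp e.1.succ e.2
        exact Real.rpow_nonneg (by positivity) _
      have h3 : ENNReal.ofReal (Sparse.wt t T * Gi c0 T t i)
          ≤ ENNReal.ofReal (Sparse.wt t T) * ∑ e ∈ E, ENNReal.ofReal (b * monE g T i e t) := by
        rw [← ENNReal.ofReal_sum_of_nonneg fun e he => mul_nonneg hb0 (hmon e he),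
          ← ENNReal.ofReal_mul hwt.le]
        exact ENNReal.ofReal_le_ofReal (mul_le_mul_of_nonneg_left h2 hwt.le)
      calc wmat t * ENNReal.ofReal (Sparse.wt t T * Gi c0 T t i)
          ≤ wmat t * (ENNReal.ofReal (Sparse.wt t T)
              * ∑ e ∈ E, ENNReal.ofReal (b * monE g T i e t)) := mul_le_mul_right h3 _
        _ = _ := by
          rw [Finset.mul_sum, Finset.mul_sum]
          refine Finset.sum_congr rfl fun e _ => ?_
          rw [ENNReal.ofReal_mul hb0]
          ring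
  refine (lintegral_mono hpt).trans ?_
  have hmeas : ∀ e ∈ E, Measurable fun t : Fin (n + 1) → Fin m → ℝ =>
      ENNReal.ofReal b * (wmat t * ENNReal.ofReal (Sparse.wt t T)
          * ENNReal.ofReal (monE g T i e t)) := by
    intro e _
    exact ((measurable_wmat.mul (Sparse.measurable_wt T).ennreal_ofReal).mul
      (measurable_monE g T i e).ennreal_ofReal).const_mul _
  rw [lintegral_finsetSum _ hmeas]
  set C : ℝ := ((T 0 i : ℝ) + 2) * (1 + L) ^ 2 * 3 with hC
  have hC0 : 0 ≤ C := by positivity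
  have hone : ∀ e ∈ E, ∫⁻ t, ENNReal.ofReal b * (wmat t * ENNReal.ofReal (Sparse.wt t T)
          * ENNReal.ofReal (monE g T i e t)) ≤ ENNReal.ofReal (b * C) := by
    intro e he
    rw [lintegral_const_mul' _ _ ENNReal.ofReal_ne_top, ENNReal.ofReal_mul hb0]
    refine mul_le_mul_right ?_ _
    have h2 := lintegral_monE T i e (mem_filter.1 he).2.1 (mem_filter.1 he).2.2 hg0 hg1
    rw [hgL] at h2
    exact h2
  refine (Finset.sum_le_sum hone).trans ?_
  rw [Finset.sum_const, nsmul_eq_mul, ← ENNReal.ofReal_natCast,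
    ← ENNReal.ofReal_mul (Nat.cast_nonneg _)]
  refine ENNReal.ofReal_le_ofReal ?_
  -- the arithmetic
  have hθe : θ ^ (-g) ≤ 3 * θ⁻¹ := by
    have h2 : θ ^ (-g) = θ⁻¹ * θ ^ (1 / L) := by
      have : -g = (-1 : ℝ) + 1 / L := by
        rw [hg]
        ring
      rw [this, Real.rpow_add hθ0, Real.rpow_neg_one]
    rw [h2, mul_comm (3 : ℝ)]
    refine mul_le_mul_of_nonneg_left ?_ (by positivity)
    have h3 : θ ≤ (N : ℝ) + 3 := by
      have h4 : θ ≤ (E.card : ℝ) := by
        rw [hθ]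
        exact div_le_self (Nat.cast_nonneg _) hc1
      have h5 : (E.card : ℝ) ≤ N := by exact_mod_cast hN
      linarith
    have h6 : θ ^ (1 / L) ≤ ((N : ℝ) + 3) ^ (1 / L) :=
      Real.rpow_le_rpow hθ0.le h3 (by positivity)
    have h7 : ((N : ℝ) + 3) ^ (1 / L) = Real.exp 1 := by
      rw [Real.rpow_def_of_pos (by positivity)]
      congr 1
      have : Real.log ((N : ℝ) + 3) = L := rfl
      rw [this]
      field_simp
    have h8 : Real.exp 1 < 3 := by
      have := Real.exp_one_lt_d9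
      norm_num at this ⊢
      linarith
    linarith
  have h9 : (E.card : ℝ) * (b * C) = θ ^ (-g) * C := by
    rw [hb]
    field_simp
  rw [h9]
  have h10 : Atok N * (2 + (T 0 i : ℝ)) * (c0 : ℝ) / (E.card : ℝ) = 3 * θ⁻¹ * C := by
    rw [hC, hθ]
    unfold Atok
    field_simp
    ring
  rw [h10]
  exact mul_le_mul_of_nonneg_right hθe hC0

end Vale.Agent.Lib.P328.Ent
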